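import Vale.Agent.P153.K2.Stm

/-! P153, module K2. -/

open Set

noncomputable section
namespace Vale.Agent.P153.K2

theorem bva_sum (a : V →₀ ℝ) (k : ℤ) (H : Cfg) :
    lin a H - k * tot a = ∑ x ∈ a.support, a x * ((H x : ℝ) - k) := by
  simp only [lin, tot, Finsupp.sum, Finset.mul_sum, ← Finset.sum_sub_distrib]
  exact Finset.sum_congr rfl fun x _ => by ring

theorem bva_flat (U : Set V) (a : V →₀ ℝ) (k : ℤ) :
    Ex (flat U k) (fun H => lin a H - k * tot a) = 0 := by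
  have e := Ex_flat_flip U k (2 * k) (fun H => lin a H - k * tot a)
  rw [show 2 * k - k = k by ring] at e
  have e2 : Ex (flat U k) (fun H => lin a (fun x => 2 * k - H x) - k * tot a) =
      -Ex (flat U k) (fun H => lin a H - k * tot a) := by
    rw [← Ex_neg]
    refine Ex_congr fun H _ => ?_
    rw [bva_sum, bva_sum, ← Finset.sum_neg_distrib]
    exact Finset.sum_congr rfl fun x _ => by push_cast; ring
  linarith

theorem bva_path {St : Set V} {k : ℤ} {H : Cfg} {x : V}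
    (hx : x ∈ Rch St (fun s _ => s ≠ k) H) (hk : H x ≠ k) :
    ∃ y ∈ St, H y ≠ k ∧ Conn (both {v | H v ≠ k}) univ y x := by
  obtain ⟨y, hy, hc⟩ := hx
  refine ⟨y, hy, hc.ind (P := fun v => H v ≠ k → H y ≠ k ∧ Conn (both {v | H v ≠ k}) univ y v)
    (fun h => ⟨h, Conn.rfl⟩) (fun u v _ h1 h2 h3 h4 ih hv => ?_) hk⟩
  exact ⟨(ih h2).1, (ih h2).2.tail h1 ⟨h2, hv⟩ h3 h4⟩

theorem bv0 : BV0 := by
  classical
  intro F S O O' k a G hF hk hG hG1
  have hB : (F \ O).Finite := hF.subset sdiff_subset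
  set Bad : Set Cfg :=
    {H | ∃ x, a x ≠ 0 ∧ x ∈ Rch (F \ O)ᶜ (fun s _ => s ≠ k) H ∧ H x ≠ k} with hBad
  have hO : O ⊆ (F \ O)ᶜ := fun x hx h => h.2 hx
  have t := tower_explore (S := dob F S) (F \ O)ᶜ (fun s _ => s ≠ k)
    (fun H => lin a H - k * tot a) (fun H => Badᶜ.indicator 1 H * G H) (by
      intro H _ K _ e1 e2
      have g1 : G K = G H := hG K H fun x hx => e2 x (subset_Rch _ _ _ (hO hx))
      have g2 : K ∈ Bad ↔ H ∈ Bad := by
        constructor
        · rintro ⟨x, h1, h2, h3⟩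
          rw [e1] at h2
          exact ⟨x, h1, h2, e2 x h2 ▸ h3⟩
        · rintro ⟨x, h1, h2, h3⟩
          exact ⟨x, h1, e1 ▸ h2, (e2 x h2).symm ▸ h3⟩
      by_cases h : H ∈ Bad
      · simp [h, g2.2 h]
      · simp [h, mt g2.1 h, g1])
  have z : Ex (dob F S) (fun H => Badᶜ.indicator 1 H * G H * (lin a H - k * tot a)) = 0 := by
    rw [t, ← Ex_zero (dob F S)]
    refine Ex_congr fun H hH => ?_
    by_cases h : H ∈ Bad
    · simp [h]
    rw [cell_flat (k := k) (f' := fun H => lin a H - k * tot a) (fun s => s ≠ k)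
      (good_dob hF S).1 hB ((freeIn_dob F S).mono sdiff_subset) hH obd_ne, bva_flat, mul_zero]
    intro K hK K' hK' e
    rw [bva_sum, bva_sum]
    refine Finset.sum_congr rfl fun x hx => ?_
    by_cases hx' : x ∈ Rch (F \ O)ᶜ (fun s _ => s ≠ k) H
    · have h1 : H x = k := by
        by_contra h1
        exact h ⟨x, Finsupp.mem_support_iff.1 hx, hx', h1⟩
      rw [hK.2.1 x hx', h1, hK'.2 x (notMem_compl_iff.2 hx')]
    · rw [e x hx']
  have w : Ex (dob F S) (fun H => (lin a H - k * tot a) * G H) =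
      Ex (dob F S) fun H => Bad.indicator 1 H * ((lin a H - k * tot a) * G H) := by
    rw [← add_zero (Ex (dob F S) fun H => Bad.indicator 1 H * _), ← z, ← Ex_add]
    refine Ex_congr fun H _ => ?_
    rw [ind_compl]
    ring
  rw [w]
  refine (abs_Ex_ind_le _ _ _).trans (mul_le_mul (Real.sqrt_le_sqrt (Pr_mono ?_))
    (Real.sqrt_le_sqrt (Ex_mono fun H _ => ?_)) (Real.sqrt_nonneg _) (Real.sqrt_nonneg _))
  · rintro H hH ⟨x, h1, h2, h3⟩
    obtain ⟨y, hy, h4, hc⟩ := bva_path h2 h3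
    refine ⟨x, h1, h3, x, rfl, y, ?_, Conn.symm (both_symm _) hc⟩
    by_cases hyO : y ∈ O
    · exact Or.inl hyO
    have hyF : y ∉ F := fun h => hy ⟨h, hyO⟩
    rcases hk with ⟨rfl, hk⟩ | ⟨rfl, hk⟩
    · exact Or.inr (hk ⟨hyF, fun h => h4 ((hH.2 y hyF).1 h)⟩)
    · exact Or.inr (hk ⟨hyF, by_contra fun h => h4 ((hH.2 y hyF).2 h)⟩)
  · rw [mul_pow]
    have : G H ^ 2 ≤ 1 := by
      rw [← sq_abs]
      exact pow_le_one₀ (abs_nonneg _) (hG1 H)
    exact mul_le_of_le_one_right (sq_nonneg _) this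

end Vale.Agent.P153.K2
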