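import Vale.Agent.P153.K2.Stm

/-! P153, module K2. -/

open Set

noncomputable section
namespace Vale.Agent.P153.K2

theorem bvb_path {A W T : Set V} (hAW : ∀ v ∈ A, v ∉ W) {x v : V} (hx : x ∈ A)
    (h : Conn (both A) univ x v) :
    (∃ a ∈ T, Conn (both A) univ a v) ∨ (v ∈ (W ∪ T)ᶜ ∧ x ∉ T ∧ Conn tt (W ∪ T)ᶜ x v) := by
  induction h with
  | refl =>
    by_cases hT : x ∈ T
    · exact Or.inl ⟨x, hT, Relation.ReflTransGen.refl⟩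
    · exact Or.inr ⟨fun h => h.elim (hAW x hx) hT, hT, Relation.ReflTransGen.refl⟩
  | @tail b c _ hbc ih =>
    rcases ih with ⟨a, ha, hab⟩ | ⟨hb, hxT, hxb⟩
    · exact Or.inl ⟨a, ha, Relation.ReflTransGen.tail hab hbc⟩
    · by_cases hT : c ∈ T
      · exact Or.inl ⟨c, hT, Relation.ReflTransGen.refl⟩
      · have hc : c ∈ (W ∪ T)ᶜ := fun h => h.elim (hAW c hbc.2.1.2) hT
        exact Or.inr ⟨hc, hxT, Relation.ReflTransGen.tail hxb ⟨hbc.1, trivial, hb, hc⟩⟩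

theorem bvr (hk : K2ne) (h0 : BV0) : BVR := by
  intro η hη
  obtain ⟨M, hM⟩ := hk (η ^ 2 / 2) (by positivity)
  refine ⟨M, fun F S W T O O' z t r R k a G hR hMr hO hO' hkS hG hG1 hsep => ?_⟩
  have hk1 : k = 1 ∧ W ⊆ S ∨ k = 0 ∧ Disjoint W S :=
    hkS.imp (fun h => ⟨h.1, h.2.1⟩) fun h => ⟨h.1, h.2.1⟩
  have hk2 : k = 1 ∧ Fᶜ \ S ⊆ O' ∨ k = 0 ∧ Fᶜ ∩ S ⊆ O' :=
    hkS.imp (fun h => ⟨h.1, h.2.2⟩) fun h => ⟨h.1, h.2.2⟩
  have h1 := hM F S W T O z t r R k hR hMr hO hk1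
  have h2 := hM F S W T O' z t r R k hR hMr hO' hk1
  refine (h0 F S O O' k a G hR.fin hk2 hG hG1).trans
    (mul_le_mul_of_nonneg_right ?_ (Real.sqrt_nonneg _))
  have h3 : Pr (dob F S) {H | ∃ x, a x ≠ 0 ∧ H x ≠ k ∧ Lk {v | H v ≠ k} {x} (O ∪ O')} ≤
      Pr (dob F S) ({H | Lk {v | H v ≠ k} T O} ∪ {H | Lk {v | H v ≠ k} T O'}) := by
    apply Pr_mono
    rintro H hH ⟨x, hax, hx, y, hy, b, hb, hc⟩
    rw [mem_singleton_iff] at hy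
    subst hy
    have hAW : ∀ v ∈ {v | H v ≠ k}, v ∉ W := by
      intro v hv hW
      have hF : v ∉ F := fun h => disjoint_left.1 hR.WF hW h
      apply hv
      rcases hk1 with ⟨e, h⟩ | ⟨e, h⟩
      · rw [e]; exact (hH.2 v hF).1 (h hW)
      · rw [e]; exact (hH.2 v hF).2 (disjoint_left.1 h hW)
    rcases bvb_path (T := T) hAW hx hc with ⟨c, hcT, hcb⟩ | ⟨-, hyT, hyb⟩
    · rcases hb with hb | hb
      · exact Or.inl ⟨c, hcT, b, hb, hcb⟩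
      · exact Or.inr ⟨c, hcT, b, hb, hcb⟩
    · exact absurd hyb (hsep y hax (hAW y hx) hyT b hb)
  have h4 := Pr_union_le (dob F S) {H | Lk {v | H v ≠ k} T O} {H | Lk {v | H v ≠ k} T O'}
  rw [← Real.sqrt_sq hη.le]
  exact Real.sqrt_le_sqrt (by linarith)

end Vale.Agent.P153.K2
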