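import Vale.Agent.P153.K2.Stm

/-! P153, module K2. -/

open Set

noncomputable section
namespace Vale.Agent.P153.K2

theorem s_card : S_card := by
  intro x n
  constructor
  · have h := Finset.card_le_card_of_injOn (s := Finset.range n ×ˢ Finset.range n) (t := hexF x n)
      (fun p : ℕ × ℕ => ((x.1 + p.1, x.2 - p.2) : V)) (fun p hp => by
        simp only [Finset.coe_product, Finset.coe_range, mem_prod, mem_Iio] at hp
        simp only [hexF, Finite.coe_toFinset]
        rw [mem_hex, nrm_sub]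
        omega) (fun p _ q _ e => by
        simp only [Prod.mk.injEq] at e
        exact Prod.ext (by omega) (by omega))
    simpa [sq] using h
  · have h : hexF x n ⊆ Finset.Icc (x.1 - n) (x.1 + n) ×ˢ Finset.Icc (x.2 - n) (x.2 + n) :=
      fun y hy => by
        have h1 := mem_rh.1 (hex_subset_rh ((Finite.mem_toFinset _).1 hy))
        simp only [Finset.mem_product, Finset.mem_Icc]
        omega
    refine (Finset.card_le_card h).trans (le_of_eq ?_)
    have e : ∀ a : ℤ, (a + n + 1 - (a - n)).toNat = 2 * n + 1 := fun a => by omega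
    rw [Finset.card_product, Int.card_Icc, Int.card_Icc, e, e, sq]

theorem card_prop {p q r a b c d : Prop} (h1 : ¬ (p ↔ q) ↔ ¬ (a ↔ b))
    (h2 : (q ↔ r) ↔ (c ↔ d)) : ¬ (p ↔ r) ↔ ¬ ((a ↔ c) ↔ (b ↔ d)) := by
  by_cases p <;> by_cases q <;> by_cases r <;> by_cases a <;> by_cases b <;> by_cases c <;>
    by_cases d <;> simp_all

theorem s_cobd : S_cobd := by
  intro A t u _ h
  refine Conn.ind (P := fun v => ∃ g : V → Prop, ∀ a b, Adj a b → a ∉ A → b ∉ A →
    (chi t v a b ↔ ¬ (g a ↔ g b))) h ⟨fun _ => True, fun a b _ _ _ => by simp [chi]⟩ ?_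
  rintro v w - hvw - hv hw ⟨g, hg⟩
  refine ⟨fun a => (g a ↔ cutL v w a), fun a b hab ha hb => ?_⟩
  have h1 := hg a b hab ha hb
  have h2 := crossR_step hvw hab (fun e => ha (e ▸ hv)) (fun e => ha (e ▸ hw))
    (fun e => hb (e ▸ hv)) (fun e => hb (e ▸ hw))
  exact card_prop h1 h2

end Vale.Agent.P153.K2
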