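import Vale.Agent.P153.K2.Stm

/-! P153, module K2. -/

open Set

noncomputable section
namespace Vale.Agent.P153.K2

theorem s_ldob : S_ldob := by
  intro F S W C hF cF hW hS hC
  have v : ∀ x, pw S (fun _ => (1 : ℤ)) (fun _ => 0) x = 0 ∨ pw S (fun _ => (1 : ℤ)) (fun _ => 0) x = 1 :=
    fun x => by
      by_cases hx : x ∈ S
      · exact Or.inr (pw_in _ _ hx)
      · exact Or.inl (pw_out _ _ hx)
  have e : dob F S = lowS W F (pw S (fun _ => 1) fun _ => 0) := by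
    ext H
    refine ⟨fun ⟨h1, h2⟩ => ?_, fun ⟨h1, h2, _⟩ => ⟨h1, fun x hx => ⟨fun h => ?_, fun h => ?_⟩⟩⟩
    · have h3 : ∀ x, x ∉ F → H x = pw S (fun _ => (1 : ℤ)) (fun _ => 0) x := fun x hx => by
        by_cases h : x ∈ S
        · rw [pw_in _ _ h, (h2 x hx).1 h]
        · rw [pw_out _ _ h, (h2 x hx).2 h]
      refine ⟨h1, h3, fun x ⟨_, y, hy, e⟩ => ?_, fun x _ ⟨_, y, hy, e⟩ => ?_⟩
      · have := abs_le.1 (h1 x y e)
        have := h3 y hy
        have := v y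
        omega
      · have := abs_le.1 (h1 x y e)
        have := (h2 y (disjoint_left.1 hW hy)).1 (hS hy)
        omega
    · rw [h2 x hx, pw_in _ _ h]
    · rw [h2 x hx, pw_out _ _ h]
  refine ⟨_, ⟨hF, cF, hW, fun x hx => hC hx.1, e ▸ (good_dob hF S).2, fun x _ => ?_,
    fun x _ _ => ?_, fun x _ => ?_⟩, e⟩
  all_goals have := v x; omega

theorem s_cell : S_cell := by
  intro W C Ω Ω' U ξ H y N L hH hΩ hd
  set R := Rch (hex y N)ᶜ (eLe (-2)) H with hR
  have out : ∀ a ∈ R, ∀ b, b ∉ R → Adj a b → -1 ≤ H a ∧ -1 ≤ H b := fun a ha b hb hab => by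
    have := explore_out ha hb hab
    unfold eLe at this
    omega
  have e : cell (lowS W U ξ) (hex y N)ᶜ (eLe (-2)) H = lowS W (U \ R) H := by
    ext K
    refine ⟨fun ⟨h1, h2, h3⟩ => ⟨h1.1, fun x hx => ?_, fun x ⟨hx, z, hz, e⟩ => ?_,
      fun x hx hx' => h1.2.2.2 x hx.1 hx'⟩, fun ⟨h1, h2, h3, h4⟩ => ?_⟩
    · by_cases h : x ∈ R
      · exact h2 x h
      · have : x ∉ U := fun h' => hx ⟨h', h⟩
        rw [h1.2.1 x this, hH.2.1 x this]
    · by_cases h : z ∈ R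
      · have := h3 z h x hx.2 e.symm
        unfold eLe at this
        omega
      · exact h1.2.2.1 x ⟨hx.1, z, fun h' => hz ⟨h', h⟩, e⟩
    · have k : ∀ x ∈ R, K x = H x := fun x hx => h2 x fun h => h.2 hx
      refine ⟨⟨h1, fun x hx => ?_, fun x hx => ?_, fun x hx hx' => ?_⟩, k, fun a ha b hb hab => ?_⟩
      · rw [h2 x fun h => hx h.1, hH.2.1 x hx]
      · by_cases h : x ∈ R
        · rw [k x h]; exact hH.2.2.1 x hx
        · obtain ⟨h5, z, hz, e⟩ := hx
          exact h3 x ⟨⟨h5, h⟩, z, fun h' => hz h'.1, e⟩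
      · by_cases h : x ∈ R
        · rw [k x h]; exact hH.2.2.2 x hx hx'
        · exact h4 x ⟨hx, h⟩ hx'
      · have h5 := out a ha b hb hab
        have h6 : -1 ≤ K b := by
          by_cases h : b ∈ U
          · exact h3 b ⟨⟨h, hb⟩, a, fun h' => h'.2 ha, hab.symm⟩
          · rw [h2 b fun h' => h h'.1]; exact h5.2
        unfold eLe
        omega
  refine ⟨e, L.fin.subset sdiff_subset, ?_, L.WU.mono_right sdiff_subset,
    fun x hx => ⟨L.CU ⟨hx.1, hΩ hx.2⟩, fun h => disjoint_left.1 hd h hx.2⟩,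
    ⟨H, e ▸ (cell_self hH).1⟩, fun x ⟨hx, z, hz, e⟩ => ?_, fun x hx hx' => ?_, fun x hx => ?_⟩
  · obtain ⟨o, ho⟩ := compl_nonempty (L.fin.union (hex_finite y N))
    have o1 : o ∉ U := fun h => ho (Or.inl h)
    have o2 : o ∈ R := subset_Rch _ _ _ fun h => ho (Or.inr h)
    refine Cn.of_base (E := fun _ _ => True) (x := o) fun a ha => ?_
    by_cases h : a ∈ R
    · exact (cnn_Rch (cnn_hex_compl y N) o o2 a h).monoA fun x hx h' => h'.2 hx
    · exact (L.cU o o1 a fun h' => ha ⟨h', h⟩).monoA fun x hx h' => hx h'.1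
  · by_cases h : x ∈ R
    · exact (out x h z hz.2 e).1
    · have : x ∉ U := fun h' => hx ⟨h', h⟩
      rw [hH.2.1 x this]
      exact L.b1 x ⟨this, z, hz.1, e⟩
  · have : x ∉ U := fun h' => hx' ⟨h', fun h => disjoint_left.1 hd h hx⟩
    rw [hH.2.1 x this]
    exact L.b2 x (hΩ hx) this
  · rw [hH.2.1 x (disjoint_left.1 L.WU hx)]
    exact L.b3 x hx

end Vale.Agent.P153.K2
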