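import Vale.Agent.P153.K2.Stm

/-! P153, module K2. -/

open Set

noncomputable section
namespace Vale.Agent.P153.K2

theorem circp_mono {E E' : V → V → Prop} {x : V} {n N : ℕ} (h : Circ E x n N)
    (hE : ∀ u v, Adj u v → u ∈ ann x n N → v ∈ ann x n N → E u v → E' u v) : Circ E' x n N :=
  let ⟨m, w, k1, k2, k3, k4⟩ := h
  ⟨m, w, k1, fun t ht => ⟨(k2 t ht).1, hE _ _ (k2 t ht).1 (k3 t ht.le) (k3 _ ht) (k2 t ht).2⟩,
    k3, k4⟩

theorem circp_le {H K : Cfg} {x : V} {n N : ℕ} (h : Circ (both (ge 1 H)) x n N)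
    (hle : ∀ u ∈ hex x N, H u ≤ K u) : Circ (both (ge 1 K)) x n N :=
  circp_mono h fun u v _ hu hv e =>
    ⟨le_trans e.1 (hle u (ann_subset_hex hu)), le_trans e.2 (hle v (ann_subset_hex hv))⟩

theorem s_circ (ha : A1) (hp : Push) (hl : S_low) : S_circ := by
  obtain ⟨C1, c1, hC1, hc1, ha⟩ := ha
  obtain ⟨Cp, cp, hCp, hcp, hp⟩ := hp
  refine ⟨Cp * C1, c1 * cp, Nat.mul_pos hCp hC1, mul_pos hc1 hcp,
    fun W C Ω U ξ y n hL hn hU => ?_⟩
  have hN : C1 * n ≤ Cp * C1 * n := by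
    rw [mul_assoc]
    exact Nat.le_mul_of_pos_left _ hCp
  refine le_trans ?_ ((hl W C Ω U ξ hL).2.2.inc fun H K _ _ hle h =>
    circp_le h fun u hu => hle ⟨u, hU hu⟩)
  have h1 := (hp (C1 * n) y U (-1) (Nat.mul_pos hC1 hn) hL.fin (mul_assoc Cp C1 n ▸ hU)).1
  have h2 := explore_ge (S := free U (-1)) (c := c1)
    (E := {H | Disjoint (Rch (U \ ibd U)ᶜ (eLe (-1)) H) (hex y (C1 * n))})
    (E' := {H | Circ (both (ge 1 H)) y n (C1 * n)}) (U \ ibd U)ᶜ (eLe (-1))
    (fun H _ K _ e _ h => by rwa [mem_ofPred_eq, e]) fun H hH hd => by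
      have hs : hex y (C1 * n) ⊆ (Rch (U \ ibd U)ᶜ (eLe (-1)) H)ᶜ :=
        Disjoint.subset_compl_left hd
      have hB : (U \ ibd U).Finite := hL.fin.subset sdiff_subset
      rw [Pr, cell_eLe (f' := ({H | Circ (both (ge 1 H)) y n (C1 * n)} : Set Cfg).indicator 1)
        (good_free hL.fin _).1 hB (freeIn_free U _) hH (fun x hx => ?_)
        fun K _ K' _ e => le_antisymm
          (ind_mono fun h => circp_le h fun u hu => (e u (hs hu)).le)
          (ind_mono fun h => circp_le h fun u hu => (e u (hs hu)).ge)]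
      · refine (ha n y _ (-1 + 1) hn
          (hB.subset (compl_subset_comm.1 (subset_Rch _ _ _))) hs).1.trans
          (Pr_mono fun K hK h => circp_mono h fun u v huv _ _ e => ?_)
        have := abs_le.1 (hK.1 u v huv)
        simp only [star, both, ge, mem_ofPred_eq] at e ⊢
        omega
      · by_cases hxU : x ∈ U
        · have := hH.2.2 x (by_contra fun h => hx.1 ⟨hxU, h⟩)
          omega
        · have := hH.2.1 x hxU
          omega
  exact ((mul_le_mul_of_nonneg_left h1 hc1.le).trans h2).trans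
    (Pr_mono fun H _ h => Circ.mono h.2 (fun _ _ e => e) le_rfl hN)

end Vale.Agent.P153.K2
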