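import Vale.Agent.P153.K2.Stm

/-! P153, module K2. -/

open Set

noncomputable section
namespace Vale.Agent.P153.K2

theorem circle_symm (t u a b : V) (h : chi t u a b) : chi t u b a := by
  unfold chi at h ⊢
  rwa [crossR_comm t, crossR_comm u]

theorem circle_loop {z t u : V} {s : ℕ} (ht : nrm (t - z) < s) (hu : u ∉ hex z s) :
    ∃ a, OC (chi t u) tt (ibd (hex z s)) a a True := by
  obtain ⟨a, h⟩ := odd_loop_ibd (hex_finite z s) (x := t) ht.le fun k => ht.ne (mem_ibd_hex.1 k)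
  obtain ⟨g, hg⟩ := potential (A := hex z s) (E := tt) (crossR_symm u) (fun _ _ => id)
    fun b ⟨m, w, k0, k1, k2, k3, k4⟩ =>
      wind_far (fun i hi => (k2 i hi).1) (k1.trans k0.symm) k3 hu (k4.2 trivial)
  refine ⟨a, (h.ind (P := fun b e => OC (chi t u) tt (ibd (hex z s)) a b (e ↔ (g a ↔ g b)))
    ((OC.refl h.mem_left).congr (by simp)) fun x y e h1 _ h3 h4 ih =>
      (ih.tail h1 trivial h4).congr ?_).congr (by simp)⟩
  rw [chi, hg x y h1 trivial (ibd_subset _ h3) (ibd_subset _ h4)]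
  by_cases e <;> by_cases g a <;> by_cases g x <;> by_cases g y <;> by_cases crossR t x y <;>
    simp [*]

theorem circle_point (Γ : Geo) {s : ℕ} (h1 : Γ.r ≤ s) (h2 : s ≤ Γ.R) :
    ∃ v ∈ Γ.W, nrm (v - Γ.z) = s := by
  obtain ⟨p, hp, hp'⟩ := Γ.near
  obtain ⟨q, hq, hq'⟩ := not_subset.1 Γ.far
  rw [mem_hex] at hp' hq'
  obtain ⟨v, k1, k2, -⟩ := (Γ.cW p hp q hq).first (φ := fun y => (nrm (y - Γ.z) : ℤ))
    (fun a b h => h.nrm_lip Γ.z) (t := s) (by omega) (by omega)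
  exact ⟨v, (k2.monoA inter_subset_left).mem hp, by omega⟩

theorem circle_nbr (Γ : Geo) {x y : V} (hx : x ∈ Γ.C) (h : Adj x y) (hy : y ∈ hex Γ.z Γ.R)
    (hy' : y ∉ Γ.C) : y ∈ Γ.W :=
  by_contra fun k => hy' (comp_step hx h ⟨hy, k⟩)

theorem s_circle : S_circle := by
  intro Γ s h1 h2
  have hu : Γ.u ∉ hex Γ.z s := fun k => Γ.uR (hex_mono h2 k)
  obtain ⟨a, ha⟩ := circle_loop (lt_of_le_of_lt (Γ.Tr Γ.tT) h1) hu
  obtain ⟨w, hw, hw'⟩ := circle_point Γ h1.le h2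
  have hZ : w ∈ ibd (hex Γ.z s) := mem_ibd_hex.2 hw'
  obtain ⟨e0, h0⟩ := (cn_ibd (cn_hex Γ.z s) (cn_compl_hex Γ.z s) w hZ a ha.mem_left).oc
    (chi Γ.t Γ.u) hZ
  have hl : OC (chi Γ.t Γ.u) tt (ibd (hex Γ.z s)) w w True :=
    ((h0.trans ha).trans (h0.symm (circle_symm _ _) fun _ _ => id)).congr (by simp)
  have hwC : w ∉ Γ.C := fun k => (comp_subset k).2 hw
  by_contra hno
  have ev : ∀ {x y : V} {e : Prop}, x ∈ Γ.W → y ∈ Γ.W →
      OC (chi Γ.t Γ.u) tt ((Γ.C ∪ Γ.W) ∩ {x | nrm (x - Γ.z) = s}) x y e →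
      (e ↔ ¬ (Γ.g x ↔ Γ.g y)) := fun {x y e} hx hy h => by_contra fun k =>
    hno ⟨x, hx, y, hy, h.congr (by tauto)⟩
  have key := hl.ind (P := fun v e => (v ∉ Γ.C → (e ↔ ¬ (Γ.g w ↔ Γ.g v))) ∧ (v ∈ Γ.C →
      ∃ b ∈ Γ.W, ∃ e', OC (chi Γ.t Γ.u) tt ((Γ.C ∪ Γ.W) ∩ {x | nrm (x - Γ.z) = s}) b v e' ∧
        (e ↔ (¬ (Γ.g w ↔ Γ.g b) ↔ ¬ e')))) ⟨fun _ => by simp, fun k => absurd k hwC⟩
    fun x y e k1 _ k3 k4 ih => by
      have l3 : x ∈ hex Γ.z Γ.R := hex_mono h2 (ibd_subset _ k3)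
      have l4 : y ∈ hex Γ.z Γ.R := hex_mono h2 (ibd_subset _ k4)
      have m3 := mem_ibd_hex.1 k3
      have m4 := mem_ibd_hex.1 k4
      by_cases hx : x ∈ Γ.C
      · obtain ⟨b, hb, e', o, he⟩ := ih.2 hx
        refine ⟨fun hy => ?_, fun hy => ⟨b, hb, _, o.tail k1 trivial ⟨Or.inl hy, m4⟩, ?_⟩⟩
        · have hy' := circle_nbr Γ hx k1 l4 hy
          have := ev hb hy' (o.tail k1 trivial ⟨Or.inr hy', m4⟩)
          rw [he]
          revert this
          by_cases e' <;> by_cases Γ.g w <;> by_cases Γ.g b <;> by_cases Γ.g y <;>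
            by_cases chi Γ.t Γ.u x y <;> simp [*]
        · rw [he]
          by_cases e' <;> by_cases Γ.g w <;> by_cases Γ.g b <;>
            by_cases chi Γ.t Γ.u x y <;> simp [*]
      · have he := ih.1 hx
        refine ⟨fun hy => ?_, fun hy => ?_⟩
        · rw [he, Γ.pot x y k1 hx hy (fun k => Γ.uR (k ▸ l3)) fun k => Γ.uR (k ▸ l4)]
          by_cases Γ.g w <;> by_cases Γ.g x <;> by_cases Γ.g y <;> simp [*]
        · have hx' := circle_nbr Γ hy k1.symm l3 hx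
          exact ⟨x, hx', _, OC.single k1 trivial ⟨Or.inr hx', m3⟩ ⟨Or.inl hy, m4⟩, by rw [he]⟩
  simpa using key.1 hwC

theorem circle_step (Γ : Geo) (s w : ℕ) : ∀ σ x₀, Γ.Cut s σ w x₀ →
    ∃ σ w x₀, Γ.Cut s σ w x₀ ∧ (w = 0 ∨ Γ.Even σ w) := by
  induction w using Nat.strong_induction_on with
  | _ w ih =>
    intro σ x₀ h
    by_cases k : w = 0 ∨ Γ.Even σ w
    · exact ⟨σ, w, x₀, h, k⟩
    obtain ⟨k1, k2⟩ := not_or.1 k
    simp only [Geo.Even, not_forall, not_not] at k2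
    obtain ⟨x, hx, ho⟩ := k2
    refine ih (w / 4) (by omega) _ x ⟨ho, inter_subset_right,
      inter_subset_left.trans (hex_mono (by omega)), fun y hy => Subset.trans (hex_subset ?_)
        (h.ann x hx)⟩
    have := mem_hex.1 hy.1
    omega

theorem s_halve (h : S_circle) : S_halve := by
  intro Γ s h1 h2 h3
  refine circle_step Γ s s _ Γ.z ⟨h Γ (4 * s) (by omega) (by omega), inter_subset_left,
    fun x hx => ?_, fun x hx y hy => ?_⟩
  · have : nrm (x - Γ.z) = 4 * s := hx.2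
    rw [mem_hex]
    omega
  · have e : nrm (x - Γ.z) = 4 * s := hx.2
    have k1 := nrm_tri Γ.z x y
    have k2 := nrm_tri Γ.z y x
    rw [nrm_sub_comm x y] at k2
    rw [mem_hex] at hy
    refine ⟨mem_hex.2 (by omega), fun k => ?_⟩
    rw [mem_hex] at k
    omega

end Vale.Agent.P153.K2
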