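import Vale.Agent.P153.K2.Stm

/-! P153, module K2. -/

open Set

noncomputable section
namespace Vale.Agent.P153.K2

theorem s_force : S_force := by
  intro H A y r R hH hrR hA hne hfar hband harm
  obtain ⟨a, b, ha, hb, hab⟩ := harm
  rcases hrR.eq_or_lt with h | hlt
  · exact ⟨a, a, ha, ha.trans h, Conn.rfl⟩
  by_contra hno
  have hO : {v | R ≤ nrm (v - y)} = (hex y (R - 1))ᶜ := by
    ext v
    simp only [mem_ofPred_eq, mem_compl_iff, mem_hex]
    omega
  have hcO : Cn {v | R ≤ nrm (v - y)} := hO ▸ cn_compl_hex y (R - 1)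
  have hnO : ({v | R ≤ nrm (v - y)} : Set V).Nonempty := ⟨b, hb.ge⟩
  have hsub : hex y r ⊆ scr (star (sp 0 H)ᶜ) {v | R ≤ nrm (v - y)} y :=
    hex_subset_scr (star_symm _) hrR Subset.rfl (by rw [sp_compl]; simpa using hno)
  obtain ⟨k, hk, hbd⟩ := scr_band (x := y) (j := 0) hH hcO hnO
  obtain ⟨a₀, ha₀, ha₀'⟩ := hne
  obtain ⟨a₁, ha₁, ha₁'⟩ := not_subset.1 hfar
  have hout : ∀ v, R ≤ nrm (v - y) → v ∉ scr (star (sp 0 H)ᶜ) {v | R ≤ nrm (v - y)} y :=
    fun v hv h => scr_subset h hv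
  obtain ⟨u, v, -, huv, -, huA, huS, -, hvS, -⟩ := (hA a₀ ha₀ a₁ ha₁).exit (hsub ha₀')
    (hout a₁ (le_of_lt (not_le.1 ha₁')))
  have hk0 : k = 0 := by
    have h1 := hbd u (Or.inl ⟨huS, v, hvS, huv⟩)
    have h2 := hband u huA (by
      by_contra h
      exact hout u (le_of_lt (not_le.1 h)) huS)
    omega
  subst hk0
  obtain ⟨u, v, -, huv, hE, -, huS, -, hvS, -⟩ := hab.exit (hsub (mem_hex.2 ha.le))
    (hout b hb.ge)
  have h1 := ab_eq_one.2 (hbd u (Or.inl ⟨huS, v, hvS, huv⟩))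
  have h2 := ab_eq_one.2 (hbd v (Or.inr ⟨hvS, u, huS, huv.symm⟩))
  rcases hE with h | h
  · have : 3 ≤ ab 0 H u := h
    omega
  · have : 3 ≤ ab 0 H v := h
    omega

theorem s_nu : S_nu := by
  intro P B x₀ hP hPB
  refine ⟨⟨(finite_pin hP fun _ => -1).subset fun H hH =>
    ⟨hH.1, fun x hx => hH.2.1 x (not_not.1 hx)⟩, pw P (fun _ => -1) fun _ => 0, ?_,
    fun x hx => pw_in _ _ hx, fun x hx _ => Or.inl (pw_out _ _ hx)⟩, fun hcP hcB hx₀ => ?_⟩
  · refine lip_two (k := -1) fun x => ?_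
    by_cases hx : x ∈ P
    · exact Or.inl (pw_in _ _ hx)
    · exact Or.inr (pw_out _ _ hx)
  ext H
  constructor
  · rintro ⟨hH, h1, h2⟩
    refine ⟨hH, fun x hx => ?_, fun x hx => ?_, fun x z _ hxz => ?_, h1 x₀ hx₀⟩
    · have := h2 x (fun h => hx (Or.inl h)) fun h => hx (Or.inr h)
      simp only [sp, mem_ofPred_eq]
      omega
    · have := h1 x hx
      simp only [sp, mem_ofPred_eq]
      omega
    · simp only [sp, mem_ofPred_eq, h1 x hxz.1, h1 z hxz.2]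
  · rintro ⟨hH, h1, h2, h3, h4⟩
    have hK : Lip fun _ => (-1 : ℤ) := lip_two (k := -1) fun _ => Or.inl rfl
    have hpin : ∀ x ∈ P, H x = -1 := spin_pin (K := fun _ => -1) 0 hcP hH hK
      (fun x hx => iff_of_false (h2 x hx) (by simp [sp]))
      (fun x hx z hz hxz => h3 x z hxz ⟨hx, hz⟩) (fun _ _ _ _ _ => Iff.rfl) hx₀ h4
    have hsp : ∀ x, x ∉ P → x ∉ B → (H x - 0) % 4 = 0 ∨ (H x - 0) % 4 = 1 := fun x hx hx' =>
      h1 x fun h => h.elim hx hx'
    refine ⟨hH, hpin, fun x hx hx' => ?_⟩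
    have hb : -1 ≤ H x ∧ H x ≤ 1 :=
      (hcB x₀ (disjoint_left.1 hPB hx₀) x hx').ind (P := fun v => -1 ≤ H v ∧ H v ≤ 1)
        (by omega) fun u v _ huv _ _ hv ih => by
          by_cases hvP : v ∈ P
          · have := hpin v hvP
            omega
          · have := hsp v hvP hv
            have := abs_le.1 (hH u v huv)
            omega
    have := hsp x hx hx'
    omega

end Vale.Agent.P153.K2
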