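import Vale.Agent.P153.K2.Stm

/-! P153, module K2. -/

open Set

noncomputable section
namespace Vale.Agent.P153.K2

theorem s_geo (hc : S_cobd) : S_geo := by
  rintro F W T O z t r R h hr hO ⟨a, ha, b, hb, hab⟩
  have hT : T ⊆ room W z t R := Cn.subset_comp h.cT
    (fun x hx => ⟨hex_mono hr (h.Tr hx), disjoint_left.1 h.TW hx⟩) h.tT
  obtain ⟨v, u, -, k1, -, -, k2, k3, k4, k5⟩ := hab.last (hT ha) (disjoint_left.1 hO.2.2 hb)
  obtain ⟨g, hg⟩ := hc (room W z t R ∪ {u}) t u (Or.inl (hT h.tT))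
    (((cn_comp _ _ t (hT h.tT) v k2).monoA subset_union_left).tail k1 trivial (Or.inl k2)
      (Or.inr rfl))
  exact ⟨⟨W, T, O, z, t, u, r, R, g, h.cW, h.near, h.far, hr, h.tT, h.cT, h.Tr, h.TW, hO,
    fun k => k4 (comp_step k2 k1 ⟨k, k3⟩), k3,
    ⟨b, hb, k5.monoA fun x hx k => k.elim hx.2 hx.1⟩,
    fun x y hxy h1 h2 h3 h4 => hg x y hxy (fun k => k.elim h1 h3) fun k => k.elim h2 h4⟩,
    rfl, rfl, rfl, rfl, rfl, rfl, rfl⟩

theorem s_block (hc : S_cobd) : S_block := by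
  rintro Γ A B ⟨x, hx, y, hy, hA⟩ hs hT hW hB a ha b hb hab
  obtain ⟨o, ho, huo⟩ := Γ.uO
  have h1 : Γ.T ⊆ (A ∪ Γ.W)ᶜ := fun v hv k =>
    k.elim (disjoint_right.1 hT hv) (disjoint_left.1 Γ.TW hv)
  have h2 : (Γ.C ∪ Γ.W)ᶜ ⊆ (A ∪ Γ.W)ᶜ := compl_subset_compl.2 (union_subset hs subset_union_right)
  have h3 : Γ.O ⊆ (A ∪ Γ.W)ᶜ := fun v hv => h2 fun k =>
    k.elim (disjoint_left.1 Γ.away.2.2 hv) (disjoint_left.1 Γ.away.2.1 hv)
  obtain ⟨g, hg⟩ := hc (A ∪ Γ.W)ᶜ Γ.t Γ.u (h1 Γ.tT)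
    ((((Γ.cT _ Γ.tT a ha).monoA h1).trans (hab.monoA fun v hv k =>
      k.elim (disjoint_left.1 hB hv) (disjoint_left.1 hW hv))).trans
      (((Γ.away.1 b hb o ho).monoA h3).trans ((huo.monoA h2).symm fun _ _ => id)))
  obtain ⟨e, he⟩ := (Γ.cW x hx y hy).oc (chi Γ.t Γ.u) hx
  have k1 := hA.cobd (g := g) fun u v h _ hu hv =>
    hg u v h (fun k => k (Or.inl hu)) fun k => k (Or.inl hv)
  have k2 := he.cobd (g := g) fun u v h _ hu hv =>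
    hg u v h (fun k => k (Or.inr hu)) fun k => k (Or.inr hv)
  have k3 := he.cobd (g := Γ.g) fun u v h _ hu hv =>
    Γ.pot u v h (fun k => (comp_subset k).2 hu) (fun k => (comp_subset k).2 hv)
      (fun k => Γ.uW (k ▸ hu)) fun k => Γ.uW (k ▸ hv)
  exact iff_not_self (k1.trans (k2.symm.trans k3))

end Vale.Agent.P153.K2
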