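import Vale.Agent.P153.K2.Stm

/-! P153, module K2. -/

open Set

noncomputable section
namespace Vale.Agent.P153.K2

theorem s_iter (h1 : S_one) (hs : S_scr) (hc : S_cell) (hl : S_low) : S_iter := by
  intro η hη
  obtain ⟨Q, c₀, hQ, hc₀, one⟩ := h1
  obtain ⟨c, c0, c1, cc⟩ : ∃ c : ℝ, 0 < c ∧ c ≤ 1 / 2 ∧ c ≤ c₀ :=
    ⟨min c₀ (1 / 2), lt_min hc₀ (by norm_num), min_le_right _ _, min_le_left _ _⟩
  obtain ⟨K, hK, scr⟩ := hs (η / 2 * c) (by positivity)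
  obtain ⟨J, hJ⟩ := exists_pow_lt_of_lt_one (half_pos hη) (show 1 - c < 1 by linarith)
  have hP : 1 ≤ Q * K := Nat.mul_pos hQ hK
  refine ⟨(Q * K) ^ J * (Q + 1), Nat.mul_pos (Nat.one_le_pow _ _ hP) (by omega),
    fun Γ Ω U ξ r1 hR L hΩ => ?_⟩
  obtain ⟨r₀, hr₀⟩ : ∃ r₀, r₀ = (Q + 1) * Γ.r := ⟨_, rfl⟩
  have rq : Γ.r + Q ≤ r₀ := by rw [hr₀]; nlinarith
  rw [mul_assoc, ← hr₀] at hR hΩ
  have key : ∀ j, j ≤ J → ∀ Ω U ξ, Low Γ.W Γ.C Ω U ξ →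
      hex Γ.z ((Q * K) ^ j * r₀) \ hex Γ.z Γ.r ⊆ Ω →
      Pr (lowS Γ.W U ξ) Γ.Bad ≤ (1 - c) ^ j + η / 2 := by
    intro j
    induction j with
    | zero => intro _ Ω U ξ _ _; linarith [Pr_le_one (lowS Γ.W U ξ) Γ.Bad, pow_zero (1 - c)]
    | succ j ih =>
      intro hj Ω U ξ L hΩ
      obtain ⟨n, hn⟩ : ∃ n, n = (Q * K) ^ j * r₀ := ⟨_, rfl⟩
      have e : (Q * K) ^ (j + 1) * r₀ = Q * (K * n) := by rw [hn]; ring
      have rn' : r₀ ≤ n := hn ▸ Nat.le_mul_of_pos_left _ (Nat.one_le_pow _ _ hP)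
      have rn : Γ.r ≤ n := by omega
      have nK : n ≤ K * n := Nat.le_mul_of_pos_left _ hK
      have KQ : K * n ≤ Q * (K * n) := Nat.le_mul_of_pos_left _ hQ
      have QR : Q * (K * n) ≤ Γ.R :=
        e ▸ (Nat.mul_le_mul_right _ (Nat.pow_le_pow_right hP hj)).trans hR
      rw [e] at hΩ
      obtain ⟨E, E1, E2, E3⟩ := one Γ (K * n) Ω U ξ (by omega) QR L hΩ
      have g := (hl _ _ _ _ _ L).1
      have s1 := scr _ _ _ _ _ Γ.z n L (by omega)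
        (fun x hx => hΩ ⟨hx.2.trans KQ, fun h => by
          have h1 : nrm (x - Γ.z) ≤ Γ.r := h
          have h2 := hx.1
          omega⟩)
        (Γ.near.mono (inter_subset_inter_right _ (hex_mono rn)))
      have a0 : 0 ≤ (1 - c) ^ j + η / 2 := add_nonneg (pow_nonneg (by linarith) _) (by linarith)
      have s2 := explore_le (S := lowS Γ.W U ξ) (E' := Γ.Bad) (c := (1 - c) ^ j + η / 2)
        (E := Eᶜ ∩ {H | Disjoint (Rch (hex Γ.z (K * n))ᶜ (eLe (-2)) H) (hex Γ.z n)})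
        (hex Γ.z (K * n))ᶜ (eLe (-2))
        (fun H _ G _ e1 e2 h => ⟨fun h' => h.1 ((E1 G H fun x hx =>
          e2 x (subset_Rch _ _ _ hx)).mp h'), by simpa only [mem_ofPred_eq, e1] using h.2⟩)
        fun H hH h => by
          obtain ⟨e1, L'⟩ := hc _ _ Ω (hex Γ.z n \ hex Γ.z Γ.r) _ _ H Γ.z (K * n) L hH
            ((sdiff_subset_sdiff_left (hex_mono (nK.trans KQ))).trans hΩ)
            (Disjoint.mono_right sdiff_subset h.2)
          rw [e1]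
          exact ih (by omega) _ _ _ L' (hn ▸ Subset.rfl)
      have s3 : Pr (lowS Γ.W U ξ) (Eᶜ ∩ {H | Disjoint (Rch (hex Γ.z (K * n))ᶜ (eLe (-2)) H)
          (hex Γ.z n)}) ≤ 1 - c :=
        (Pr_mono fun _ _ h => h.1).trans (by rw [Pr_compl g]; linarith)
      have s4 := (Pr_mono (S := lowS Γ.W U ξ) (E := Γ.Bad) fun H _ h => (by
        by_cases h' : Disjoint (Rch (hex Γ.z (K * n))ᶜ (eLe (-2)) H) (hex Γ.z n)
        · exact Or.inr ⟨⟨fun k => E2 H k h, h'⟩, h⟩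
        · exact Or.inl h' : H ∈ {H | ¬ Disjoint (Rch (hex Γ.z (K * n))ᶜ (eLe (-2)) H) (hex Γ.z n)} ∪
          (Eᶜ ∩ {H | Disjoint (Rch (hex Γ.z (K * n))ᶜ (eLe (-2)) H) (hex Γ.z n)}) ∩ Γ.Bad)).trans
        (Pr_union_le _ _ _)
      have s5 := mul_le_mul_of_nonneg_left s3 a0
      rw [pow_succ]
      nlinarith
  linarith [key J le_rfl Ω U ξ L hΩ]

end Vale.Agent.P153.K2
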