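import Vale.Agent.P153.K2.Stm

/-! P153, module K2. -/

open Set

noncomputable section
namespace Vale.Agent.P153.K2

/-- A hexagon round a point of the room that avoids the wall stays in the room. -/
theorem lgeo_hex (Γ : Geo) {x : V} {n : ℕ} (hx : x ∈ Γ.C ∪ Γ.W) (hR : hex x n ⊆ hex Γ.z Γ.R)
    (hW : Disjoint (hex x n) Γ.W) : hex x n ⊆ Γ.C := fun _ hy =>
  (conn_hex hy).ind (P := (· ∈ Γ.C))
    (hx.resolve_right (disjoint_left.1 hW (self_mem_hex x n)))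
    fun _ _ _ h1 _ _ h2 ih => comp_step ih h1 ⟨hR h2, disjoint_left.1 hW h2⟩

/-- The connection to the wall as a set. -/
theorem lgeo_arm {W C : Set V} {y : V} {m L w : ℕ} {H : Cfg} (h1 : hex y m ⊆ C) (h2 : m ≤ w)
    (h3 : L + 1 ≤ w) (h : H ∈ Zev W (C ∩ hex y L) (hexF y m)) :
    ∃ (A : Set V) (v : V), A ⊆ hex y w ∩ (C ∪ W) ∧ v ∈ W ∧ y ∈ A ∧ Conn tt A y v ∧
      ∀ x ∈ A, x ∈ hex y m ∨ 1 ≤ H x ∨ x ∈ W := by
  obtain ⟨p, hp, v, ⟨-, u, hu, hvu⟩, k1, k2, k3⟩ := h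
  rw [hexF, Finite.mem_toFinset] at hp
  have k4 := conn_both_iff.1 k3
  have k5 := k4.mem ⟨k2, k1⟩
  refine ⟨hex y m ∪ C ∩ hex y L ∩ ge 1 H ∪ {u}, u, ?_, hu, .inl (.inl (self_mem_hex y m)),
    (((conn_hex hp).monoA fun _ k => .inl (.inl k)).trans
      (k4.monoA fun _ k => .inl (.inr k))).tail hvu trivial (.inl (.inr k5)) (.inr rfl), ?_⟩
  · rintro x ((k | k) | rfl)
    · exact ⟨hex_mono h2 k, .inl (h1 k)⟩
    · exact ⟨hex_mono (by omega) k.1.2, .inl k.1.1⟩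
    · exact ⟨(hvu.nrm_le y).trans ((Nat.add_le_add_right k5.1.2 1).trans h3), .inr hu⟩
  · rintro x ((k | k) | rfl)
    exacts [.inl k, .inr (.inl k.2), .inr (.inr hu)]

theorem s_lgeo (ht : S_types) (hb : S_block) : S_lgeo := by
  classical
  intro M Λ Γ s σ w x₀ m t hM hΛ hm hw e hr hR hc hE
  have w1 : Λ * t + 1 ≤ w := by
    have : Λ * 1 ≤ Λ * m := Nat.mul_le_mul_left _ hm
    subst e; nlinarith
  have w2 : (4 * M + 2) * m + 2 ≤ w := by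
    have : 1 * t ≤ Λ * t := Nat.mul_le_mul_right _ hΛ
    omega
  have w3 : m ≤ (4 * M + 2) * m := Nat.le_mul_of_pos_left _ (by omega)
  have an : ∀ x ∈ σ, ∀ n ≤ w, hex x n ⊆ hex Γ.z (6 * s) \ hex Γ.z s := fun x hx n hn =>
    (hex_mono (by omega)).trans (hc.ann x hx)
  have inR : ∀ x ∈ σ, ∀ n ≤ w, hex x n ⊆ hex Γ.z Γ.R := fun x hx n hn =>
    (an x hx n hn).trans (sdiff_subset.trans (hex_mono hR))
  have inC : ∀ x ∈ σ, Disjoint (hex x ((4 * M + 2) * m)) Γ.W → hex x ((4 * M + 2) * m) ⊆ Γ.C :=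
    fun x hx => lgeo_hex Γ (hc.sub hx) (inR x hx _ (by omega))
  obtain ⟨y₁, a1, y₂, a2, b1, b2, c1, c2, odd⟩ :=
    ht Γ σ w _ hc.odd hc.sub w2 (fun x hx => inR x hx w le_rfl) hE
  obtain ⟨D, d1, d2⟩ := cover x₀ (4 * w + 4) m
  let D' := D.filter fun c =>
    ∃ x ∈ σ, Disjoint (hex x ((4 * M + 2) * m)) Γ.W ∧ x ∈ hex c (2 * m)
  have hD : ∀ c ∈ D', hex c (M * (4 * m)) ⊆ Γ.C ∩ (hex Γ.z (6 * s) \ hex Γ.z s) := fun c h => by
    obtain ⟨x, k1, k2, k3⟩ := (Finset.mem_filter.1 h).2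
    have : hex c (M * (4 * m)) ⊆ hex x ((4 * M + 2) * m) := hex_subset (by
      rw [nrm_sub_comm, show (4 * M + 2) * m = 2 * m + M * (4 * m) by ring]
      exact Nat.add_le_add_right k3 _)
    exact this.trans (subset_inter (inC x k1 k2) (an x k1 _ (by omega)))
  have hy : ∀ y ∈ σ, Disjoint (hex y ((4 * M + 2) * m)) Γ.W → hex y m ⊆ Γ.C := fun y k1 k2 =>
    (hex_mono w3).trans (inC y k1 k2)
  refine ⟨D', y₁, y₂, (Finset.card_filter_le _ _).trans d1, hD, ?_, ?_⟩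
  · rintro y (rfl | rfl)
    exacts [⟨hy _ a1 b1, e ▸ c1, an _ a1 _ (by omega)⟩, ⟨hy _ a2 b2, e ▸ c2, an _ a2 _ (by omega)⟩]
  rintro H hH z1 z2 ⟨a, ha, b, hb', hab⟩
  obtain ⟨A₁, v₁, p1, p2, p3, p4, p5⟩ := lgeo_arm (hy _ a1 b1) (by omega) w1 z1
  obtain ⟨A₂, v₂, q1, q2, q3, q4, q5⟩ := lgeo_arm (hy _ a2 b2) (by omega) w1 z2
  have nT : ∀ x ∈ Γ.T, x ∈ hex Γ.z s := fun x hx => hex_mono hr (Γ.Tr hx)
  have blk : ∀ y ∈ σ, Disjoint (hex y ((4 * M + 2) * m)) Γ.W → ∀ x ∈ hex y m,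
      ¬ Conn (both (le 0 H)) Γ.Wᶜ a x := fun y k1 k2 x k3 k4 => by
    obtain ⟨c, l1, l2⟩ := d2 y (hc.small k1)
    have l3 : c ∈ D' := Finset.mem_filter.2 ⟨l1, y, k1, k2, l2⟩
    have := nrm_tri c y x
    rw [mem_hex] at k3 l2
    refine (hH c l3).not_conn_both (a := x) (b := a) (A := Γ.Wᶜ) (by omega)
      (not_le.1 fun k => (hD c l3 k).2.2 (nT a ha))
      ((k4.symm (both_symm _)).mono (both_mono fun v (k : H v ≤ 0) (k' : 1 ≤ H v) => by omega)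
        Subset.rfl)
  refine hb Γ _ {x | x ∉ Γ.W ∧ H x ≤ 0 ∧ Conn (both (le 0 H)) Γ.Wᶜ a x}
    (odd A₁ A₂ v₁ v₂ p1 q1 p2 q2 p3 q3 p4 q4) ?_ (disjoint_left.2 ?_)
    (disjoint_left.2 fun x k => k.1) (disjoint_left.2 ?_) a ha b hb'
    (hab.cluster.mono' fun u v _ k1 k2 k3 => ⟨trivial, ⟨k2.1, k1.1, k2.2⟩, k3.1, k1.2, k3.2⟩)
  · rintro x ((k | k) | k)
    exacts [hc.sub k.1, (p1 k).2, (q1 k).2]
  · rintro x ((k | k) | k) hx
    exacts [(an x k.1 0 w.zero_le (self_mem_hex x 0)).2 (nT x hx),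
      (an _ a1 w le_rfl (p1 k).1).2 (nT x hx), (an _ a2 w le_rfl (q1 k).1).2 (nT x hx)]
  · rintro x ⟨k1, k2, k3⟩ ((k | k) | k)
    · exact blk x k.1 k.2 x (self_mem_hex x m) k3
    · rcases p5 x k with k | k | k
      exacts [blk _ a1 b1 x k k3, by omega, k1 k]
    · rcases q5 x k with k | k | k
      exacts [blk _ a2 b2 x k k3, by omega, k1 k]

end Vale.Agent.P153.K2
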