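import Vale.Agent.P153.K2.Stm

/-! P153, module K2. -/

open Set

noncomputable section
namespace Vale.Agent.P153.K2

theorem s_lh : S_lh := by
  intro S T U hS hT lS lT h
  refine Hol.sd (fun a b => ?_) hS hT lS lT
  simp only [fb, ← ncard_prod]
  refine ncard_le_ncard_of_injOn (fun p => (pw U (p.1 ⊓ p.2) p.1, pw U (p.1 ⊔ p.2) p.2))
    ?_ ?_ ((hS.1.inter_of_left _).prod (hT.1.inter_of_left _))
  · rintro ⟨H, K⟩ ⟨⟨h1, rfl⟩, h2, rfl⟩
    refine ⟨⟨(h H h1 K h2).1, funext fun x => ?_⟩, (h H h1 K h2).2, funext fun x => ?_⟩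
    · exact pw_in _ _ x.2
    · exact pw_in _ _ x.2
  · rintro ⟨H, K⟩ ⟨⟨-, h1⟩, -, h2⟩ ⟨H', K'⟩ ⟨⟨-, h3⟩, -, h4⟩ e
    obtain ⟨e1, e2⟩ := Prod.ext_iff.1 e
    refine Prod.ext (funext fun x => ?_) (funext fun x => ?_) <;> by_cases hx : x ∈ U
    · exact congrFun (h1.trans h3.symm) ⟨x, hx⟩
    · simpa only [pw_out _ _ hx] using congrFun e1 x
    · exact congrFun (h2.trans h4.symm) ⟨x, hx⟩
    · simpa only [pw_out _ _ hx] using congrFun e2 x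

theorem s_low (h : S_lh) : S_low := by
  intro W C Ω U ξ L
  have g : Good (lowS W U ξ) := ⟨(finite_pin L.fin ξ).subset fun _ h => ⟨h.1, h.2.1⟩, L.ne⟩
  have l : AllLip (lowS W U ξ) := fun _ h => h.1
  refine ⟨g, pa_H g l fun H hH K hK => ⟨⟨hH.1.inf hK.1, fun x hx => ?_, fun x hx => ?_,
    fun x hx hx' => ?_⟩, hH.1.sup hK.1, fun x hx => ?_, fun x hx => ?_, fun x hx hx' => ?_⟩,
    h _ _ U (good_free L.fin _) g allLip_free l fun H hH K hK => ?_⟩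
  · rw [inf_ap, hH.2.1 x hx, hK.2.1 x hx, min_self]
  · exact le_min (hH.2.2.1 x hx) (hK.2.2.1 x hx)
  · exact le_min (hH.2.2.2 x hx hx') (hK.2.2.2 x hx hx')
  · rw [sup_ap, hH.2.1 x hx, hK.2.1 x hx, max_self]
  · exact le_max_of_le_left (hH.2.2.1 x hx)
  · exact le_max_of_le_left (hH.2.2.2 x hx hx')
  refine ⟨⟨(hH.1.inf hK.1).pw hH.1 fun a ha b hb hab => ?_, fun x hx => ?_, fun x hx => ?_⟩,
    (hH.1.sup hK.1).pw hK.1 fun a ha b hb hab => ?_, fun x hx => ?_, fun x hx => ?_,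
    fun x hx hx' => ?_⟩
  · have h1 := hH.2.2 a ⟨ha, b, hb, hab⟩
    have h2 := hK.2.2.1 a ⟨ha, b, hb, hab⟩
    rw [hH.2.1 b hb, inf_ap, abs_le]
    omega
  · rw [pw_out _ _ hx, hH.2.1 x hx]
  · have h1 := hH.2.2 x hx
    have h2 := hK.2.2.1 x hx
    rw [pw_in _ _ hx.1, inf_ap]
    omega
  · have h1 := hH.2.2 a ⟨ha, b, hb, hab⟩
    have h2 := L.b1 b ⟨hb, a, ha, hab.symm⟩
    have h3 := abs_le.1 (hK.1 a b hab)
    rw [← hK.2.1 b hb] at h2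
    rw [sup_ap, abs_le]
    omega
  · rw [pw_out _ _ hx, hK.2.1 x hx]
  · rw [pw_in _ _ hx.1]
    exact le_max_of_le_right (hK.2.2.1 x hx)
  · rw [pw_in _ _ hx]
    exact le_max_of_le_right (hK.2.2.2 x hx hx')

end Vale.Agent.P153.K2
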