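import Vale.Agent.P153.K2.Stm

/-! P153, module K2. -/

open Set

noncomputable section
namespace Vale.Agent.P153.K2

theorem large_prod {S : Set Cfg} (hS : Good S) (hP : PA id S) {ι : Type} (D : Finset ι)
    (A : ι → Set Cfg) (hA : ∀ i ∈ D, IncBy id (A i)) {c : ℝ} (hc : 0 < c) {n : ℕ}
    (hn : D.card ≤ n) (h : ∀ i ∈ D, c ≤ Pr S (A i)) : min c 1 ^ n ≤ Pr S (⋂ i ∈ D, A i) := by
  have h0 : 0 ≤ min c 1 := (lt_min hc one_pos).le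
  refine le_trans ?_ (hP.inc_prod hS D A hA)
  refine (pow_le_pow_of_le_one h0 (min_le_right _ _) hn).trans ?_
  rw [← Finset.prod_const]
  exact Finset.prod_le_prod (fun _ _ => h0) fun i hi => (min_le_left _ _).trans (h i hi)

theorem large_circ {H K : Cfg} {c : V} {n N : ℕ} (h : ∀ x ∈ hex c N, H x ≤ K x)
    (hH : Circ (both (ge 1 H)) c n N) : Circ (both (ge 1 K)) c n N := by
  obtain ⟨m, w, k1, k2, k3, k4⟩ := hH
  refine ⟨m, w, k1, fun t ht => ⟨(k2 t ht).1, ?_, ?_⟩, k3, k4⟩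
  · exact le_trans (k2 t ht).2.1 (h _ (k3 t ht.le).2)
  · exact le_trans (k2 t ht).2.2 (h _ (k3 (t + 1) ht).2)

theorem large_zev {H K : Cfg} {W A : Set V} {B : Finset V} (h : ∀ x ∈ A, H x ≤ K x)
    (hH : H ∈ Zev W A B) : K ∈ Zev W A B := by
  obtain ⟨p, hp, v, hv, h1, h2, h3⟩ := hH
  exact ⟨p, hp, v, hv, h1.trans (h p h2), h2, h3.mono' fun a b _ e ha hb =>
    ⟨⟨le_trans e.1 (h a ha), le_trans e.2 (h b hb)⟩, ha, hb⟩⟩

theorem s_large (hg : S_lgeo) (hc : S_circ) (hz : S_zed) (hk : S_card) (hl : S_low) : S_large := by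
  obtain ⟨M, c₁, hM, hc₁, hc⟩ := hc
  obtain ⟨Λ, c₂, hΛ, hc₂, hz⟩ := hz ((4 * M + 3) ^ 2)
  obtain ⟨E, hE⟩ : ∃ E, E = Λ * (4 * M + 3) + 1 := ⟨_, rfl⟩
  have hE1 : 1 ≤ E := by omega
  refine ⟨E, min c₁ 1 ^ ((2 * (4 * E) + 3) ^ 2) * (c₂ * c₂), hE1,
    mul_pos (pow_pos (lt_min hc₁ one_pos) _) (mul_pos hc₂ hc₂),
    fun Γ s Ω U σ ξ w x₀ hr hR hL hΩ hC hEv hw => ?_⟩
  obtain ⟨m, hm⟩ : ∃ m, m = w / E := ⟨_, rfl⟩
  have hm1 : 1 ≤ m := hm ▸ Nat.div_pos hw hE1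
  have hmw : E * m ≤ w := hm ▸ Nat.mul_div_le w E
  have hwm : w < E * (m + 1) := hm ▸ Nat.lt_mul_div_succ w hE1
  obtain ⟨t, ht⟩ : ∃ t, t = (4 * M + 2) * m + 1 := ⟨_, rfl⟩
  obtain ⟨D, y₁, y₂, hD, hD', hy, hB⟩ :=
    hg M Λ Γ s σ w x₀ m t hM hΛ hm1 (hE ▸ hmw) ht hr hR hC hEv
  have hdiv : (4 * w + 4) / (m + 1) ≤ 4 * E := by
    refine Nat.div_le_of_le_mul ?_
    have : (m + 1) * (4 * E) = 4 * (E * (m + 1)) := by ring
    omega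
  have hcard : D.card ≤ (2 * (4 * E) + 3) ^ 2 := hD.trans (Nat.pow_le_pow_left (by omega) 2)
  have hCW : Disjoint Γ.C Γ.W := disjoint_left.2 fun x hx => (comp_subset hx).2
  obtain ⟨hG, hP, -⟩ := hl _ _ _ _ _ hL
  have hzz : ∀ y, y = y₁ ∨ y = y₂ →
      c₂ ≤ Pr (lowS Γ.W U ξ) (Zev Γ.W (Γ.C ∩ hex y (Λ * t)) (hexF y m)) := by
    intro y h
    obtain ⟨k1, k2, k3⟩ := hy y h
    have k4 : hex y (Λ * t) ⊆ hex Γ.z (6 * s) := fun x hx => (k3 hx).1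
    have k5 : hex y (Λ * t) ⊆ hex Γ.z Γ.R := k4.trans (hex_mono hR)
    have hmt : m ≤ t := by
      have : (4 * M + 2) * m = 4 * (M * m) + 2 * m := by ring
      omega
    refine hz Γ.W Γ.C Ω U ξ y t (hexF y m) hL Γ.cW hCW (by omega) (k3.trans hΩ)
      (fun a ha b hb hab hbW => comp_step ha hab ⟨k5 hb, hbW⟩) k2
      (fun h => Γ.far (h.trans k5)) ?_ ?_
    · intro x hx
      have hx' : x ∈ hex y m := (hex_finite y m).mem_toFinset.1 hx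
      exact ⟨k1 hx', hex_mono hmt hx'⟩
    · have e1 : t ≤ (4 * M + 3) * m := by
        have : (4 * M + 3) * m = (4 * M + 2) * m + m := by ring
        omega
      calc t ^ 2 ≤ ((4 * M + 3) * m) ^ 2 := Nat.pow_le_pow_left e1 2
        _ = (4 * M + 3) ^ 2 * m ^ 2 := mul_pow _ _ _
        _ ≤ _ := Nat.mul_le_mul_left _ (hk y m).1
  refine ⟨(⋂ c ∈ D, {H | Circ (both (ge 1 H)) c (4 * m) (M * (4 * m))}) ∩
    (Zev Γ.W (Γ.C ∩ hex y₁ (Λ * t)) (hexF y₁ m) ∩ Zev Γ.W (Γ.C ∩ hex y₂ (Λ * t)) (hexF y₂ m)),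
    ?_, ?_, ?_⟩
  · have key : ∀ H K : Cfg, (∀ x ∈ (hex Γ.z s)ᶜ, H x = K x) →
        H ∈ (⋂ c ∈ D, {H : Cfg | Circ (both (ge 1 H)) c (4 * m) (M * (4 * m))}) ∩
          (Zev Γ.W (Γ.C ∩ hex y₁ (Λ * t)) (hexF y₁ m) ∩
            Zev Γ.W (Γ.C ∩ hex y₂ (Λ * t)) (hexF y₂ m)) →
        K ∈ (⋂ c ∈ D, {H : Cfg | Circ (both (ge 1 H)) c (4 * m) (M * (4 * m))}) ∩
          (Zev Γ.W (Γ.C ∩ hex y₁ (Λ * t)) (hexF y₁ m) ∩
            Zev Γ.W (Γ.C ∩ hex y₂ (Λ * t)) (hexF y₂ m)) := by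
      rintro H K h ⟨h1, h2, h3⟩
      refine ⟨mem_iInter₂.2 fun c hc => ?_, large_zev (fun x hx => ?_) h2,
        large_zev (fun x hx => ?_) h3⟩
      · exact large_circ (fun x hx => (h x (hD' c hc hx).2.2).le) (mem_iInter₂.1 h1 c hc)
      · exact (h x ((hy y₁ (.inl rfl)).2.2 hx.2).2).le
      · exact (h x ((hy y₂ (.inr rfl)).2.2 hx.2).2).le
    exact fun H K h => propext ⟨key H K h, key K H fun x hx => (h x hx).symm⟩
  · rintro H ⟨h1, h2, h3⟩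
    exact hB H (fun c hc => mem_iInter₂.1 h1 c hc) h2 h3
  · have i1 : ∀ c ∈ D, IncBy id {H : Cfg | Circ (both (ge 1 H)) c (4 * m) (M * (4 * m))} :=
      fun c _ H K _ _ hle hH => large_circ (fun x _ => hle x) hH
    have i2 : ∀ (A : Set V) (B : Finset V), IncBy id (Zev Γ.W A B) :=
      fun A B H K _ _ hle hH => large_zev (fun x _ => hle x) hH
    refine le_trans ?_ (hP.inc (fun H K h1 h2 hle hH => mem_iInter₂.2 fun c hc =>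
      i1 c hc H K h1 h2 hle (mem_iInter₂.1 hH c hc)) fun H K h1 h2 hle hH =>
      ⟨i2 _ _ H K h1 h2 hle hH.1, i2 _ _ H K h1 h2 hle hH.2⟩)
    refine mul_le_mul (large_prod hG hP D _ i1 hc₁ hcard fun c hc' => ?_) ?_
      (mul_pos hc₂ hc₂).le (Pr_nonneg _ _)
    · refine hc Γ.W Γ.C Ω U ξ c (4 * m) hL (by omega) fun x hx => hL.CU ?_
      exact ⟨(hD' c hc' hx).1, hΩ (hD' c hc' hx).2⟩
    · exact (mul_le_mul (hzz y₁ (.inl rfl)) (hzz y₂ (.inr rfl)) hc₂.le (Pr_nonneg _ _)).trans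
        (hP.inc (i2 _ _) (i2 _ _))

end Vale.Agent.P153.K2
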