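import Vale.Agent.P153.K2.Stm

/-! P153, module K2. -/

open Set

noncomputable section
namespace Vale.Agent.P153.K2

theorem s_mixp (hm : Mix) (hf : S_force) (hn : S_nu) : S_mixp := by
  obtain ⟨C, θ, hC, h0, h1, hm⟩ := hm
  intro η hη
  obtain ⟨J, hJ⟩ := exists_pow_lt_of_lt_one hη h1
  have hK : 1 ≤ C ^ J := Nat.one_le_pow _ _ hC
  refine ⟨C ^ J, hK, fun P B y r hP cP cB hPB hPy hr hy => ?_⟩
  obtain ⟨x₀, hx⟩ := compl_nonempty hP
  rw [notMem_compl_iff] at hx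
  have hx' : x₀ ∉ hex y (C ^ J * r) := disjoint_left.1 hPy hx
  have hF : Far (both P) := by simpa only [compl_compl] using far_both hP
  have key := hm 0 (P ∪ B)ᶜ P (both P) x₀ (-1) y J r (C ^ J * r) hF
    (hP.subset fun z hz h => hz (Or.inr h)) (Or.inr hx) hx' (hPy.mono_right sdiff_subset)
    (fun a _ _ h => Or.inl fun h' => disjoint_left.1 hPy h.1 h'.1) hr le_rfl
  rw [← (hn P B x₀ hP hPB).2 cP cB hx, zero_add] at key
  refine (Pr_mono fun H hH h => ?_).trans (key.trans hJ.le)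
  obtain ⟨z, hz, hz'⟩ := not_subset.1 hy
  exact hf H Bᶜ y r _ hH.1 (Nat.le_mul_of_pos_left r hK) cB ⟨z, hz', hz⟩
    (fun h' => hx' (h' (disjoint_left.1 hPB hx)))
    (fun x h1 h2 => hH.2.2 x (disjoint_right.1 hPy h2) h1) h

theorem mixp_shift (U : Set V) (k : ℤ) (y : V) (r R : ℕ) :
    Pr (free U k) {H | Arm (star (hi k H)) y r R} =
      Pr (free U 0) {H | Arm (star (hi 0 H)) y r R} := by
  have e := Ex_free_shift U 0 k (({H | Arm (star (hi k H)) y r R} : Set Cfg).indicator 1)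
  rw [zero_add] at e
  refine e.symm.trans (Ex_congr fun H _ => ?_)
  have h : hi k (fun x => H x + k) = hi 0 H := by
    ext x
    simp only [hi, ab, mem_ofPred_eq, add_sub_cancel_right, sub_zero]
  have h' : (fun x => H x + k) ∈ ({H | Arm (star (hi k H)) y r R} : Set Cfg) ↔
      H ∈ ({H | Arm (star (hi 0 H)) y r R} : Set Cfg) := by
    rw [mem_ofPred_eq, mem_ofPred_eq, h]
  exact le_antisymm (ind_mono h'.1) (ind_mono h'.2)

theorem mixp_arm {S S' : Set V} {y : V} {r R : ℕ} (h : ∀ x ∈ hex y R, x ∈ S → x ∈ S')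
    (h' : Arm (star S) y r R) : Arm (star S') y r R :=
  let ⟨a, b, h1, h2, h3⟩ := h'
  ⟨a, b, h1, h2, h3.mono' fun u v _ k hu hv =>
    ⟨k.imp (h u (ann_subset_hex hu)) (h v (ann_subset_hex hv)), hu, hv⟩⟩

theorem mixp_cnn {U : Set V} (h : Cnn Uᶜ) : Cnn (U \ ibd U)ᶜ := by
  have hs : Uᶜ ⊆ (U \ ibd U)ᶜ := compl_subset_compl.2 sdiff_subset
  refine Cn.of_sub (E := tt) h hs fun a ha => ?_
  by_cases h1 : a ∈ U
  · obtain ⟨_, b, hb, hab⟩ : a ∈ ibd U := not_not.1 fun h' => ha ⟨h1, h'⟩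
    exact ⟨b, hb, .single hab.symm trivial (hs hb) ha⟩
  · exact ⟨a, h1, .rfl⟩

theorem s_mixw (hp : S_mixp) (hn : S_nu) : S_mixw := by
  intro η hη
  obtain ⟨K, hK, hp⟩ := hp η hη
  refine ⟨K, hK, fun U k y r hU cU hr hy => ?_⟩
  obtain ⟨N, hN⟩ := exists_hex_of_finite
    ((hU.union (obd_finite hU)).union (hex_finite y (K * r))) y
  have h1 : U ⊆ hex y N := fun x hx => hN (Or.inl (Or.inl hx))
  have h2 : obd U ⊆ hex y N := fun x hx => hN (Or.inl (Or.inr hx))
  have h3 : hex y (K * r) ⊆ hex y N := fun x hx => hN (Or.inr hx)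
  have hP : (hex y N)ᶜᶜ.Finite := by rw [compl_compl]; exact hex_finite y N
  have hD : Disjoint (hex y N)ᶜ (U \ ibd U) := disjoint_left.2 fun x hx h => hx (h1 h.1)
  have key := hp (hex y N)ᶜ (U \ ibd U) y r hP (cnn_hex_compl y N) (mixp_cnn cU) hD
    (disjoint_left.2 fun x hx h => hx (h3 h)) hr fun h => hy (h.trans sdiff_subset)
  rw [mixp_shift]
  refine le_trans (le_of_eq (Eq.symm ?_)) key
  refine Ex_eq_free (hn _ _ y hP hD).1 hU (fun _ h => h.1) (fun H hH x hx => ?_)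
    (fun H hH G hG e hb => ⟨hG, fun x hx => ?_, fun x hx hx' => ?_⟩) fun H hH G hG e => ?_
  · rw [zero_add]
    exact hH.2.2 x (fun h => h (hx.elim (fun h' => h1 h'.1) (@h2 x)))
      fun h => hx.elim h.2 fun h' => h'.1 h.1
  · rw [e x fun h => hx (h1 h)]
    exact hH.2.1 x hx
  · by_cases h : x ∈ U
    · simpa only [zero_add] using hb x (not_not.1 fun h' => hx' ⟨h, h'⟩)
    · rw [e x h]
      exact hH.2.2 x hx hx'
  · have h4 : ∀ x ∈ hex y (K * r), x ∈ hi 0 H ↔ x ∈ hi 0 G := fun x hx => by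
      simp only [hi, ab, mem_ofPred_eq, le_abs]
      by_cases h : x ∈ U
      · rw [e x h]
      · have k1 := hH.2.2 x (fun h' => h' (h3 hx)) fun h' => h h'.1
        have k2 := hG.2.1 x h
        omega
    exact le_antisymm (ind_mono (mixp_arm fun x hx => (h4 x hx).1))
      (ind_mono (mixp_arm fun x hx => (h4 x hx).2))

end Vale.Agent.P153.K2
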