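import Vale.Agent.P153.K2.Stm

/-! P153, module K2. -/

open Set

noncomputable section
namespace Vale.Agent.P153.K2

theorem mom_card (hc : S_card) {y : V} {t : ℕ} {B : Finset V} (ht : 1 ≤ t) (hB : ↑B ⊆ hex y t) :
    (B.card : ℝ) ^ 2 ≤ 81 * (t : ℝ) ^ 4 := by
  have h1 : B ⊆ hexF y t := fun p hp => (Set.Finite.mem_toFinset _).2 (hB hp)
  have h2 : B.card ≤ (2 * t + 1) ^ 2 := (Finset.card_le_card h1).trans (hc y t).2
  have h3 : B.card ≤ 9 * t ^ 2 := h2.trans (by nlinarith)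
  have h4 : (B.card : ℝ) ≤ 9 * (t : ℝ) ^ 2 := by exact_mod_cast h3
  calc (B.card : ℝ) ^ 2 ≤ (9 * (t : ℝ) ^ 2) ^ 2 := pow_le_pow_left₀ (Nat.cast_nonneg _) h4 2
    _ = 81 * (t : ℝ) ^ 4 := by ring

theorem mom_dob (U : Set V) : dob U ∅ = flat U 0 := by
  ext H; simp [dob, flat]

/-- The indicator weight of a finite set. -/
def mom_ind (B : Finset V) : V →₀ ℝ :=
  Finsupp.onFinset B (fun y => if y ∈ B then 1 else 0) fun y hy => by
    by_contra h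
    exact hy (if_neg h)

theorem mom_lin (B : Finset V) (H : Cfg) : lin (mom_ind B) H = ∑ p ∈ B, (H p : ℝ) := by
  rw [lin, mom_ind, Finsupp.onFinset_sum _ (by simp)]
  exact Finset.sum_congr rfl fun p hp => by rw [if_pos hp, one_mul]

theorem s_mom (hm : MB) (hc : S_card) : S_mom := by
  obtain ⟨C, hC⟩ := hm
  refine ⟨2 * (max C 0 + 1) + 162, by positivity, fun U k y t B hU cU hk ht hy hB => ?_⟩
  have h1 := hC U ∅ y t (mom_ind B) ⟨hU, cU⟩ ht hy ⟨fun z => ?_, fun z hz => ?_⟩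
  rotate_left
  · simp only [mom_ind, Finsupp.onFinset_apply]
    split_ifs <;> simp
  · by_contra h
    refine hz ?_
    simp only [mom_ind, Finsupp.onFinset_apply]
    exact if_neg fun h' => h (hB h')
  simp only [mom_lin, mom_dob] at h1
  have h2 := Ex_sq_le (flat U 0) fun H => (∑ p ∈ B, (H p : ℝ)) ^ 2
  simp only [← pow_mul] at h2
  have hC0 : 0 ≤ max C 0 := le_max_right _ _
  have ht4 : (0 : ℝ) ≤ (t : ℝ) ^ 4 := by positivity
  have h3 : Ex (flat U 0) (fun H => (∑ p ∈ B, (H p : ℝ)) ^ 2) ≤ (max C 0 + 1) * (t : ℝ) ^ 4 := by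
    refine (pow_le_pow_iff_left₀ (Ex_nonneg fun H _ => sq_nonneg _) (by positivity)
      two_ne_zero).1 (h2.trans (h1.trans ?_))
    have h8 : (0 : ℝ) ≤ (t : ℝ) ^ 8 := by positivity
    calc C * (t : ℝ) ^ 8 ≤ (max C 0 + 1) ^ 2 * (t : ℝ) ^ 8 :=
          mul_le_mul_of_nonneg_right (by nlinarith [le_max_left C 0]) h8
      _ = ((max C 0 + 1) * (t : ℝ) ^ 4) ^ 2 := by ring
  have h4 := Ex_flat_shift U 0 k fun H => (∑ p ∈ B, (H p : ℝ)) ^ 2
  rw [zero_add] at h4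
  rw [← h4]
  have hk2 : (k : ℝ) ^ 2 ≤ 1 := by
    have : k ^ 2 ≤ 1 := by rw [← sq_abs]; nlinarith [abs_nonneg k]
    exact_mod_cast this
  have hcard := mom_card hc ht hB
  calc Ex (flat U 0) (fun H => (∑ p ∈ B, ((H p + k : ℤ) : ℝ)) ^ 2)
      ≤ Ex (flat U 0) (fun H => 2 * (∑ p ∈ B, (H p : ℝ)) ^ 2 + 162 * (t : ℝ) ^ 4) := by
        refine Ex_mono fun H _ => ?_
        push_cast
        rw [Finset.sum_add_distrib, Finset.sum_const, nsmul_eq_mul]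
        have h5 : ((B.card : ℝ) * k) ^ 2 ≤ 81 * (t : ℝ) ^ 4 := by
          rw [mul_pow]
          nlinarith [sq_nonneg (B.card : ℝ)]
        nlinarith [sq_nonneg ((∑ p ∈ B, (H p : ℝ)) - (B.card : ℝ) * k)]
    _ ≤ _ := by
        rw [Ex_add, Ex_mul_left, Ex_const (good_flat hU 0)]
        nlinarith

theorem mom_up {P B : Set V} (hB : B.Finite) (hd : Disjoint P B) (hg : Good (nuP P B)) :
    SD id (nuP P B) (flat B 1) := by
  refine sd_H hg (good_flat hB 1) (fun H h => h.1) allLip_flat fun H hH K hK => ?_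
  refine ⟨⟨hH.1.inf hK.1, fun x hx => ?_, fun x hx hx' => ?_⟩, hH.1.sup hK.1, fun x hx => ?_⟩
  · rw [inf_ap, hH.2.1 x hx, hK.2 x (disjoint_left.1 hd hx)]; rfl
  · rw [inf_ap, hK.2 x hx']
    rcases hH.2.2 x hx hx' with h | h <;> rw [h] <;> simp
  · rw [sup_ap, hK.2 x hx]
    by_cases hP : x ∈ P
    · rw [hH.2.1 x hP]; rfl
    · rcases hH.2.2 x hP hx with h | h <;> rw [h] <;> simp

theorem mom_dn {P B : Set V} (hB : B.Finite) (hd : Disjoint P B) (hg : Good (nuP P B)) :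
    SD id (flat B (-1)) (nuP P B) := by
  refine sd_H (good_flat hB (-1)) hg allLip_flat (fun H h => h.1) fun H hH K hK => ?_
  refine ⟨⟨hH.1.inf hK.1, fun x hx => ?_⟩, hH.1.sup hK.1, fun x hx => ?_, fun x hx hx' => ?_⟩
  · rw [inf_ap, hH.2 x hx]
    by_cases hP : x ∈ P
    · rw [hK.2.1 x hP]; rfl
    · rcases hK.2.2 x hP hx with h | h <;> rw [h] <;> simp
  · rw [sup_ap, hK.2.1 x hx, hH.2 x (disjoint_left.1 hd hx)]; rfl
  · rw [sup_ap, hH.2 x hx']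
    rcases hK.2.2 x hx hx' with h | h <;> rw [h] <;> simp

theorem mom_sum_le (B : Finset V) {H K : Cfg} (h : H ≤ K) :
    ∑ p ∈ B, (H p : ℝ) ≤ ∑ p ∈ B, (K p : ℝ) :=
  Finset.sum_le_sum fun p _ => by exact_mod_cast h p

theorem mom_max_sq (a : ℝ) : max a 0 ^ 2 ≤ a ^ 2 := by
  rcases le_total a 0 with h | h
  · rw [max_eq_right h]; nlinarith
  · rw [max_eq_left h]

theorem s_momp (hm : S_mom) (hc : S_card) (hn : S_nu) : S_momp := by
  obtain ⟨C, hC0, hC⟩ := hm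
  refine ⟨4 * C + 41, by positivity, fun P B₀ y t B hP cB hd ht hy hB => ?_⟩
  have hfin : B₀.Finite := hP.subset fun x hx hx' => disjoint_left.1 hd hx' hx
  have hg : Good (nuP P B₀) := (hn P B₀ y hP hd).1
  have ht4 : (0 : ℝ) ≤ (t : ℝ) ^ 4 := by positivity
  have h1 := mom_up hfin hd hg (fun H => max (∑ p ∈ B, (H p : ℝ)) 0 ^ 2) fun H K _ _ h =>
    pow_le_pow_left₀ (le_max_right _ _) (max_le_max (mom_sum_le B h) le_rfl) 2
  have h2 := mom_dn hfin hd hg (fun H => -max (-∑ p ∈ B, (H p : ℝ)) 0 ^ 2) fun H K _ _ h =>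
    neg_le_neg (pow_le_pow_left₀ (le_max_right _ _)
      (max_le_max (neg_le_neg (mom_sum_le B h)) le_rfl) 2)
  rw [Ex_neg, Ex_neg, neg_le_neg_iff] at h2
  have h3 := hC B₀ 1 y t B hfin cB (by simp) ht hy hB
  have h4 := hC B₀ (-1) y t B hfin cB (by simp) ht hy hB
  have h5 : Ex (flat B₀ 1) (fun H => max (∑ p ∈ B, (H p : ℝ)) 0 ^ 2) ≤ _ :=
    (Ex_mono fun H _ => mom_max_sq _).trans h3
  have h6 : Ex (flat B₀ (-1)) (fun H => max (-∑ p ∈ B, (H p : ℝ)) 0 ^ 2) ≤ _ :=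
    (Ex_mono fun H _ => (mom_max_sq _).trans (neg_sq _).le).trans h4
  have h7 : Ex (nuP P B₀) (fun H => (∑ p ∈ B, (H p : ℝ)) ^ 2) ≤ 2 * C * (t : ℝ) ^ 4 := by
    have h8 : Ex (nuP P B₀) (fun H => (∑ p ∈ B, (H p : ℝ)) ^ 2) =
        Ex (nuP P B₀) (fun H => max (∑ p ∈ B, (H p : ℝ)) 0 ^ 2 +
          max (-∑ p ∈ B, (H p : ℝ)) 0 ^ 2) := by
      refine Ex_congr fun H _ => ?_
      rcases le_total (∑ p ∈ B, (H p : ℝ)) 0 with h | h
      · rw [max_eq_right h, max_eq_left (neg_nonneg.2 h)]; ring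
      · rw [max_eq_left h, max_eq_right (neg_nonpos.2 h)]; ring
    rw [h8, Ex_add]
    linarith
  have hcard := mom_card hc ht hB
  refine ⟨h7.trans (by nlinarith), ?_⟩
  calc Ex (nuP P B₀) (fun H => (∑ p ∈ B, ((H p : ℝ) - 1 / 2)) ^ 2)
      ≤ Ex (nuP P B₀) (fun H => 2 * (∑ p ∈ B, (H p : ℝ)) ^ 2 + 41 * (t : ℝ) ^ 4) := by
        refine Ex_mono fun H _ => ?_
        rw [Finset.sum_sub_distrib, Finset.sum_const, nsmul_eq_mul]
        nlinarith [sq_nonneg ((∑ p ∈ B, (H p : ℝ)) + (B.card : ℝ) * (1 / 2))]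
    _ ≤ _ := by
        rw [Ex_add, Ex_mul_left, Ex_const hg]
        nlinarith

end Vale.Agent.P153.K2
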