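import Vale.Agent.P153.K2.Stm

/-! P153, module K2. -/

open Set

noncomputable section
namespace Vale.Agent.P153.K2

theorem ne_low {F S W T O : Set V} {H : Cfg} (hW : Disjoint W F) (hS : W ⊆ S) (hH : H ∈ dob F S)
    (h : Lk (le 0 H) T O) : ∃ a ∈ T, ∃ b ∈ O, Conn (both (le 0 H)) Wᶜ a b := by
  obtain ⟨a, ha, b, hb, h⟩ := h
  have key : ∀ u, u ∈ le 0 H → u ∈ Wᶜ := fun u hu hw => by
    have h1 := (hH.2 u (disjoint_left.1 hW hw)).1 (hS hw)
    have h2 : H u ≤ 0 := hu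
    omega
  exact ⟨a, ha, b, hb, h.mono' fun u v _ e _ _ => ⟨e, key u e.1, key v e.2⟩⟩

theorem k2le (hg : S_geo) (hi : S_iter) (hd : S_ldob) : K2le := by
  intro η hη
  obtain ⟨M, hM, hi⟩ := hi η hη
  refine ⟨M, fun F S W T O z t r R hR hMR hA hS => ?_⟩
  by_cases hc : ∃ a ∈ T, ∃ b ∈ O, Conn tt Wᶜ a b
  · obtain ⟨Γ, rfl, rfl, rfl, rfl, rfl, rfl, rfl⟩ :=
      hg F W T O z t r R hR ((Nat.le_mul_of_pos_left r hM).trans hMR) hA hc
    obtain ⟨ξ, hL, e⟩ := hd F S Γ.W Γ.C hR.fin hR.cF hR.WF hS hR.CF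
    refine (Pr_mono (E' := Γ.Bad) fun H hH h => ne_low hR.WF hS hH h).trans ?_
    rw [e]
    exact hi Γ univ F ξ hR.r1 hMR hL (subset_univ _)
  · refine (Pr_eq_zero fun H hH h => hc ?_).le.trans hη.le
    obtain ⟨a, ha, b, hb, h⟩ := ne_low hR.WF hS hH h
    exact ⟨a, ha, b, hb, h.mono (fun _ _ _ => trivial) subset_rfl⟩

theorem ne_split {T O : Set V} {H : Cfg} (hl : Lip H) (h : Lk {v | H v ≠ 1} T O) :
    Lk (le 0 H) T O ∨ Lk (ge 2 H) T O := by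
  obtain ⟨a, ha, b, hb, h⟩ := h
  rcases le_total (H a) 1 with h1 | h1
  · refine Or.inl ⟨a, ha, b, hb, (h.ind (P := fun v => Conn (both (le 0 H)) univ a v ∧ H v ≤ 1)
      ⟨Conn.rfl, h1⟩ fun u v _ e e' _ _ p => ?_).1⟩
    have h2 := abs_le.1 (hl u v e)
    have h3 : H u ≠ 1 := e'.1
    have h4 : H v ≠ 1 := e'.2
    have h5 := p.2
    exact ⟨p.1.tail e ⟨show H u ≤ 0 by omega, show H v ≤ 0 by omega⟩ trivial trivial, by omega⟩
  · refine Or.inr ⟨a, ha, b, hb, (h.ind (P := fun v => Conn (both (ge 2 H)) univ a v ∧ 1 ≤ H v)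
      ⟨Conn.rfl, h1⟩ fun u v _ e e' _ _ p => ?_).1⟩
    have h2 := abs_le.1 (hl u v e)
    have h3 : H u ≠ 1 := e'.1
    have h4 : H v ≠ 1 := e'.2
    have h5 := p.2
    exact ⟨p.1.tail e ⟨show 2 ≤ H u by omega, show 2 ≤ H v by omega⟩ trivial trivial, by omega⟩

theorem ne_lk_mono {A A' T O : Set V} (hA : A ⊆ A') (h : Lk A T O) : Lk A' T O :=
  let ⟨a, ha, b, hb, h⟩ := h
  ⟨a, ha, b, hb, h.mono (both_mono hA) subset_rfl⟩

theorem ne_sd {F : Set V} (hF : F.Finite) (S : Set V) : SD id (dob F S) (flat F 1) := by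
  refine sd_H (good_dob hF S) (good_flat hF 1) allLip_dob allLip_flat fun H hH K hK =>
    ⟨⟨hH.1.inf hK.1, fun x hx => ⟨fun h => ?_, fun h => ?_⟩⟩, hH.1.sup hK.1, fun x hx => ?_⟩
  · rw [inf_ap, (hH.2 x hx).1 h, hK.2 x hx, min_self]
  · rw [inf_ap, (hH.2 x hx).2 h, hK.2 x hx, min_eq_left zero_le_one]
  · rw [sup_ap, hK.2 x hx]
    by_cases h : x ∈ S
    · rw [(hH.2 x hx).1 h, max_self]
    · rw [(hH.2 x hx).2 h, max_eq_right zero_le_one]

theorem ne_flat (F : Set V) : flat F 1 = dob F univ := by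
  ext H
  simp [flat, dob]

theorem ne_high {F : Set V} (hF : F.Finite) (S T O : Set V) :
    Pr (dob F S) {H | Lk (ge 2 H) T O} ≤ Pr (dob F univ) {H | Lk (le 0 H) T O} := by
  refine ((ne_sd hF S).inc fun H K _ _ h => ne_lk_mono fun x hx => le_trans hx (h x)).trans
    (le_of_eq ?_)
  have h1 := Ex_flat_flip F 1 2 (({H | Lk (le 0 H) T O} : Set Cfg).indicator 1)
  rw [show (2 : ℤ) - 1 = 1 from rfl] at h1
  rw [← ne_flat]
  refine Eq.trans (Ex_congr fun H _ => ?_) h1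
  refine le_antisymm (ind_mono (ne_lk_mono fun x hx => ?_))
    (ind_mono (ne_lk_mono fun x hx => ?_))
  · exact sub_nonpos.2 (show 2 ≤ H x from hx)
  · exact sub_nonpos.1 (show 2 - H x ≤ 0 from hx)

theorem ne_one {F : Set V} (hF : F.Finite) (S T O : Set V) :
    Pr (dob F S) {H | Lk {v | H v ≠ 1} T O} ≤
      Pr (dob F S) {H | Lk (le 0 H) T O} + Pr (dob F univ) {H | Lk (le 0 H) T O} :=
  ((Pr_mono (E' := {H | Lk (le 0 H) T O} ∪ {H | Lk (ge 2 H) T O})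
    fun _ hH h => ne_split hH.1 h).trans (Pr_union_le _ _ _)).trans
    (add_le_add le_rfl (ne_high hF S T O))

theorem ne_zero (F S T O : Set V) :
    Pr (dob F S) {H | Lk {v | H v ≠ 0} T O} ≤ Pr (dob F Sᶜ) {H | Lk {v | H v ≠ 1} T O} := by
  have h1 := Pr_bij (bij_dob isSym_refl F S).2 {H | Lk {v | H v ≠ 1} T O}
  simp only [Equiv.coe_refl, image_id] at h1
  rw [← h1]
  refine Pr_mono fun H _ => ne_lk_mono fun x hx => ?_
  have h2 : H x ≠ 0 := hx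
  show hact (Equiv.refl V) (-1) 1 H x ≠ 1
  rw [Sym_act_neg]
  show 1 - H x ≠ 1
  omega

theorem k2ne (h : K2le) : K2ne := by
  intro η hη
  obtain ⟨M, h⟩ := h (η / 2) (half_pos hη)
  refine ⟨M, fun F S W T O z t r R k hR hMR hA hk => ?_⟩
  have h1 : ∀ S, W ⊆ S → Pr (dob F S) {H | Lk {v | H v ≠ 1} T O} ≤ η := fun S hS => by
    linarith [ne_one hR.fin S T O, h F S W T O z t r R hR hMR hA hS,
      h F univ W T O z t r R hR hMR hA (subset_univ _)]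
  rcases hk with ⟨rfl, hS⟩ | ⟨rfl, hS⟩
  · exact h1 S hS
  · exact (ne_zero F S T O).trans (h1 Sᶜ hS.subset_compl_right)

end Vale.Agent.P153.K2
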