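import Vale.Agent.P153.K2.Stm

/-! P153, module K2. -/

open Set

noncomputable section
namespace Vale.Agent.P153.K2

theorem s_scr (hw : S_mixw) (hl : S_low) : S_scr := by
  intro η hη
  obtain ⟨K, hK, h⟩ := hw η hη
  refine ⟨K, hK, fun W C Ω U ξ y r hL hr hΩ hW => ?_⟩
  have h1 : Pr (lowS W U ξ) {H | ¬ Disjoint (Rch (hex y (K * r))ᶜ (eLe (-2)) H) (hex y r)} ≤
      Pr (lowS W U ξ) {H | Arm (star (le (-2) H ∩ U)) y r (K * r)} := by
    refine Pr_mono fun H hH hE => ?_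
    obtain ⟨a, ⟨b, hb, hc⟩, ha⟩ := not_disjoint_iff.1 hE
    obtain ⟨u, v, e1, e2, -, k, -⟩ := arm_of_conn (x := y) (Conn.symm (star_symm (le (-2) H)) hc)
      ha (Nat.le_mul_of_pos_left r hK) (not_le.1 fun k => hb (mem_hex.2 k)).le
    have key : ∀ z ∈ ann y r (K * r), z ∈ le (-2) H → z ∈ le (-2) H ∩ U := fun z hz k1 =>
      ⟨k1, by_contra fun k2 => by
        have k3 := hL.b2 z (hΩ hz) k2
        have k4 : H z ≤ -2 := k1
        rw [hH.2.1 z k2] at k4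
        omega⟩
    exact ⟨u, v, e1, e2, k.mono' fun p q _ k1 k2 k3 =>
      ⟨k1.imp (key p k2.2) (key q k3.2), k2.2, k3.2⟩⟩
  have h2 : Pr (lowS W U ξ) {H | Arm (star (le (-2) H ∩ U)) y r (K * r)} ≤
      Pr (free U (-1)) {H | Arm (star (le (-2) H ∩ U)) y r (K * r)} := by
    refine (hl W C Ω U ξ hL).2.2.dec fun H H' _ _ hle hE => ?_
    exact Arm.mono hE (star_mono fun z hz => ⟨le_trans (hle ⟨z, hz.2⟩) hz.1, hz.2⟩) le_rfl
      (Nat.le_mul_of_pos_left r hK) le_rfl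
  have h3 : Pr (free U (-1)) {H | Arm (star (le (-2) H ∩ U)) y r (K * r)} ≤
      Pr (free U (-1)) {H | Arm (star (hi (-1) H)) y r (K * r)} := by
    refine Pr_mono fun H _ hE => Arm.mono hE (star_mono fun z hz => ?_) le_rfl
      (Nat.le_mul_of_pos_left r hK) le_rfl
    have k : H z ≤ -2 := hz.1
    show 3 ≤ |2 * (H z - -1) - 1|
    rw [le_abs]
    omega
  refine h1.trans (h2.trans (h3.trans (h U (-1) y r hL.fin hL.cU hr fun hs => ?_)))
  obtain ⟨w, w1, w2⟩ := hW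
  exact disjoint_left.1 hL.WU w1 (hs w2)

end Vale.Agent.P153.K2
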