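import Vale.Agent.P153.K2.Stm

/-! P153, module K2. -/

open Set

noncomputable section
namespace Vale.Agent.P153.K2

theorem small_prod {S : Set Cfg} (hS : Good S) (hP : PA id S) {ι : Type} (D : Finset ι)
    (A : ι → Set Cfg) (hA : ∀ i ∈ D, IncBy id (A i)) {c : ℝ} (hc : 0 < c) {n : ℕ}
    (hn : D.card ≤ n) (h : ∀ i ∈ D, c ≤ Pr S (A i)) : min c 1 ^ n ≤ Pr S (⋂ i ∈ D, A i) := by
  have h0 : 0 ≤ min c 1 := (lt_min hc one_pos).le
  refine le_trans ?_ (hP.inc_prod hS D A hA)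
  refine (pow_le_pow_of_le_one h0 (min_le_right _ _) hn).trans ?_
  rw [← Finset.prod_const]
  exact Finset.prod_le_prod (fun _ _ => h0) fun i hi => (min_le_left _ _).trans (h i hi)

theorem s_small (hz : S_zed) (hk : S_card) (hl : S_low) (hb : S_block) : S_small := by
  classical
  intro E
  rcases Nat.eq_zero_or_pos E with rfl | hE
  · exact ⟨6, 1, le_rfl, one_pos, fun _ _ _ _ _ _ _ _ _ _ _ _ _ h => absurd h (Nat.not_lt_zero _)⟩
  obtain ⟨Λ, c, hΛ, hc, hz⟩ := hz ((8 * E) ^ 2)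
  refine ⟨6 + Λ * (8 * E), min c 1 ^ ((2 * (4 * E) + 1) ^ 2), Nat.le_add_right _ _,
    pow_pos (lt_min hc one_pos) _, fun Γ s Ω U σ ξ w x₀ hQ hR hL hΩ hC hw => ?_⟩
  have hs : 1 ≤ s := by omega
  have hr : Γ.r ≤ s := by omega
  have hσ : σ ⊆ hex x₀ (4 * E) := hC.small.trans (hex_mono (by omega))
  have hann : ∀ v ∈ σ, v ∈ hex Γ.z (6 * s) \ hex Γ.z s := fun v hv =>
    hC.ann v hv (self_mem_hex _ _)
  have hfin : (σ ∩ Γ.C).Finite := (hex_finite x₀ (4 * E)).subset fun x hx => hσ hx.1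
  have hCW : Disjoint Γ.C Γ.W := disjoint_left.2 fun x hx => (comp_subset hx).2
  refine ⟨⋂ v ∈ hfin.toFinset, {H | 1 ≤ H v}, ?_, ?_, ?_⟩
  · have key : ∀ H K : Cfg, (∀ x ∈ (hex Γ.z s)ᶜ, H x = K x) →
        H ∈ (⋂ v ∈ hfin.toFinset, {H : Cfg | 1 ≤ H v}) →
        K ∈ (⋂ v ∈ hfin.toFinset, {H : Cfg | 1 ≤ H v}) := by
      intro H K h hH
      rw [mem_iInter₂] at hH ⊢
      intro v hv
      have h1 : 1 ≤ H v := hH v hv
      have h2 := h v (hann v (hfin.mem_toFinset.1 hv).1).2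
      exact h1.trans h2.le
    exact fun H K h => propext ⟨key H K h, key K H fun x hx => (h x hx).symm⟩
  · rintro H hH ⟨a, ha, b, hb', hab⟩
    rw [mem_iInter₂] at hH
    refine hb Γ σ (Γ.Wᶜ ∩ le 0 H) hC.odd hC.sub ?_ ?_ ?_ a ha b hb' (conn_both_iff.1 hab)
    · exact disjoint_left.2 fun x hx hT => (hann x hx).2 (hex_mono hr (Γ.Tr hT))
    · exact disjoint_left.2 fun x hx => hx.1
    · refine disjoint_left.2 fun x hx hx' => ?_
      rcases hC.sub hx' with h | h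
      · have h1 : 1 ≤ H x := hH x (hfin.mem_toFinset.2 ⟨hx', h⟩)
        have h2 : H x ≤ 0 := hx.2
        omega
      · exact hx.1 h
  · obtain ⟨hG, hP, -⟩ := hl _ _ _ _ _ hL
    refine small_prod hG hP _ _ (fun v _ H K _ _ hle hH => le_trans hH (hle v)) hc ?_ ?_
    · refine le_trans (Finset.card_le_card fun x hx => ?_) (hk x₀ (4 * E)).2
      exact (hex_finite x₀ (4 * E)).mem_toFinset.2 (hσ (hfin.mem_toFinset.1 hx).1)
    intro v hv
    obtain ⟨hv, hvC⟩ := hfin.mem_toFinset.1 hv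
    have hsub : hex v (Λ * (8 * E)) ⊆ hex Γ.z ((6 + Λ * (8 * E)) * s) := by
      refine hex_subset ?_
      have h1 : nrm (v - Γ.z) ≤ 6 * s := (hann v hv).1
      have h2 : Λ * (8 * E) ≤ Λ * (8 * E) * s := Nat.le_mul_of_pos_right _ hs
      rw [add_mul]
      omega
    have hsub' : hex v (Λ * (8 * E)) ⊆ Ω := fun x hx => hΩ ⟨hsub hx, fun h => by
      have h1 : ¬ nrm (v - Γ.z) ≤ s := (hann v hv).2
      have h2 : nrm (x - v) ≤ Λ * (8 * E) := hx
      have h3 : nrm (x - Γ.z) ≤ Γ.r := h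
      have h4 := nrm_tri Γ.z x v
      have h5 := nrm_sub_comm v x
      omega⟩
    have hsubR : hex v (Λ * (8 * E)) ⊆ hex Γ.z Γ.R := hsub.trans (hex_mono hR)
    obtain ⟨a, haW, b, -, hab⟩ := hC.odd
    have ha : a ∈ hex v (8 * E) := by
      have h1 : nrm (a - x₀) ≤ 4 * E := hσ hab.mem_left
      have h2 : nrm (v - x₀) ≤ 4 * E := hσ hv
      have h3 := nrm_tri v x₀ a
      have h4 := nrm_sub_comm x₀ v
      change nrm (a - v) ≤ 8 * E
      omega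
    have := hz Γ.W Γ.C Ω U ξ v (8 * E) {v} hL Γ.cW hCW (by omega) hsub'
      (fun a ha b hb hab hbW => comp_step ha hab ⟨hsubR hb, hbW⟩) ⟨a, haW, ha⟩
      (fun h => Γ.far (h.trans hsubR))
      (by
        intro x hx
        rw [Finset.coe_singleton, mem_singleton_iff] at hx
        subst hx
        exact ⟨hvC, self_mem_hex _ _⟩)
      (by simp)
    refine this.trans (Pr_mono ?_)
    rintro H - ⟨p, hp, _, -, h1, -⟩
    rw [Finset.mem_singleton] at hp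
    exact hp ▸ h1

theorem s_one (h1 : S_large) (h2 : S_small) (h3 : S_halve) : S_one := by
  obtain ⟨E, c₁, hE, hc₁, h1⟩ := h1
  obtain ⟨Q, c₂, hQ, hc₂, h2⟩ := h2 E
  refine ⟨Q, min c₁ c₂, by omega, lt_min hc₁ hc₂, fun Γ s Ω U ξ hq hR hL hΩ => ?_⟩
  have hs : 1 ≤ s := by omega
  have hr : Γ.r ≤ s := by omega
  have h6 : 6 * s ≤ Q * s := Nat.mul_le_mul_right s hQ
  obtain ⟨σ, w, x₀, hC, hw⟩ := h3 Γ s hs hr (h6.trans hR)
  rcases lt_or_ge w E with h | h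
  · obtain ⟨A, k1, k2, k3⟩ := h2 Γ s Ω U σ ξ w x₀ hq hR hL hΩ hC h
    exact ⟨A, k1, k2, (min_le_right _ _).trans k3⟩
  · obtain ⟨A, k1, k2, k3⟩ := h1 Γ s Ω U σ ξ w x₀ hr (h6.trans hR) hL
      ((sdiff_subset_sdiff (hex_mono h6) (hex_mono hr)).trans hΩ) hC (hw.resolve_left (by omega)) h
    exact ⟨A, k1, k2, (min_le_left _ _).trans k3⟩

end Vale.Agent.P153.K2
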