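import Vale.Agent.P153.K2.Stm

/-! P153, module K2. -/

open Set

noncomputable section
namespace Vale.Agent.P153.K2

/-- `c` is the value at `x` of the potential continued from the wall. -/
def types_Tp (Γ : Geo) (n : ℕ) (x : V) (c : Prop) : Prop :=
  ∃ v ∈ Γ.W, OC (chi Γ.t Γ.u) tt (hex x (n + 1) ∩ (Γ.C ∪ Γ.W)) x v (¬ (c ↔ Γ.g v))

theorem types_symm (t u a b : V) (h : chi t u a b) : chi t u b a := by
  unfold chi at h ⊢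
  rwa [crossR_comm t b a, crossR_comm u b a]

theorem types_osymm {t u a b : V} {A : Set V} {e : Prop} (h : OC (chi t u) tt A a b e) :
    OC (chi t u) tt A b a e := h.symm (types_symm t u) fun _ _ => id

theorem types_ex (Γ : Geo) {n : ℕ} {x : V} (hx : x ∈ Γ.C ∪ Γ.W)
    (hR : hex x (n + 1) ⊆ hex Γ.z Γ.R) (h : (Γ.W ∩ hex x (n + 1)).Nonempty) :
    ∃ c, types_Tp Γ n x c := by
  by_cases hW : x ∈ Γ.W
  · exact ⟨Γ.g x, x, hW, (OC.refl (by exact ⟨self_mem_hex x _, hx⟩)).congr (by simp)⟩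
  obtain ⟨y, h1, h2⟩ := h
  obtain ⟨u, v, k1, k2, -, k4, -, k6, k7, -⟩ := (conn_hex h2).exit (B := Γ.Wᶜ) hW (not_not.2 h1)
  have k8 : Conn tt (hex x (n + 1) ∩ (Γ.C ∪ Γ.W)) x u ∧ u ∈ Γ.C :=
    k1.ind (P := fun u => Conn tt (hex x (n + 1) ∩ (Γ.C ∪ Γ.W)) x u ∧ u ∈ Γ.C)
      ⟨.rfl, hx.resolve_right hW⟩ fun a b _ e _ ha hb ih =>
        have q : b ∈ Γ.C := comp_step ih.2 e ⟨hR hb.1, hb.2⟩
        ⟨ih.1.tail e trivial ⟨ha.1, Or.inl ih.2⟩ ⟨hb.1, Or.inl q⟩, q⟩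
  obtain ⟨e, he⟩ := (k8.1.tail k2 trivial ⟨k4, Or.inl k8.2⟩ ⟨k6, Or.inr (not_not.1 k7)⟩).oc
    (chi Γ.t Γ.u) ⟨self_mem_hex x _, hx⟩
  exact ⟨¬ (e ↔ Γ.g v), v, not_not.1 k7, he.congr (by tauto)⟩

theorem types_uniq (Γ : Geo) {n w : ℕ} {x v : V} {c e : Prop} (hw : n + 1 ≤ w)
    (hE : ¬ Γ.Odd (hex x w ∩ (Γ.C ∪ Γ.W))) (h : types_Tp Γ n x c) (hv : v ∈ Γ.W)
    (k : OC (chi Γ.t Γ.u) tt (hex x w ∩ (Γ.C ∪ Γ.W)) x v e) : e ↔ ¬ (c ↔ Γ.g v) := by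
  obtain ⟨v', hv', k'⟩ := h
  by_contra q
  exact hE ⟨v', hv', v, hv, ((types_osymm (k'.mono (fun _ _ => id)
    (inter_subset_inter_left _ (hex_mono hw)))).trans k).congr (by tauto)⟩

theorem types_tr (Γ : Geo) {n w : ℕ} {u v : V} {c : Prop} (hw : n + 2 ≤ w) (huv : Adj u v)
    (hv : v ∈ Γ.C ∪ Γ.W) (hR : hex v w ⊆ hex Γ.z Γ.R) (hE : ¬ Γ.Odd (hex v w ∩ (Γ.C ∪ Γ.W)))
    (h : types_Tp Γ n u c) (hn : (Γ.W ∩ hex v (n + 1)).Nonempty) :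
    types_Tp Γ n v (c ↔ ¬ chi Γ.t Γ.u u v) := by
  obtain ⟨c', hc⟩ := types_ex Γ hv ((hex_mono (by omega)).trans hR) hn
  obtain ⟨y, hy, k⟩ := h
  have k1 := k.mono (fun _ _ => id) (inter_subset_inter_left (Γ.C ∪ Γ.W)
    (hex_subset (y := v) (N := w) (by rw [adj_iff_nrm.1 huv.symm]; omega)))
  have k2 := types_uniq Γ (by omega) hE hc hy
    ((types_osymm (OC.single huv trivial k1.mem_left ⟨self_mem_hex v w, hv⟩)).trans k1)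
  have e : c' ↔ (c ↔ ¬ chi Γ.t Γ.u u v) := by tauto
  exact propext e ▸ hc

theorem types_near {W : Set V} {n : ℕ} {u v : V} (h : Adj u v) (k : ¬ Disjoint (hex u n) W) :
    (W ∩ hex v (n + 1)).Nonempty :=
  let ⟨y, h1, h2⟩ := not_disjoint_iff.1 k
  ⟨y, h2, hex_subset (by rw [adj_iff_nrm.1 h.symm]; omega) h1⟩

theorem types_p1 {c g : Prop} (h : c ↔ ¬ (False ↔ g)) : False ↔ ¬ (c ↔ g) := by tauto

theorem types_p2 {c e p g : Prop} (h : c ↔ ¬ ((e ↔ ¬ p) ↔ g)) : c ↔ (¬ (e ↔ g) ↔ ¬ p) := by tauto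

theorem types_p3 (c d p : Prop) : (¬ (d ↔ c) ↔ ¬ p) ↔ ¬ (d ↔ (c ↔ ¬ p)) := by tauto

theorem types_p4 {c d e : Prop} (h : ¬ (e ↔ c)) : ¬ (d ↔ c) ↔ (d ↔ e) := by tauto

theorem types_p5 (a b : Prop) : ¬ b ↔ ¬ ((a ↔ b) ↔ a) := by tauto

theorem types_p6 (c d a b : Prop) :
    ((¬ (c ↔ a) ↔ ¬ (c ↔ d)) ↔ ¬ ¬ (d ↔ b)) ↔ (a ↔ b) := by tauto

theorem s_types : S_types := by
  intro Γ σ w n ⟨a, ha, b, hb, hO⟩ hσ hw hR hE
  obtain ⟨σ', hσ'⟩ : ∃ σ', σ' = {x | x ∈ σ ∧ Disjoint (hex x n) Γ.W} := ⟨_, rfl⟩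
  have m : ∀ {x}, x ∈ σ' ↔ x ∈ σ ∧ Disjoint (hex x n) Γ.W := by
    subst hσ'
    exact Iff.rfl
  obtain ⟨G, hG⟩ : ∃ G : Prop, G ↔ ∃ y₁ y₂ c₁ c₂, types_Tp Γ n y₁ c₁ ∧ types_Tp Γ n y₂ c₂ ∧
    OC (chi Γ.t Γ.u) tt σ' y₁ y₂ (c₁ ↔ c₂) := ⟨_, Iff.rfl⟩
  have nf : ∀ x ∈ Γ.W, ¬ Disjoint (hex x n) Γ.W := fun x hx k =>
    disjoint_left.1 k (self_mem_hex x n) hx
  have key := hO.ind (P := fun x e => ∀ c, (c ↔ ¬ (e ↔ Γ.g a)) → G ∨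
      (¬ Disjoint (hex x n) Γ.W ∧ types_Tp Γ n x c) ∨
      ∃ y c₁, types_Tp Γ n y c₁ ∧ OC (chi Γ.t Γ.u) tt σ' y x (¬ (c₁ ↔ c)))
    (fun c hc => Or.inr (Or.inl ⟨nf a ha, a, ha,
      (OC.refl (by exact ⟨self_mem_hex a _, Or.inr ha⟩)).congr (types_p1 hc)⟩))
    (fun u v e huv _ hu hv ih c' hc' => by
      obtain rfl : c' = (¬ (e ↔ Γ.g a) ↔ ¬ chi Γ.t Γ.u u v) := propext (types_p2 hc')
      have ih := ih _ Iff.rfl
      generalize (¬ (e ↔ Γ.g a)) = c at ih ⊢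
      have tr := fun h : types_Tp Γ n u c => types_tr Γ hw huv (hσ hv) (hR v hv) (hE v hv) h
      rcases ih with k | ⟨k, k'⟩ | ⟨y, c₁, k, k'⟩
      · exact Or.inl k
      · have q := tr k' (types_near huv k)
        by_cases f : Disjoint (hex v n) Γ.W
        · exact Or.inr (Or.inr ⟨v, _, q, (OC.refl (m.2 ⟨hv, f⟩)).congr (by simp)⟩)
        · exact Or.inr (Or.inl ⟨f, q⟩)
      · by_cases f : Disjoint (hex v n) Γ.W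
        · exact Or.inr (Or.inr ⟨y, c₁, k, (k'.tail huv trivial (m.2 ⟨hv, f⟩)).congr
            (types_p3 _ _ _)⟩)
        obtain ⟨c₂, q⟩ := types_ex Γ (hσ hu) ((hex_mono (by omega)).trans (hR u hu))
          (types_near huv.symm f)
        by_cases r : c₂ ↔ c
        · obtain ⟨y, h1, h2⟩ := not_disjoint_iff.1 f
          exact Or.inr (Or.inl ⟨f, tr (propext r ▸ q) ⟨y, h2, hex_mono n.le_succ h1⟩⟩)
        · exact Or.inl (hG.2 ⟨y, u, c₁, c₂, k, q, k'.congr (types_p4 r)⟩))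
    (¬ Γ.g b) (types_p5 _ _)
  rcases key with k | ⟨-, k⟩ | ⟨_, _, -, k⟩
  · obtain ⟨y₁, y₂, c₁, c₂, k1, k2, k⟩ := hG.1 k
    have m1 := m.1 k.mem_left
    have m2 := m.1 k.mem_right
    refine ⟨y₁, m1.1, y₂, m2.1, m1.2, m2.2, k1.imp fun _ h => ⟨h.1, h.2.mem_right.1⟩,
      k2.imp fun _ h => ⟨h.1, h.2.mem_right.1⟩, fun A₁ A₂ v₁ v₂ s1 s2 w1 w2 a1 a2 p1 p2 => ?_⟩
    obtain ⟨e₁, q1⟩ := p1.oc (chi Γ.t Γ.u) a1
    obtain ⟨e₂, q2⟩ := p2.oc (chi Γ.t Γ.u) a2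
    have r1 := types_uniq Γ (by omega) (hE _ m1.1) k1 w1 (q1.mono (fun _ _ => id) s1)
    have r2 := types_uniq Γ (by omega) (hE _ m2.1) k2 w2 (q2.mono (fun _ _ => id) s2)
    rw [← hσ']
    refine ⟨v₁, w1, v₂, w2, ((((types_osymm q1).mono (fun _ _ => id)
      (subset_union_right.trans subset_union_left)).trans (k.mono (fun _ _ => id)
      (subset_union_left.trans subset_union_left))).trans
      (q2.mono (fun _ _ => id) subset_union_right)).congr ?_⟩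
    rw [r1, r2]
    exact types_p6 _ _ _ _
  · exact ((types_uniq Γ (by omega) (hE b hO.mem_right) k hb
      (OC.refl (by exact ⟨self_mem_hex b _, Or.inr hb⟩))).2 not_iff_self).elim
  · exact absurd (m.1 k.mem_right).2 (nf b hb)

end Vale.Agent.P153.K2
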