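import Vale.Agent.P153.K2.Stm

/-! P153, module K2. -/

open Set

noncomputable section
namespace Vale.Agent.P153.K2

theorem s_zed (hs : S_scr) (h0 : S_zed0) (hz : S_zcmp) (hc : S_cell) (hl : S_low) : S_zed := by
  intro q
  obtain ⟨K₂, c, hK₂, hc0, h0⟩ := h0 q
  obtain ⟨K₁, hK₁, hs⟩ := hs (1 / 2) (by norm_num)
  refine ⟨K₁ * K₂, c / 2, Nat.mul_pos hK₁ hK₂, by positivity, ?_⟩
  intro W C Ω U ξ y t B hL cW CW ht hΩ hadj hnear hfar hB hq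
  rw [mul_assoc] at hΩ hadj hfar ⊢
  have ht2 : t ≤ K₂ * t := Nat.le_mul_of_pos_left t hK₂
  have hr : K₂ * t ≤ K₁ * (K₂ * t) := Nat.le_mul_of_pos_left _ hK₁
  have hgood := (hl W C Ω U ξ hL).1
  have h1 := hs W C Ω U ξ y (K₂ * t) hL (ht.trans ht2) (ann_subset_hex.trans hΩ)
    (hnear.mono (inter_subset_inter_right _ (hex_mono ht2)))
  set L := K₁ * (K₂ * t) with hLdef
  set E : Set Cfg := {H | Disjoint (Rch (hex y L)ᶜ (eLe (-2)) H) (hex y (K₂ * t))} with hE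
  have h2 : 1 / 2 ≤ Pr (lowS W U ξ) E := by
    have h3 := Pr_compl hgood E
    have h4 : Pr (lowS W U ξ) Eᶜ ≤ 1 / 2 := h1
    linarith
  have h5 : c * Pr (lowS W U ξ) E ≤ Pr (lowS W U ξ) (E ∩ Zev W (C ∩ hex y L) B) := by
    refine explore_ge (hex y L)ᶜ (eLe (-2)) (fun H _ K _ e _ hH => ?_) fun H hH hHE => ?_
    · simp only [hE, mem_setOf_eq] at hH ⊢
      rwa [e]
    · have hd : Disjoint (Rch (hex y L)ᶜ (eLe (-2)) H) (hex y (K₂ * t)) := hHE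
      obtain ⟨e1, hL'⟩ := hc W C Ω (hex y (K₂ * t)) U ξ H y L hL hH ((hex_mono hr).trans hΩ) hd
      rw [e1]
      have hP : (Rch (hex y L)ᶜ (eLe (-2)) H)ᶜ ⊆ hex y L := compl_Rch_subset _ _ _
      have cP : Cnn (Rch (hex y L)ᶜ (eLe (-2)) H) := cnn_Rch (cnn_hex_compl y L)
      obtain ⟨cB, h6⟩ := hz W C _ _ (Rch (hex y L)ᶜ (eLe (-2)) H) H y L B hL' cW CW cP
        (subset_Rch _ _ _) disjoint_sdiff_right
        (fun x hx => ⟨hL.CU ⟨hx.1, hΩ (hP hx.2)⟩, hx.2⟩) hadj hfar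
        (fun x hx => ⟨(hB hx).1, fun h => hd.notMem_of_mem_left h (hex_mono ht2 (hB hx).2)⟩)
      refine le_trans (h0 _ _ y t B ((hex_finite y L).subset hP) cP cB
        (disjoint_left.2 fun x hx hx' => hx'.1.2 hx) hd ht (fun h => ?_)
        (fun x hx => (hB hx).2) hq) h6
      obtain ⟨w, hw, hw'⟩ := hnear
      exact CW.notMem_of_mem_right hw (h hw').1.1
  have h7 : Pr (lowS W U ξ) (E ∩ Zev W (C ∩ hex y L) B) ≤ Pr (lowS W U ξ) (Zev W (C ∩ hex y L) B) :=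
    Pr_mono fun _ _ h => h.2
  nlinarith

end Vale.Agent.P153.K2
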