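import Vale.Agent.P153.K2.Stm

/-! P153, module K2. -/

open Set

noncomputable section
namespace Vale.Agent.P153.K2

theorem zed0_up {p η m M a : ℝ} (hp : 0 ≤ p) (hpη : p ≤ η) (hm : m ≤ M) (ha : 0 ≤ a)
    (h : η * M = a ^ 2) : √p * √m ≤ a := by
  calc √p * √m ≤ √η * √M :=
        mul_le_mul (Real.sqrt_le_sqrt hpη) (Real.sqrt_le_sqrt hm) (Real.sqrt_nonneg _)
          (Real.sqrt_nonneg _)
    _ = a := by rw [← Real.sqrt_mul (hp.trans hpη), h, Real.sqrt_sq ha]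

theorem zed0_lo {p η m M a : ℝ} (hp : 0 ≤ p) (hm : m ≤ M) (hM : 0 < M) (ha : 0 ≤ a)
    (h : η * M = a ^ 2) (h2 : a ≤ √p * √m) : η ≤ p := by
  have h3 : a ≤ √(p * M) := by
    rw [Real.sqrt_mul hp]
    exact h2.trans (mul_le_mul_of_nonneg_left (Real.sqrt_le_sqrt hm) (Real.sqrt_nonneg _))
  have h4 : a ^ 2 ≤ p * M := (Real.le_sqrt ha (mul_nonneg hp hM.le)).1 h3
  rw [← h] at h4
  exact le_of_mul_le_mul_right h4 hM

theorem zed0_split (S E : Set Cfg) (f : Cfg → ℝ) :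
    Ex S f = Ex S (fun H => E.indicator 1 H * f H) + Ex S (fun H => Eᶜ.indicator 1 H * f H) := by
  rw [← Ex_add]
  exact Ex_congr fun H _ => by rw [ind_compl]; ring

theorem s_zed0 (hp : S_mixp) (hm : S_momp) (h1 : S_zlo) (h2 : S_zhi) (hn : S_nu) : S_zed0 := by
  intro q
  obtain ⟨C, hC, hm⟩ := hm
  have hQ : (0 : ℝ) < (q : ℝ) + 1 := by positivity
  have hη : (0 : ℝ) < 1 / (16 * ((q : ℝ) + 1) ^ 2 * C) := by positivity
  obtain ⟨K, hK, hp⟩ := hp _ hη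
  refine ⟨K, 1 / (16 * ((q : ℝ) + 1) ^ 2 * C), hK, hη, ?_⟩
  intro P B₀ y t B hP cP cB hPB hPh ht hnb hB hq
  have hG : Good (nuP P B₀) := (hn P B₀ y hP hPB).1
  obtain ⟨m1, m2⟩ := hm P B₀ y t B hP cB hPB ht hnb hB
  have ht' : (0 : ℝ) < t := by exact_mod_cast ht
  have hM : 0 < C * (t : ℝ) ^ 4 := by positivity
  have ha : (0 : ℝ) ≤ (t : ℝ) ^ 2 / (4 * ((q : ℝ) + 1)) := by positivity
  have hid : 1 / (16 * ((q : ℝ) + 1) ^ 2 * C) * (C * (t : ℝ) ^ 4) =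
      ((t : ℝ) ^ 2 / (4 * ((q : ℝ) + 1))) ^ 2 := by
    field_simp
    ring
  have hsub : P ⊆ (hex y (K * t))ᶜ := fun x hx hx' => Set.disjoint_left.1 hPh hx hx'
  have z1 := h1 P B₀ (hex y (K * t))ᶜ B hP hPB hsub
  have z2 := h2 P B₀ B hP hPB
  set Dj : Set Cfg := {H | Disjoint (Rch (hex y (K * t))ᶜ (eA 0) H) B} with hDj
  have hD : Pr (nuP P B₀) Djᶜ ≤ 1 / (16 * ((q : ℝ) + 1) ^ 2 * C) := by
    refine le_trans (Pr_mono fun H _ hH => ?_) (hp P B₀ y t hP cP cB hPB hPh ht hnb)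
    have hH' : ¬ Disjoint (Rch (hex y (K * t))ᶜ (eA 0) H) B := hH
    obtain ⟨x, hx1, hx2⟩ := Set.not_disjoint_iff.1 hH'
    rw [Rch_eA] at hx1
    obtain ⟨w, hw, hc⟩ := hx1
    have hw' : ¬ nrm (w - y) ≤ K * t := hw
    exact (hc.symm (star_symm _)).arm (hB hx2) (Nat.le_mul_of_pos_left t hK) (not_le.1 hw').le
  have e1 := zed0_split (nuP P B₀) Dj (fun H => ∑ p ∈ B, ((H p : ℝ) - 1 / 2))
  have e2 := (abs_le.1 ((abs_Ex_ind_le (nuP P B₀) Djᶜ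
    (fun H => ∑ p ∈ B, ((H p : ℝ) - 1 / 2))).trans
      (zed0_up (Pr_nonneg _ _) hD m2 ha hid))).1
  have e3 : Ex (nuP P B₀) (fun H => ∑ p ∈ B, ((H p : ℝ) - 1 / 2)) =
      Ex (nuP P B₀) (fun H => ∑ p ∈ B, (H p : ℝ)) - (B.card : ℝ) / 2 := by
    rw [← Ex_const hG ((B.card : ℝ) / 2), ← Ex_sub]
    refine Ex_congr fun H _ => ?_
    rw [Finset.sum_sub_distrib, Finset.sum_const, nsmul_eq_mul]
    ring
  have e4 := zed0_split (nuP P B₀) (Zup B₀ B) (fun H => ∑ p ∈ B, (H p : ℝ))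
  have e5 := (le_abs_self _).trans
    (abs_Ex_ind_le (nuP P B₀) (Zup B₀ B) (fun H => ∑ p ∈ B, (H p : ℝ)))
  have e6 : 2 * ((t : ℝ) ^ 2 / (4 * ((q : ℝ) + 1))) ≤ (B.card : ℝ) / 2 := by
    have hq' : (t : ℝ) ^ 2 ≤ q * B.card := by exact_mod_cast hq
    have hc0 : (0 : ℝ) ≤ B.card := Nat.cast_nonneg _
    rw [← mul_div_assoc, div_le_div_iff₀ (by positivity) (by norm_num)]
    nlinarith
  refine zed0_lo (Pr_nonneg _ _) m1 hM ha hid ?_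
  linarith

end Vale.Agent.P153.K2
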