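import Vale.Agent.P153.K2.Stm

/-! P153, module K2. -/

open Set

noncomputable section
namespace Vale.Agent.P153.K2

theorem zhi_flat (U : Set V) (B : Finset V) : Ex (flat U 0) (fun H => ∑ p ∈ B, (H p : ℝ)) = 0 := by
  have h := Ex_flat_flip U 0 0 fun H => ∑ p ∈ B, (H p : ℝ)
  simp only [zero_sub, Int.cast_neg, Finset.sum_neg_distrib, neg_zero, Ex_neg] at h
  linarith

theorem s_zhi (hn : S_nu) : S_zhi := by
  classical
  intro P B₀ B hP hd
  have hS := (hn P B₀ 0 hP hd).1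
  have hB : B₀.Finite := hP.subset hd.subset_compl_left
  rw [tower_explore B₀ᶜ (fun s _ => 1 ≤ s)]
  · refine (Ex_mono (g := fun _ => 0) fun H hH => ?_).trans (Ex_zero _).le
    by_cases hZ : H ∈ Zup B₀ B
    · rw [indicator_of_notMem (not_not.2 hZ), zero_mul]
    rw [indicator_of_mem (show H ∈ (Zup B₀ B)ᶜ from hZ), Pi.one_apply, one_mul]
    have hg := good_cell (St := B₀ᶜ) (Eb := fun s _ => 1 ≤ s) hS.1 hH
    rw [cell_src (fun s => 1 ≤ s)] at hg ⊢
    have hUB := compl_Rch_subset B₀ (fun s _ => 1 ≤ s) H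
    have hob : ∀ y ∈ obd (Rch B₀ᶜ (fun s _ => 1 ≤ s) H)ᶜ, ¬ 1 ≤ H y := fun y hy =>
      (obd_src (fun s => 1 ≤ s) hy).1
    have hZ' : ∀ p ∈ B, p ∈ Rch B₀ᶜ (fun s _ => 1 ≤ s) H → H p ≤ 0 := fun p hp h => by
      by_contra h'
      exact hZ ⟨p, hp, by omega, h⟩
    generalize Rch B₀ᶜ (fun s _ => 1 ≤ s) H = R at hg hUB hob hZ' ⊢
    have hU : Rᶜ.Finite := hB.subset hUB
    have hsd : SD (fun H (x : (Rᶜ : Set V)) => H x) (pin (nuP P B₀) R H) (flat Rᶜ 0) := by
      refine sd_bdry hg (good_flat hU 0) hU ⟨fun K hK => hK.1.1, fun K hK G hG e => ?_⟩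
        ⟨fun K hK => hK.1, fun K hK G hG e => ⟨hG, fun x hx => (e x hx).trans (hK.2 x hx)⟩⟩
        fun K hK G hG x hx => ?_
      · have e' : ∀ x, x ∉ B₀ → G x = K x := fun x hx => e x fun h => hx (hUB h)
        refine ⟨⟨hG, fun x hx => ?_, fun x hx hx' => ?_⟩, fun x hx => ?_⟩
        · rw [e' x (disjoint_left.1 hd hx), hK.1.2.1 x hx]
        · rw [e' x hx']
          exact hK.1.2.2 x hx hx'
        · rw [e x (not_not.2 hx), hK.2 x hx]
      · have := hob x hx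
        rw [hG.2 x hx.1, hK.2 x (not_not.1 hx.1)]
        omega
    have h1 := hsd (fun K => ∑ p ∈ B.filter (· ∉ R), (K p : ℝ)) fun K G _ _ h =>
      Finset.sum_le_sum fun p hp => Int.cast_le.2 (h ⟨p, (Finset.mem_filter.1 hp).2⟩)
    rw [zhi_flat] at h1
    refine (Ex_mono fun K hK => ?_).trans h1
    rw [← Finset.sum_filter_add_sum_filter_not B (· ∈ R), add_le_iff_nonpos_left]
    refine Finset.sum_nonpos fun p hp => ?_
    obtain ⟨h2, h3⟩ := Finset.mem_filter.1 hp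
    rw [hK.2 p h3]
    exact_mod_cast hZ' p h2 h3
  · intro H _ K _ e e'
    have : K ∈ Zup B₀ B ↔ H ∈ Zup B₀ B := by
      simp only [Zup, mem_ofPred_eq, e]
      refine exists_congr fun p => and_congr_right fun _ => and_congr_left fun h => ?_
      rw [e' p h]
    by_cases hZ : H ∈ Zup B₀ B
    · rw [indicator_of_notMem (show H ∉ (Zup B₀ B)ᶜ from not_not.2 hZ),
        indicator_of_notMem (show K ∉ (Zup B₀ B)ᶜ from not_not.2 (this.2 hZ))]
    · rw [indicator_of_mem (show H ∈ (Zup B₀ B)ᶜ from hZ),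
        indicator_of_mem (show K ∈ (Zup B₀ B)ᶜ from mt this.1 hZ)]
      rfl

end Vale.Agent.P153.K2
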