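import Vale.Agent.P153.K2.Stm

/-! P153, module K2. -/

open Set

noncomputable section
namespace Vale.Agent.P153.K2

theorem zlo_rch (St : Set V) {H K : Cfg} (h : ab 0 K = ab 0 H) :
    Rch St (eA 0) K = Rch St (eA 0) H := by
  rw [Rch_eA, Rch_eA, h]

theorem s_zlo : S_zlo := by
  intro P B₀ St B _ _ hP
  have hb := bij_flip (S := nuP P B₀) (j := 0) (R := fun H => (Rch St (eA 0) H)ᶜ)
    (fun H _ K _ h => by rw [zlo_rch St h]) fun H hH => by
      refine ⟨hH.1.flipOn fun a ha b hb hab => ?_, fun x hx => ?_, fun x hx hx' => ?_⟩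
      · exact (Ratio_eA.1 (explore_out (not_not.1 hb) ha hab.symm)).symm
      · rw [flipOn, pw_out _ _ (not_not.2 (subset_Rch _ _ _ (hP hx))), hH.2.1 x hx]
      · have := hH.2.2 x hx hx'
        rw [← zero_add (1 : ℤ), ← ab_eq_one] at this ⊢
        rwa [ab_flipOn]
  have h := Ex_bij hb fun H => ({K | Disjoint (Rch St (eA 0) K) B} : Set Cfg).indicator 1 H *
    ∑ p ∈ B, ((H p : ℝ) - 1 / 2)
  rw [Ex_congr (g := fun H => -(({K | Disjoint (Rch St (eA 0) K) B} : Set Cfg).indicator 1 H *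
    ∑ p ∈ B, ((H p : ℝ) - 1 / 2))) ?_, Ex_neg] at h
  · linarith
  intro H _
  have e := zlo_rch St (ab_flipOn 0 (Rch St (eA 0) H)ᶜ H)
  by_cases h1 : Disjoint (Rch St (eA 0) H) B
  · rw [indicator_of_mem (by rwa [mem_ofPred_eq, e]), indicator_of_mem h1, Pi.one_apply,
      Pi.one_apply, one_mul, one_mul, ← Finset.sum_neg_distrib]
    refine Finset.sum_congr rfl fun p hp => ?_
    rw [flipOn, pw_in _ _ (disjoint_right.1 h1 hp)]
    push_cast
    ring
  · rw [indicator_of_notMem (by rwa [mem_ofPred_eq, e]), indicator_of_notMem h1, zero_mul,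
      zero_mul, neg_zero]

end Vale.Agent.P153.K2
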