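import Vale.Agent.P153.K2.Card
import Vale.Agent.P153.K2.GeoEx
import Vale.Agent.P153.K2.Circle
import Vale.Agent.P153.K2.Types
import Vale.Agent.P153.K2.LGeo
import Vale.Agent.P153.K2.LH
import Vale.Agent.P153.K2.Cell
import Vale.Agent.P153.K2.Force
import Vale.Agent.P153.K2.MixP
import Vale.Agent.P153.K2.Scr
import Vale.Agent.P153.K2.CircP
import Vale.Agent.P153.K2.Mom
import Vale.Agent.P153.K2.Zlo
import Vale.Agent.P153.K2.Zhi
import Vale.Agent.P153.K2.Zed0
import Vale.Agent.P153.K2.Zcmp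
import Vale.Agent.P153.K2.Zed
import Vale.Agent.P153.K2.Large
import Vale.Agent.P153.K2.Small
import Vale.Agent.P153.K2.Iter
import Vale.Agent.P153.K2.Ne
import Vale.Agent.P153.K2.BVa
import Vale.Agent.P153.K2.BVb

/-! P153, module K2: the outputs from the inputs. -/

namespace Vale.Agent.P153.K2

theorem low_all : S_low := s_low s_lh

theorem mixp_all (hm : Mix) : S_mixp := s_mixp hm s_force s_nu

theorem scr_all (hm : Mix) : S_scr := s_scr (s_mixw (mixp_all hm) s_nu) low_all

theorem zed_all (hm : Mix) (hb : MB) : S_zed :=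
  s_zed (scr_all hm) (s_zed0 (mixp_all hm) (s_momp (s_mom hb s_card) s_card s_nu) s_zlo
    (s_zhi s_nu) s_nu) (s_zcmp s_lh low_all s_nu) s_cell low_all

theorem one_all (ha : A1) (hp : Push) (hm : Mix) (hb : MB) : S_one :=
  s_one (s_large (s_lgeo s_types (s_block s_cobd)) (s_circ ha hp low_all) (zed_all hm hb) s_card
    low_all) (s_small (zed_all hm hb) s_card low_all (s_block s_cobd)) (s_halve s_circle)

theorem k2le_of (ha : A1) (hp : Push) (hm : Mix) (hb : MB) : K2le :=
  k2le (s_geo s_cobd) (s_iter (one_all ha hp hm hb) (scr_all hm) s_cell low_all) s_ldob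

theorem k2ne_of (ha : A1) (hp : Push) (hm : Mix) (hb : MB) : K2ne := k2ne (k2le_of ha hp hm hb)

theorem bvr_of (ha : A1) (hp : Push) (hm : Mix) (hb : MB) : BVR := bvr (k2ne_of ha hp hm hb) bv0

end Vale.Agent.P153.K2
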