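import Vale.Agent.P153.K2.RStm

/-! P153, module K2. -/

open Set

noncomputable section
namespace Vale.Agent.P153.K2

theorem rarm_out {F S : Set V} {K : Cfg} (hK : K ∈ dob F S) {x : V} (hx : x ∉ F) :
    K x = 0 ∨ K x = 1 := by
  by_cases h : x ∈ S
  · exact Or.inr ((hK.2 x hx).1 h)
  · exact Or.inl ((hK.2 x hx).2 h)

theorem rarm_sd {F : Set V} (hF : F.Finite) (S : Set V) : SD id (free F (-1)) (dob F S) := by
  refine sd_H (good_free hF (-1)) (good_dob hF S) allLip_free allLip_dob fun H a K b =>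
    ⟨⟨a.1.inf b.1, fun x hx => ?_, fun x hx => ?_⟩, a.1.sup b.1, fun x hx => ?_⟩
  · have h1 := a.2.1 x hx
    have h2 := rarm_out b hx
    rw [inf_ap]
    omega
  · have h1 := a.2.2 x hx
    obtain ⟨-, y, hy, hxy⟩ := hx
    have h2 := rarm_out b hy
    have h3 := abs_le.1 (b.1 x y hxy)
    have h4 := a.2.1 y hy
    have h5 := abs_le.1 (a.1 x y hxy)
    rw [inf_ap]
    omega
  · have h1 := a.2.1 x hx
    have h2 := b.2 x hx
    refine ⟨fun h => ?_, fun h => ?_⟩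
    · have := h2.1 h
      rw [sup_ap]
      omega
    · have := h2.2 h
      rw [sup_ap]
      omega

theorem s_arm (hw : S_mixw) : S_arm := by
  intro η hη
  obtain ⟨K, hK, h⟩ := hw η hη
  refine ⟨K, hK, fun F S z r hF cF hr hz => ?_⟩
  have h2 : Pr (dob F S) {H | Arm (star (le (-2) H)) z r (K * r)} ≤
      Pr (free F (-1)) {H | Arm (star (le (-2) H)) z r (K * r)} := by
    refine (rarm_sd hF S).dec fun H H' _ _ hle hE => ?_
    exact Arm.mono hE (star_mono fun x hx => le_trans (hle x) hx) le_rfl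
      (Nat.le_mul_of_pos_left r hK) le_rfl
  have h3 : Pr (free F (-1)) {H | Arm (star (le (-2) H)) z r (K * r)} ≤
      Pr (free F (-1)) {H | Arm (star (hi (-1) H)) z r (K * r)} := by
    refine Pr_mono fun H _ hE => Arm.mono hE (star_mono fun x hx => ?_) le_rfl
      (Nat.le_mul_of_pos_left r hK) le_rfl
    have k : H x ≤ -2 := hx
    show 3 ≤ |2 * (H x - -1) - 1|
    rw [le_abs]
    omega
  exact h2.trans (h3.trans (h F (-1) z r hF cF hr hz))

theorem rarm_clu {A B : Set V} {H K : Cfg}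
    (h : ∀ x ∈ {x | ∃ y ∈ B, Conn (fun a _ => H a ≤ 0) A y x}, K x = H x) :
    {x | ∃ y ∈ B, Conn (fun a _ => K a ≤ 0) A y x} =
      {x | ∃ y ∈ B, Conn (fun a _ => H a ≤ 0) A y x} := by
  refine Subset.antisymm ?_ ?_
  · rintro x ⟨y, hy, hc⟩
    refine ⟨y, hy, hc.ind (P := fun v => Conn (fun a _ => H a ≤ 0) A y v) .rfl
      fun u v _ h1 h2 h3 h4 ih => ih.tail h1 ?_ h3 h4⟩
    show H u ≤ 0
    rw [← h u ⟨y, hy, ih⟩]
    exact h2
  · rintro x ⟨y, hy, hc⟩
    refine ⟨y, hy, hc.ind (P := fun v => Conn (fun a _ => K a ≤ 0) A y v) .rfl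
      fun u v h0 h1 h2 h3 h4 ih => ih.tail h1 ?_ h3 h4⟩
    show K u ≤ 0
    rw [h u ⟨y, hy, h0⟩]
    exact h2

theorem s_c2a : S_c2a := by
  intro F S z r N R H hH
  refine ⟨⟨⟨hH, fun _ _ => rfl, fun a ha b hb hab => explore_out ha hb hab⟩, fun _ h => h.1⟩,
    fun K hK => ?_⟩
  have e1 : XX z r N K = XX z r N H := Rch_eq (fun x hx => hK.2.1 x (Or.inl hx)) hK.2.2
  have e2 : QQ F z r N R K = QQ F z r N R H := by
    unfold QQ
    rw [e1]
    exact rarm_clu fun x hx => hK.2.1 x (Or.inr hx)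
  refine ⟨e1, e2, ?_⟩
  ext G
  unfold cell2
  rw [e1, e2]
  constructor
  · rintro ⟨g1, g2, g3⟩
    refine ⟨g1, fun x hx => (g2 x hx).trans (hK.2.1 x hx), fun a ha b hb hab => ?_⟩
    rw [← hK.2.1 a (Or.inl ha)]
    exact g3 a ha b hb hab
  · rintro ⟨g1, g2, g3⟩
    refine ⟨g1, fun x hx => (g2 x hx).trans (hK.2.1 x hx).symm, fun a ha b hb hab => ?_⟩
    rw [hK.2.1 a (Or.inl ha)]
    exact g3 a ha b hb hab

end Vale.Agent.P153.K2
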