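import Vale.Agent.P153.K2.RStm

/-! P153, module K2. -/

open Set

noncomputable section
namespace Vale.Agent.P153.K2

theorem rcell_in {W : Set V} (H : Cfg) {x : V} (h : x ∈ W) : trc W H x = max (H x) 0 :=
  pw_in _ _ h

theorem rcell_out {W : Set V} (H : Cfg) {x : V} (h : x ∉ W) : trc W H x = max (H x) (-1) :=
  pw_out _ _ h

theorem rcell_lip (W : Set V) {H : Cfg} (h : Lip H) : Lip (trc W H) :=
  (h.sup (lip_const _)).pw (h.sup (lip_const _)) fun a _ b _ hab => by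
    have := abs_le.1 (h a b hab)
    rw [abs_le, Pi.sup_apply, Pi.sup_apply]
    omega

theorem rcell_ge (W : Set V) (H : Cfg) (x : V) : -1 ≤ trc W H x := by
  by_cases h : x ∈ W
  · rw [rcell_in H h]; omega
  · rw [rcell_out H h]; omega

theorem s_c2b : S_c2b := by
  intro F S W T O C Ω z r N R H A hN hH hX hC
  have hHc : H ∈ cell2 F S z r N R H :=
    ⟨hH, fun _ _ => rfl, fun _ ha _ hb h => explore_out ha hb h⟩
  have out : ∀ a ∈ XX z r N H, ∀ b, b ∉ XX z r N H → Adj a b → -1 ≤ H a := fun a ha b hb h => by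
    have := explore_out ha hb h
    unfold eLe at this
    omega
  have St1 : hex z (r + 1) ⊆ XX z r N H := fun x hx => subset_Rch _ _ _ (Or.inl hx)
  have St2 : (hex z N)ᶜ ⊆ XX z r N H := fun x hx => subset_Rch _ _ _ (Or.inr hx)
  have Xc : ∀ a ∈ XX z r N H, ∃ o ∈ hex z (r + 1) ∪ (hex z N)ᶜ, Conn tt (XX z r N H) o a :=
    fun a ha => (cl_conn (E := fun a b => eLe (-2) (H a) (H b)) ha).imp fun o ho =>
      ⟨ho.1, ho.2.mono (fun _ _ _ => trivial) Subset.rfl⟩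
  have PQ : ∀ x ∈ hex z R, x ∉ hex z r → x ∉ F → x ∈ QQ F z r N R H := fun x h1 h2 h3 =>
    ⟨x, ⟨⟨h1, h2⟩, h3⟩, Conn.rfl⟩
  have Qc : ∀ a ∈ QQ F z r N R H, ∃ o ∈ W, Conn tt (QQ F z r N R H) o a := fun a ⟨y, hy, hc⟩ =>
    ⟨y, (A.eq y hy.1.1 hy.1.2).2 hy.2,
      hc.cluster.mono (fun _ _ _ => trivial) fun v hv => ⟨y, hy, hv.2⟩⟩
  have Qs : ∀ x ∈ QQ F z r N R H, ∀ u, u ∉ XX z r N H → Adj x u → H x ≤ 0 → u ∈ QQ F z r N R H :=
    fun x ⟨y, hy, hc⟩ u hu h h0 => ⟨y, hy, hc.tail h h0 (hc.mem (Or.inr hy)) (Or.inl hu)⟩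
  have c2 : ∀ K ∈ cell2 F S z r N R H, K ∈ dob F S ∧ (∀ x ∈ XX z r N H ∪ QQ F z r N R H,
      K x = H x) ∧ ∀ a ∈ XX z r N H, ∀ b, b ∉ XX z r N H → Adj a b → ¬ eLe (-2) (H a) (K b) :=
    fun _ h => h
  have c3 : ∀ K, K ∈ dob F S → (∀ x ∈ XX z r N H ∪ QQ F z r N R H, K x = H x) →
      (∀ a ∈ XX z r N H, ∀ b, b ∉ XX z r N H → Adj a b → ¬ eLe (-2) (H a) (K b)) →
      K ∈ cell2 F S z r N R H := fun _ h1 h2 h3 => ⟨h1, h2, h3⟩
  generalize cell2 F S z r N R H = D at *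
  generalize XX z r N H = X at *
  generalize QQ F z r N R H = Q at *
  have U1 : ∀ u ∈ (X ∪ Q)ᶜ, u ∈ hex z N := fun u hu => by_contra fun h => hu (Or.inl (St2 h))
  have U2 : ∀ u ∈ (X ∪ Q)ᶜ, u ∉ hex z (r + 1) := fun u hu h => hu (Or.inl (St1 h))
  have nb : ∀ u ∈ (X ∪ Q)ᶜ, ∀ x, x = u ∨ Adj x u → x ∈ hex z R ∧ x ∉ hex z r := fun u hu x h => by
    have h1 := U1 u hu
    have h2 := U2 u hu
    simp only [mem_hex] at h1 h2 ⊢
    rcases h with rfl | h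
    · omega
    · have := h.nrm_le z
      have := h.symm.nrm_le z
      omega
  have UF : (X ∪ Q)ᶜ ⊆ F := fun u hu => by_contra fun h =>
    hu (Or.inr (PQ u (nb u hu u (Or.inl rfl)).1 (nb u hu u (Or.inl rfl)).2 h))
  have WU : W ⊆ X ∪ Q := fun w hw => by_contra fun h =>
    (A.eq w (nb w h w (Or.inl rfl)).1 (nb w h w (Or.inl rfl)).2).1 hw (UF h)
  have WU' : W ∪ Q ⊆ X ∪ Q := union_subset WU subset_union_right
  have key : ∀ u ∈ (X ∪ Q)ᶜ, ∀ x, x ∉ (X ∪ Q)ᶜ → Adj x u →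
      (x ∈ Q ∧ 1 ≤ H x) ∨ (x ∉ W ∪ Q ∧ x ∈ X ∧ -1 ≤ H x) := fun u hu x hx h => by
    by_cases hq : x ∈ Q
    · exact Or.inl ⟨hq, by_contra fun k =>
        hu (Or.inr (Qs x hq u (fun k' => hu (Or.inl k')) h (by omega)))⟩
    · have h1 : x ∈ X := (not_not.1 hx).resolve_right hq
      have h2 := nb u hu x (Or.inr h)
      exact Or.inr ⟨fun k => hq (k.elim (fun k => PQ x h2.1 h2.2 ((A.eq x h2.1 h2.2).1 k)) id), h1,
        out x h1 u (fun k' => hu (Or.inl k')) h⟩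
  have key' : ∀ u ∈ (X ∪ Q)ᶜ, ∀ x, x ∉ (X ∪ Q)ᶜ → Adj x u → trc (W ∪ Q) H x = H x :=
    fun u hu x hx h => by
      rcases key u hu x hx h with k | k
      · rw [rcell_in H (Or.inr k.1)]; omega
      · rw [rcell_out H k.1]; omega
  have lA : ∀ K ∈ D, ∀ G, Lip G → (∀ x, x ∉ (X ∪ Q)ᶜ → G x = trc (W ∪ Q) H x) →
      pw (X ∪ Q)ᶜ K G ∈ lowS (W ∪ Q) (X ∪ Q)ᶜ (trc (W ∪ Q) H) := fun K hK G hG e => by
    obtain ⟨k1, k2, k3⟩ := c2 K hK
    refine ⟨k1.1.pw hG fun a ha b hb hab => ?_, fun x hx => (pw_out _ _ hx).trans (e x hx),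
      fun x ⟨hx, y, hy, h⟩ => ?_, fun x hx ⟨_, y, hy, h⟩ => ?_⟩
    · rw [e b hb, key' a ha b hb hab.symm, ← k2 b (not_not.1 hb)]
      exact k1.1 a b hab
    · rw [pw_in _ _ hx]
      rcases key x hx y hy h.symm with k | k
      · have := abs_le.1 (k1.1 x y h)
        have := k2 y (Or.inr k.1)
        omega
      · have := k3 y k.2.1 x (fun k' => hx (Or.inl k')) h.symm
        unfold eLe at this
        omega
    · rw [pw_in _ _ hx]
      rcases key x hx y (not_not.2 (WU' hy)) h.symm with k | k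
      · have := abs_le.1 (k1.1 x y h)
        have := k2 y (Or.inr k.1)
        omega
      · exact absurd hy k.1
  have lB : ∀ K ∈ D, ∀ G ∈ lowS (W ∪ Q) (X ∪ Q)ᶜ (trc (W ∪ Q) H), pw (X ∪ Q)ᶜ G K ∈ D :=
    fun K hK G hG => by
      obtain ⟨k1, k2, k3⟩ := c2 K hK
      refine c3 _ ((freeIn_dob F S).2 K k1 _ (hG.1.pw k1.1 fun a ha b hb hab => ?_)
        fun x hx => pw_out _ _ fun h => hx (UF h))
        (fun x hx => (pw_out _ _ (not_not.2 hx)).trans (k2 x hx)) fun a ha b hb hab => ?_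
      · rw [k2 b (not_not.1 hb), ← key' a ha b hb hab.symm, ← hG.2.1 b hb]
        exact hG.1 a b hab
      · by_cases h : b ∈ (X ∪ Q)ᶜ
        · rw [pw_in _ _ h]
          have := hG.2.2.1 b ⟨h, a, not_not.2 (Or.inl ha), hab.symm⟩
          have := out a ha b hb hab
          unfold eLe
          omega
        · rw [pw_out _ _ h]
          exact k3 a ha b hb hab
  have fin : (X ∪ Q)ᶜ.Finite := (hex_finite z N).subset U1
  have ne : (lowS (W ∪ Q) (X ∪ Q)ᶜ (trc (W ∪ Q) H)).Nonempty :=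
    ⟨_, lA H hHc _ (rcell_lip _ hH.1) fun _ _ => rfl⟩
  refine ⟨Cn.of_sub (E := tt) A.cW subset_union_left fun a ha => ?_,
    ⟨fin, ?_, disjoint_left.2 fun x hx h => h (WU' hx),
      fun x hx h => h.elim (fun k => disjoint_left.1 hX k hx.2) (disjoint_left.1 hC hx.1), ne,
      fun x _ => rcell_ge _ _ x, fun x _ _ => rcell_ge _ _ x, fun x hx => ?_⟩, fun E E' hE => ?_⟩
  · rcases ha with ha | ha
    · exact ⟨a, ha, Conn.rfl⟩
    · exact (Qc a ha).imp fun o ho => ⟨ho.1, ho.2.monoA subset_union_right⟩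
  · rw [compl_compl]
    refine Cn.of_sub (E := tt) A.cW WU fun a ha => ?_
    rcases ha with ha | ha
    · obtain ⟨o, ho, hc⟩ := Xc a ha
      rcases ho with ho | ho
      · obtain ⟨w, hw, hw'⟩ := A.near
        exact ⟨w, hw, (((cn_hex z (r + 1) w (hex_mono (Nat.le_succ r) hw') o ho).monoA St1).trans
          hc).monoA subset_union_left⟩
      · obtain ⟨w, hw, hw'⟩ := not_subset.1 A.far
        exact ⟨w, hw, (((cn_compl_hex z N w (fun k => hw' (hex_mono (by omega) k)) o ho).monoA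
          St2).trans hc).monoA subset_union_left⟩
    · exact (Qc a ha).imp fun o ho => ⟨ho.1, ho.2.monoA subset_union_right⟩
  · rw [rcell_in H hx]; omega
  · refine le_trans (Pr_mono (E' := {K | pw (X ∪ Q)ᶜ K (trc (W ∪ Q) H) ∈ E'}) fun K hK h =>
      hE K hK _ (lA K hK _ (rcell_lip _ hH.1) fun _ _ => rfl) (fun x hx => (pw_in _ _ hx).symm) h)
      (le_of_eq (Pr_local (U := (X ∪ Q)ᶜ)
        ⟨(good_dob A.fin S).1.subset fun K hK => (c2 K hK).1, H, hHc⟩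
        ⟨(finite_pin fin _).subset fun G hG => ⟨hG.1, hG.2.1⟩, ne⟩
        (fun K hK G hG => ⟨lB K hK G hG, lA K hK G hG.1 hG.2.1⟩) fun K _ G hG e => ?_))
    have : pw (X ∪ Q)ᶜ K (trc (W ∪ Q) H) = G := funext fun x => by
      by_cases hx : x ∈ (X ∪ Q)ᶜ
      · rw [pw_in _ _ hx, e x hx]
      · rw [pw_out _ _ hx, hG.2.1 x hx]
    rw [mem_ofPred_eq, this]

end Vale.Agent.P153.K2
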