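import Vale.Agent.P153.K2.RStm

/-! P153, module K2. -/

open Set

noncomputable section
namespace Vale.Agent.P153.K2

variable {F S W T O : Set V} {z : V} {r N R : ℕ} {H K : Cfg}

theorem rk4_pin (A : Ann F W T O z r R) (h : r + 1 ≤ R) : ¬ hex z (r + 1) ⊆ F := by
  intro hs
  obtain ⟨a, a1, a2⟩ := A.near
  obtain ⟨b, b1, b2⟩ := not_subset.1 A.far
  rw [mem_hex] at a2 b2
  obtain ⟨v, v1, -, v2⟩ := (A.cW a a1 b b1).first (φ := fun v => (nrm (v - z) : ℤ))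
    (fun u v h => h.nrm_lip z) (t := (r + 1 : ℕ)) (by omega) (by omega)
  have v3 : nrm (v - z) = r + 1 := by exact_mod_cast v1
  have v4 : v ∈ W := (v2.symm fun _ _ => id).mem b1
  exact (A.eq v (mem_hex.2 (by omega)) fun k => by rw [mem_hex] at k; omega).1 v4 (hs v3.le)

theorem rk4_Q {x : V} (hN : N ≤ R) (h : x ∈ QQ F z r N R H) : x ∈ hex z R ∧ x ∉ hex z r := by
  obtain ⟨y, hy, h⟩ := h
  rcases h.mem (Or.inr hy) with k | k
  · exact ⟨hex_mono hN (not_not.1 fun h => k (subset_Rch _ _ _ (Or.inr h))),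
      fun h => k (subset_Rch _ _ _ (Or.inl (hex_mono (Nat.le_succ r) h)))⟩
  · exact k.1

theorem rk4_J {x : V} (hN : N ≤ R) (h : x ∈ QQ F z r N R K) (h0 : K x ≤ 0) :
    x ∈ Jn F (le 0 K) z R := by
  obtain ⟨y, hy, h⟩ := h
  refine ⟨y, hy.1.1, hy.2, Conn.symm (both_symm _) ?_⟩
  refine h.ind (P := fun v => K v ≤ 0 → Conn (both (le 0 K)) (hex z R) y v) (fun _ => Conn.rfl)
    (fun u v c e e' hu hv ih k => ?_) h0
  exact (ih e').tail e ⟨e', k⟩ (rk4_Q hN ⟨y, hy, c⟩).1 (rk4_Q hN ⟨y, hy, c.tail e e' hu hv⟩).1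

theorem k4le (ha : S_arm) (h1 : S_c2a) (h2 : S_c2b) (hg : S_geo) (hi : S_iter) : K4le := by
  intro η hη
  obtain ⟨K, hK, arm⟩ := ha (η / 3) (by positivity)
  obtain ⟨M, hM, it⟩ := hi (η / 3) (by positivity)
  refine ⟨K * (M * (K * 2)) + 1, fun F S W T O z r R A hR => ?_⟩
  have r1 := A.r1
  obtain ⟨r₁, e1⟩ : ∃ r₁, r₁ = K * (r + 1) := ⟨_, rfl⟩
  obtain ⟨R₁, e2⟩ : ∃ R₁, R₁ = M * r₁ := ⟨_, rfl⟩
  obtain ⟨N, e3⟩ : ∃ N, N = K * R₁ := ⟨_, rfl⟩
  have l1 : r + 1 ≤ r₁ := e1 ▸ Nat.le_mul_of_pos_left _ hK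
  have l2 : r₁ ≤ R₁ := e2 ▸ Nat.le_mul_of_pos_left _ hM
  have l3 : R₁ ≤ N := e3 ▸ Nat.le_mul_of_pos_left _ hK
  have l4 : N + 1 ≤ R := by
    have : K * (M * (K * (r + 1))) ≤ K * (M * (K * (2 * r))) := by gcongr; omega
    rw [e3, e2, e1]
    nlinarith
  have p1 := rk4_pin A (by omega)
  have a1 := arm F S z (r + 1) A.fin A.cF (by omega) p1
  have a2 := arm F S z R₁ A.fin A.cF (by omega) fun h => p1 ((hex_mono (by omega)).trans h)
  rw [← e1] at a1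
  rw [← e3] at a2
  set E : Set Cfg := {H | ∃ a ∈ T, ∃ b ∈ O,
    Conn (both (le 0 H)) (Wᶜ ∩ (Jn F (le 0 H) z R)ᶜ) a b} with hE
  set D : Set Cfg := {H | Disjoint (XX z r N H) (hex z R₁ \ hex z r₁)} with hD
  have s1 : Pr (dob F S) (D ∩ E) ≤ η / 3 * Pr (dob F S) D := by
    refine Pr_tower_le (cell2 F S z r N R) (fun H hH => (h1 F S z r N R H hH).1)
      (fun H hH K hK => ((h1 F S z r N R H hH).2 K hK).2.2)
      (fun H hH hd K hK => ?_) fun H hH hd => ?_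
    · simpa only [hD, mem_ofPred_eq, ((h1 F S z r N R H hH).2 K hK).1] using hd
    have av : ∀ K ∈ cell2 F S z r N R H, ∀ x ∈ Wᶜ ∩ (Jn F (le 0 K) z R)ᶜ, K x ≤ 0 →
        x ∉ W ∪ QQ F z r N R H := fun K hK x hx h0 k => k.elim hx.1 fun k =>
      hx.2 (rk4_J (N := N) (by omega) (((h1 F S z r N R H hH).2 K hK).2.1 ▸ k) h0)
    by_cases hc : ∃ a ∈ T, ∃ b ∈ O, Conn tt (W ∪ QQ F z r N R H)ᶜ a b
    swap
    · refine (Pr_eq_zero (E := E) fun K hK hk => hc ?_).le.trans (by positivity)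
      obtain ⟨a, ha, b, hb, h⟩ := hk
      exact ⟨a, ha, b, hb,
        h.mono' fun u v _ e hu hv => ⟨trivial, av K hK u hu e.1, av K hK v hv e.2⟩⟩
    obtain ⟨t, ht, -⟩ := id hc
    obtain ⟨cW, L, law⟩ := h2 F S W T O (room (W ∪ QQ F z r N R H) z t R₁) _ z r N R H A l4 hH hd
      (disjoint_left.2 fun x hx k => (comp_subset hx).2 (Or.inr k))
    have far : ¬ W ∪ QQ F z r N R H ⊆ hex z R₁ := fun h =>
      A.far (subset_union_left.trans (h.trans (hex_mono (by omega))))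
    obtain ⟨Γ, g1, g2, g3, g4, g5, g6, g7⟩ := hg (hex z R₁ \ (W ∪ QQ F z r N R H))
      (W ∪ QQ F z r N R H) T O z t r₁ R₁ ⟨(hex_finite _ _).subset sdiff_subset, by
        obtain ⟨o, o1, o2⟩ := not_subset.1 far
        refine Cn.of_base (E := fun _ _ => True) (x := o) fun a ha => ?_
        by_cases h : a ∈ W ∪ QQ F z r N R H
        · exact (cW o o1 a h).monoA fun x hx h' => h'.2 hx
        · exact (cnn_hex_compl z R₁ o o2 a fun h' => ha ⟨h', h⟩).monoA fun x hx h' => hx h'.1,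
        cW, disjoint_sdiff_right, by omega,
        A.near.mono (inter_subset_inter subset_union_left (hex_mono (by omega))), far, ht, A.cT,
        A.Tr.trans (hex_mono (by omega)), disjoint_union_right.2 ⟨A.TW, disjoint_left.2
          fun x hx k => (rk4_Q (N := N) (by omega) k).2 (A.Tr hx)⟩, comp_subset⟩ l2
      ⟨A.cO, disjoint_union_right.2 ⟨A.OW, disjoint_left.2 fun x hx k =>
          disjoint_left.1 A.OR hx (rk4_Q (N := N) (by omega) k).1⟩,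
        disjoint_left.2 fun x hx k =>
          disjoint_left.1 A.OR hx (hex_mono (by omega) (comp_subset k).1)⟩ hc
    refine (law E Γ.Bad fun K hK G hG e ⟨a, ha, b, hb, h⟩ => ?_).trans ?_
    · have lo : ∀ x ∈ Wᶜ ∩ (Jn F (le 0 K) z R)ᶜ, K x ≤ 0 → G x ≤ 0 := fun x hx h0 => by
        by_cases k : x ∈ XX z r N H ∪ QQ F z r N R H
        · rw [hG.2.1 x (not_not.2 k), trc, pw_out _ _ (av K hK x hx h0), sup_ap, ← hK.2.1 x k]
          exact max_le h0 (by norm_num)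
        · rwa [← e x k]
      exact ⟨a, g2 ▸ ha, b, g3 ▸ hb, g1 ▸ h.mono' fun u v _ e hu hv =>
        ⟨⟨lo u hu e.1, lo v hv e.2⟩, av K hK u hu e.1, av K hK v hv e.2⟩⟩
    · have := it Γ (hex z R₁ \ hex z r₁) (XX z r N H ∪ QQ F z r N R H)ᶜ
        (trc (W ∪ QQ F z r N R H) H) (by omega) (by rw [g6, g7, e2])
        (by rw [Geo.C, g1, g4, g5, g7]; exact L) (by rw [g4, g6, e2])
      rwa [g1] at this
  have s2 := (Pr_mono (S := dob F S) (E := E) fun H _ h => (by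
    by_cases hd : H ∈ D
    · exact Or.inl ⟨hd, h⟩
    · obtain ⟨x, ⟨y, hy, c⟩, hx⟩ := not_disjoint_iff.1 hd
      rcases hy with hy | hy
      · exact Or.inr (Or.inl (Conn.arm c hy l1 (not_le.1 fun k => hx.2 k).le))
      · exact Or.inr (Or.inr (Conn.arm (Conn.symm (star_symm (le (-2) H)) c) hx.1 l3
          (not_le.1 fun k => hy k).le)) :
    H ∈ D ∩ E ∪ ({H | Arm (star (le (-2) H)) z (r + 1) r₁} ∪
      {H | Arm (star (le (-2) H)) z R₁ N}))).trans (Pr_union_le _ _ _)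
  have s3 := Pr_union_le (dob F S) {H | Arm (star (le (-2) H)) z (r + 1) r₁}
    {H | Arm (star (le (-2) H)) z R₁ N}
  have s4 := mul_le_mul_of_nonneg_left (Pr_le_one (dob F S) D) (show 0 ≤ η / 3 by positivity)
  linarith

theorem k4ge (h : K4le) : K4ge := by
  intro η hη
  obtain ⟨M, h⟩ := h η hη
  refine ⟨M, fun F S W T O z r R A hR => le_trans (le_of_eq ?_) (h F Sᶜ W T O z r R A hR)⟩
  have h1 := Pr_bij (bij_dob isSym_refl F S).2 {H | ∃ a ∈ T, ∃ b ∈ O,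
    Conn (both (le 0 H)) (Wᶜ ∩ (Jn F (le 0 H) z R)ᶜ) a b}
  simp only [Equiv.coe_refl, image_id] at h1
  rw [← h1]
  refine Pr_congr fun H _ => ?_
  have e : le 0 (hact (Equiv.refl V) (-1) 1 H) = ge 1 H := by
    rw [Sym_act_neg]
    ext x
    exact sub_nonpos (a := 1) (b := H x)
  simp only [mem_preimage, mem_ofPred_eq, e]

end Vale.Agent.P153.K2
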