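import Vale.Agent.P153.K2.RStm

/-! P153, module K2. -/

open Set

noncomputable section
namespace Vale.Agent.P153.K2

theorem rpar_comb {a a' b b' p q : Prop} (h : (a ↔ a') ↔ p) (h' : (b ↔ b') ↔ q) :
    ((a ↔ b) ↔ (a' ↔ b')) ↔ (p ↔ q) := by
  rw [← h, ← h']
  by_cases a <;> by_cases a' <;> by_cases b <;> by_cases b' <;> simp [*]

theorem rpar_fin {a b c d e f : Prop} :
    (((a ↔ b) ↔ (c ↔ d)) ↔ (((a ↔ c) ↔ ¬ e) ↔ ((b ↔ d) ↔ ¬ f))) ↔ (e ↔ f) := by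
  by_cases a <;> by_cases b <;> by_cases c <;> by_cases d <;> by_cases e <;> by_cases f <;>
    simp [*]

theorem rpar_step {a c p q e f : Prop} (h : (a ↔ (c ↔ p)) ↔ (e ↔ f)) (hf : ¬ f)
    (k : (p ∧ q ∧ ¬ e) ∨ (p ∧ ¬ q ∧ e) ∨ (¬ p ∧ ¬ q ∧ ¬ e)) : a ↔ (c ↔ q) := by
  rcases k with ⟨k1, k2, k3⟩ | ⟨k1, k2, k3⟩ | ⟨k1, k2, k3⟩ <;> by_cases a <;> by_cases c <;>
    simp_all

/-- The parity function of the closed curve. -/
theorem rpar_phi {A B : Set V} {x y x' y' : V} (hx : x ∈ A) (hy : y ∈ B) (h : Adj x y)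
    (h' : Adj x' y') (cx : Conn tt A x x') (cy : Conn tt B y y') :
    x' ∈ A ∧ y' ∈ B ∧ ∃ Φ : V → V → Prop, (∀ u v, Φ v (nxt u v) ↔ Φ u v) ∧
      ∀ u v, Adj u v → ¬ (u ∈ A ∧ v ∈ A) → ¬ (u ∈ B ∧ v ∈ B) → ((Φ u v ↔ Φ v u) ↔
        (((x = u ∧ y = v) ∨ (x = v ∧ y = u)) ↔ ((x' = u ∧ y' = v) ∨ (x' = v ∧ y' = u)))) := by
  obtain ⟨nX, wX, x0, x1, xa, xA⟩ := cx.walk hx
  obtain ⟨nY, wY, y0, y1, ya, yB⟩ := cy.walk hy
  refine ⟨x1 ▸ xA nX le_rfl, y1 ▸ yB nY le_rfl, fun u v => (lft wX nX u v ↔ lft wY nY u v) ↔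
    (crossT (u + v + nxt u v) x y ↔ crossT (u + v + nxt u v) x' y'), fun u v => ?_,
    fun u v huv hA hB => ?_⟩
  · dsimp only
    rw [lft_rot, lft_rot, nxt_nxt, show v + nxt u v + u = u + v + nxt u v by abel]
  · have k1 := lft_swap' (fun t ht => (xa t ht).1) huv fun t ht => by
      rintro (⟨rfl, rfl⟩ | ⟨rfl, rfl⟩)
      exacts [hA ⟨xA t ht.le, xA _ ht⟩, hA ⟨xA _ ht, xA t ht.le⟩]
    have k2 := lft_swap' (fun t ht => (ya t ht).1) huv fun t ht => by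
      rintro (⟨rfl, rfl⟩ | ⟨rfl, rfl⟩)
      exacts [hB ⟨yB t ht.le, yB _ ht⟩, hB ⟨yB _ ht, yB t ht.le⟩]
    rw [x0, x1] at k1
    rw [y0, y1] at k2
    exact (rpar_comb (rpar_comb k1 k2)
      (rpar_comb (crossT_step huv h) (crossT_step huv h'))).trans rpar_fin

theorem rpar_const {Φ : V → V → Prop} {O : Set V} (hO : Cnn O)
    (rot : ∀ u v, Φ v (nxt u v) ↔ Φ u v) (sw : ∀ u ∈ O, ∀ v, Adj u v → (Φ u v ↔ Φ v u))
    {o o' a b : V} (ho : o ∈ O) (ho' : o' ∈ O) (ha : Adj o a) (hb : Adj o' b) :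
    Φ o a ↔ Φ o' b := by
  have t : ∀ u ∈ O, ∀ c, Adj u c → (Φ u c ↔ Φ u (nxt u c)) := fun u hu c hc => by
    rw [sw u hu _ hc.nxt, ← rot u c, ← rot c (nxt u c), nxt_nxt]
  have six : ∀ u ∈ O, ∀ c d, Adj u c → Adj u d → (Φ u c ↔ Φ u d) := fun u hu c d hc hd => by
    rcases nxt_cases hc hd with e | e | e | e | e | e
    · rw [e]
    · rw [t u hu c hc, e]
    · rw [t u hu c hc, t u hu _ hc.nxt, e]
    · rw [t u hu c hc, t u hu _ hc.nxt, t u hu _ hc.nxt.nxt, e]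
    · rw [t u hu d hd, t u hu _ hd.nxt, ← e]
    · rw [t u hu d hd, ← e]
  refine (hO o ho o' ho').ind (P := fun v => ∀ d, Adj v d → (Φ o a ↔ Φ v d))
    (fun d hd => six o ho a d ha hd) (fun u v _ huv _ hu hv ih d hd => ?_) b hb
  rw [ih v huv, sw u hu v huv, six v hv u d huv.symm hd]

theorem s_par : S_par := by
  intro P M O l r n j₀ j₁ m j₂ hPM he hs hi hj h1 h2 h3 hO o1 o2 lm rm cX cY
  have hm : m ≤ n := by omega
  have h0 : j₀ ≤ n := by omega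
  obtain ⟨lj, rj, Φ, rot, sw⟩ := rpar_phi (A := P \ O) (B := M \ O) ⟨(he m hm).1, lm⟩
    ⟨(he m hm).2.1, rm⟩ (he m hm).2.2 (he j₀ h0).2.2 cX cY
  have swO : ∀ u ∈ O, ∀ v, Adj u v → (Φ u v ↔ Φ v u) := fun u hu v huv =>
    (sw u v huv (fun k => k.1.2 hu) fun k => k.1.2 hu).2 (iff_of_false
      (by rintro (⟨rfl, -⟩ | ⟨-, rfl⟩); exacts [lm hu, rm hu])
      (by rintro (⟨rfl, -⟩ | ⟨-, rfl⟩); exacts [lj.2 hu, rj.2 hu]))
  have ed : ∀ i ≤ n, ∀ k ≤ n,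
      ((l k = l i ∧ r k = r i) ∨ (l k = r i ∧ r k = l i)) ↔ k = i := fun i hi' k hk =>
    ⟨fun h => h.elim (fun h => hi k hk i hi' h.1 h.2) fun h =>
      (disjoint_left.1 hPM (he k hk).1 (h.1 ▸ (he i hi').2.1)).elim, fun h => by simp [h]⟩
  have swE : ∀ i ≤ n, (Φ (l i) (r i) ↔ Φ (r i) (l i)) ↔ (m = i ↔ j₀ = i) := fun i hi' => by
    rw [sw _ _ (he i hi').2.2 (fun k => disjoint_left.1 hPM k.2.1 (he i hi').2.1)
      (fun k => disjoint_left.1 hPM (he i hi').1 k.1.1), ed i hi' m hm, ed i hi' j₀ h0]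
  have n1 : j₀ ≠ j₁ := fun e => o1.elim (e ▸ lj.2) (e ▸ rj.2)
  have n2 : j₀ ≠ j₂ := fun e => o2.elim (e ▸ lj.2) (e ▸ rj.2)
  have step : ∀ i < n, Φ (r (i + 1)) (l (i + 1)) ↔ Φ (l i) (r i) := fun i hi' => by
    rcases hs i hi' with ⟨e1, e2⟩ | ⟨e1, e2⟩
    · rw [e1, e2, rot]
    · rw [e1, e2, ← rot (l i) (r i), ← rot (r i), nxt_nxt]
  have main : ∀ i, j₁ ≤ i → i ≤ j₂ → (Φ (l i) (r i) ↔ (Φ (l j₁) (r j₁) ↔ i < m)) := by
    intro i hi1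
    induction i, hi1 using Nat.le_induction with
    | base => intro _; simp [h1]
    | succ i hi1 ih =>
      intro hi2
      have k1 := swE (i + 1) (by omega)
      rw [step i (by omega), ih (by omega)] at k1
      have k2 : ¬ j₀ = i + 1 := by omega
      exact rpar_step k1 k2 (by omega)
  have tO : ∀ i ≤ n, (l i ∈ O ∨ r i ∈ O) → ∃ o ∈ O, ∃ a, Adj o a ∧ (Φ (l i) (r i) ↔ Φ o a) :=
    fun i hi' h => h.elim (fun h => ⟨_, h, _, (he i hi').2.2, Iff.rfl⟩) fun h =>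
      ⟨_, h, _, (he i hi').2.2.symm, (swO _ h _ (he i hi').2.2.symm).symm⟩
  obtain ⟨u, hu, a, ha, e1⟩ := tO j₁ (by omega) o1
  obtain ⟨v, hv, b, hb, e2⟩ := tO j₂ h3 o2
  have k := main j₂ (by omega) le_rfl
  rw [e1, e2, rpar_const hO rot swO hu hv ha hb] at k
  have k' : ¬ j₂ < m := by omega
  exact iff_not_self (k.trans ⟨fun e h => k' (e.1 h), fun h => iff_of_false h k'⟩)

end Vale.Agent.P153.K2
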