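import Vale.Agent.P153.K2.Stm

/-! P153, module K2: crossings of an annulus are joined to the boundary. Statements. -/

open Set

noncomputable section
namespace Vale.Agent.P153.K2

/-- Sites joined to a pinned site through `A` inside the hexagon. -/
def Jn (F A : Set V) (z : V) (R : ℕ) : Set V :=
  {x | ∃ y ∈ hex z R, y ∉ F ∧ Conn (both A) (hex z R) x y}

/-- The wall `W` agrees with the pinned sites in the annulus. -/
structure Ann (F W T O : Set V) (z : V) (r R : ℕ) : Prop where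
  fin : F.Finite
  cF : Cnn Fᶜ
  r1 : 1 ≤ r
  cW : Cnn W
  cT : Cnn T
  cO : Cnn O
  Tr : T ⊆ hex z r
  TW : Disjoint T W
  OW : Disjoint O W
  OR : Disjoint O (hex z R)
  near : (W ∩ hex z r).Nonempty
  far : ¬ W ⊆ hex z R
  eq : ∀ x ∈ hex z R, x ∉ hex z r → (x ∈ W ↔ x ∉ F)

def K4le : Prop := ∀ η : ℝ, 0 < η → ∃ M : ℕ, ∀ (F S W T O : Set V) (z : V) (r R : ℕ),
  Ann F W T O z r R → M * r ≤ R →
  Pr (dob F S) {H | ∃ a ∈ T, ∃ b ∈ O, Conn (both (le 0 H)) (Wᶜ ∩ (Jn F (le 0 H) z R)ᶜ) a b} ≤ η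

def K4ge : Prop := ∀ η : ℝ, 0 < η → ∃ M : ℕ, ∀ (F S W T O : Set V) (z : V) (r R : ℕ),
  Ann F W T O z r R → M * r ≤ R →
  Pr (dob F S) {H | ∃ a ∈ T, ∃ b ∈ O, Conn (both (ge 1 H)) (Wᶜ ∩ (Jn F (ge 1 H) z R)ᶜ) a b} ≤ η

/-- The two screens. -/
def XX (z : V) (r N : ℕ) (H : Cfg) : Set V := Rch (hex z (r + 1) ∪ (hex z N)ᶜ) (eLe (-2)) H

/-- The low cluster of the pinned sites of the annulus between the screens. -/
def QQ (F : Set V) (z : V) (r N R : ℕ) (H : Cfg) : Set V :=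
  {x | ∃ y ∈ (hex z R \ hex z r) \ F,
    Conn (fun a _ => H a ≤ 0) ((XX z r N H)ᶜ ∪ (hex z R \ hex z r) \ F) y x}

/-- The configurations with the same explorations as `H`. -/
def cell2 (F S : Set V) (z : V) (r N R : ℕ) (H : Cfg) : Set Cfg :=
  {K | K ∈ dob F S ∧ (∀ x ∈ XX z r N H ∪ QQ F z r N R H, K x = H x) ∧
    ∀ a ∈ XX z r N H, ∀ b, b ∉ XX z r N H → Adj a b → ¬ eLe (-2) (H a) (K b)}

/-- Truncation from below. -/
def trc (W : Set V) (H : Cfg) : Cfg := pw W (H ⊔ fun _ => 0) (H ⊔ fun _ => -1)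

def S_arm : Prop := ∀ η : ℝ, 0 < η → ∃ K : ℕ, 1 ≤ K ∧ ∀ (F S : Set V) (z : V) (r : ℕ), F.Finite →
  Cnn Fᶜ → 1 ≤ r → ¬ hex z r ⊆ F → Pr (dob F S) {H | Arm (star (le (-2) H)) z r (K * r)} ≤ η

def S_c2a : Prop := ∀ (F S : Set V) (z : V) (r N R : ℕ) (H : Cfg), H ∈ dob F S →
  (H ∈ cell2 F S z r N R H ∧ cell2 F S z r N R H ⊆ dob F S) ∧ ∀ K ∈ cell2 F S z r N R H,
    XX z r N K = XX z r N H ∧ QQ F z r N R K = QQ F z r N R H ∧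
      cell2 F S z r N R K = cell2 F S z r N R H

def S_c2b : Prop := ∀ (F S W T O C Ω : Set V) (z : V) (r N R : ℕ) (H : Cfg), Ann F W T O z r R →
  N + 1 ≤ R → H ∈ dob F S → Disjoint (XX z r N H) Ω → Disjoint C (QQ F z r N R H) →
  Cnn (W ∪ QQ F z r N R H) ∧
  Low (W ∪ QQ F z r N R H) C Ω (XX z r N H ∪ QQ F z r N R H)ᶜ (trc (W ∪ QQ F z r N R H) H) ∧
  ∀ E E' : Set Cfg, (∀ K ∈ cell2 F S z r N R H, ∀ G ∈ lowS (W ∪ QQ F z r N R H)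
      (XX z r N H ∪ QQ F z r N R H)ᶜ (trc (W ∪ QQ F z r N R H) H),
      (∀ x ∈ (XX z r N H ∪ QQ F z r N R H)ᶜ, K x = G x) → K ∈ E → G ∈ E') →
    Pr (cell2 F S z r N R H) E ≤ Pr (lowS (W ∪ QQ F z r N R H)
      (XX z r N H ∪ QQ F z r N R H)ᶜ (trc (W ∪ QQ F z r N R H) H)) E'

/-- A chain of triangles crosses a closed walk an even number of times. -/
def S_par : Prop := ∀ (P M O : Set V) (l r : ℕ → V) (n j₀ j₁ m j₂ : ℕ), Disjoint P M →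
  (∀ i ≤ n, l i ∈ P ∧ r i ∈ M ∧ Adj (l i) (r i)) →
  (∀ i < n, (l (i + 1) = nxt (l i) (r i) ∧ r (i + 1) = r i) ∨
    (l (i + 1) = l i ∧ r (i + 1) = nxt (l i) (r i))) →
  (∀ i ≤ n, ∀ i' ≤ n, l i = l i' → r i = r i' → i = i') → (j₀ = 0 ∨ j₀ = n) → j₁ < m → m < j₂ →
  j₂ ≤ n → Cnn O → (l j₁ ∈ O ∨ r j₁ ∈ O) → (l j₂ ∈ O ∨ r j₂ ∈ O) → l m ∉ O → r m ∉ O →
  Conn tt (P \ O) (l m) (l j₀) → Conn tt (M \ O) (r m) (r j₀) → False

end Vale.Agent.P153.K2
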