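import Vale.Agent.P153.FKG.All
import Vale.Agent.P153.Planar.Hex
import Vale.Agent.P153.Planar.Circ

/-! P153, module K2 (crosscut estimate and boundary values): definitions and statements. -/

open Set

noncomputable section
namespace Vale.Agent.P153.K2

/-- All edges are open. -/
abbrev tt : V → V → Prop := fun _ _ => True

/-- Sites whose height is outside the band `{k, k+1}`. -/
def hi (k : ℤ) (H : Cfg) : Set V := {z | 3 ≤ ab k H z}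

/-- Total weight. -/
def tot (a : V →₀ ℝ) : ℝ := a.sum fun _ c => c

/-- The hexagon as a finite set. -/
def hexF (x : V) (n : ℕ) : Finset V := (hex_finite x n).toFinset

/-! ### Inputs (copies of `App.A1`, `App.Push`, `App.Mix`, `Wick.L_mb`) -/

def A1 : Prop := ∃ (C : ℕ) (c : ℝ), 1 ≤ C ∧ 0 < c ∧ ∀ (N : ℕ) (x : V) (U : Set V) (k : ℤ), 1 ≤ N →
  U.Finite → hex x (C * N) ⊆ U →
  c ≤ Pr (free U k) {H | Circ (star (ge (k + 2) H)) x N (C * N)} ∧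
    c ≤ Pr (free U k) {H | Circ (star (le (k - 1) H)) x N (C * N)}

def Push : Prop := ∃ (C : ℕ) (c : ℝ), 1 ≤ C ∧ 0 < c ∧ ∀ (N : ℕ) (x : V) (U : Set V) (k : ℤ),
  1 ≤ N → U.Finite → hex x (C * N) ⊆ U →
  c ≤ Pr (free U k) {H | Disjoint (Rch (U \ ibd U)ᶜ (eLe k) H) (hex x N)} ∧
    c ≤ Pr (free U k) {H | Disjoint (Rch (U \ ibd U)ᶜ (eGe (k + 1)) H) (hex x N)} ∧
    c ≤ Pr (flat U k) {H | Disjoint (Rch Uᶜ (eLe (k - 1)) H) (hex x N)} ∧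
    c ≤ Pr (flat U k) {H | Disjoint (Rch Uᶜ (eGe (k + 1)) H) (hex x N)}

def Mix : Prop := ∃ (C : ℕ) (θ : ℝ), 1 ≤ C ∧ 0 < θ ∧ θ < 1 ∧ ∀ (j : ℤ) (Pl Mi : Set V)
  (W : V → V → Prop) (x₀ : V) (b : ℤ) (x : V) (J r R : ℕ), Far W → (Pl ∪ Mi)ᶜ.Finite →
  x₀ ∈ Pl ∪ Mi → x₀ ∉ hex x R → Disjoint Mi (hex x R \ ibd (hex x R)) →
  (∀ y z, Adj y z → W y z → y ∉ hex x R \ ibd (hex x R) ∨ z ∉ hex x R \ ibd (hex x R)) →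
  1 ≤ r → C ^ J * r ≤ R →
  Pr (OmS j Pl Mi W x₀ b) {H | Arm (star (sp (j + 2) H)) x r R} ≤ θ ^ J

def MB : Prop := ∃ C : ℝ, ∀ (F S : Set V) (x : V) (N : ℕ) (a : V →₀ ℝ), F.Finite ∧ Cnn Fᶜ →
  1 ≤ N → ¬ hex x N ⊆ F → ((∀ y, |a y| ≤ 1) ∧ ∀ y, a y ≠ 0 → y ∈ hex x N) →
  Ex (dob F S) (fun H => lin a H ^ 4) ≤ C * N ^ 8

/-! ### Outputs -/

/-- The room of `t`: its component in the hexagon minus the wall. -/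
def room (W : Set V) (z t : V) (R : ℕ) : Set V := comp (hex z R \ W) t

/-- `T` is a small connected set near the pinned connected wall `W`, and its room is free. -/
structure Room (F W T : Set V) (z t : V) (r R : ℕ) : Prop where
  fin : F.Finite
  cF : Cnn Fᶜ
  cW : Cnn W
  WF : Disjoint W F
  r1 : 1 ≤ r
  near : (W ∩ hex z r).Nonempty
  far : ¬ W ⊆ hex z R
  tT : t ∈ T
  cT : Cnn T
  Tr : T ⊆ hex z r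
  TW : Disjoint T W
  CF : room W z t R ⊆ F

/-- `O` is connected and avoids the wall and the room. -/
def Away (W O : Set V) (z t : V) (R : ℕ) : Prop :=
  Cnn O ∧ Disjoint O W ∧ Disjoint O (room W z t R)

/-- `T` and `O` are joined by a path inside `A`. -/
def Lk (A T O : Set V) : Prop := ∃ a ∈ T, ∃ b ∈ O, Conn (both A) univ a b

/-- The crosscut estimate for low paths along a wall of height one. -/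
def K2le : Prop := ∀ η : ℝ, 0 < η → ∃ M : ℕ, ∀ (F S W T O : Set V) (z t : V) (r R : ℕ),
  Room F W T z t r R → M * r ≤ R → Away W O z t R → W ⊆ S →
  Pr (dob F S) {H | Lk (le 0 H) T O} ≤ η

/-- The crosscut estimate for paths avoiding the height of the wall. -/
def K2ne : Prop := ∀ η : ℝ, 0 < η → ∃ M : ℕ, ∀ (F S W T O : Set V) (z t : V) (r R : ℕ) (k : ℤ),
  Room F W T z t r R → M * r ≤ R → Away W O z t R → (k = 1 ∧ W ⊆ S ∨ k = 0 ∧ Disjoint W S) →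
  Pr (dob F S) {H | Lk {v | H v ≠ k} T O} ≤ η

/-- Boundary values from connections. -/
def BV0 : Prop := ∀ (F S O O' : Set V) (k : ℤ) (a : V →₀ ℝ) (G : Cfg → ℝ), F.Finite →
  (k = 1 ∧ Fᶜ \ S ⊆ O' ∨ k = 0 ∧ Fᶜ ∩ S ⊆ O') → DepOn G O → (∀ H, |G H| ≤ 1) →
  |Ex (dob F S) fun H => (lin a H - k * tot a) * G H| ≤
    √(Pr (dob F S) {H | ∃ x, a x ≠ 0 ∧ H x ≠ k ∧ Lk {v | H v ≠ k} {x} (O ∪ O')}) *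
      √(Ex (dob F S) fun H => (lin a H - k * tot a) ^ 2)

/-- Boundary values behind `T`. -/
def BVR : Prop := ∀ η : ℝ, 0 < η → ∃ M : ℕ, ∀ (F S W T O O' : Set V) (z t : V) (r R : ℕ) (k : ℤ)
  (a : V →₀ ℝ) (G : Cfg → ℝ), Room F W T z t r R → M * r ≤ R → Away W O z t R → Away W O' z t R →
  (k = 1 ∧ W ⊆ S ∧ Fᶜ \ S ⊆ O' ∨ k = 0 ∧ Disjoint W S ∧ Fᶜ ∩ S ⊆ O') → DepOn G O →
  (∀ H, |G H| ≤ 1) →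
  (∀ x, a x ≠ 0 → x ∉ W → x ∉ T → ∀ b ∈ O ∪ O', ¬ Conn tt (W ∪ T)ᶜ x b) →
  |Ex (dob F S) fun H => (lin a H - k * tot a) * G H| ≤
    η * √(Ex (dob F S) fun H => (lin a H - k * tot a) ^ 2)

/-! ### Topology -/

/-- The edge separates `t` from `u` along the two rays. -/
def chi (t u a b : V) : Prop := ¬ (crossR t a b ↔ crossR u a b)

/-- The geometric data. -/
structure Geo where
  W : Set V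
  T : Set V
  O : Set V
  z : V
  t : V
  u : V
  r : ℕ
  R : ℕ
  g : V → Prop
  cW : Cnn W
  near : (W ∩ hex z r).Nonempty
  far : ¬ W ⊆ hex z R
  rR : r ≤ R
  tT : t ∈ T
  cT : Cnn T
  Tr : T ⊆ hex z r
  TW : Disjoint T W
  away : Away W O z t R
  uR : u ∉ hex z R
  uW : u ∉ W
  uO : ∃ o ∈ O, Conn tt (room W z t R ∪ W)ᶜ u o
  pot : ∀ a b, Adj a b → a ∉ room W z t R → b ∉ room W z t R → a ≠ u → b ≠ u →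
    (chi t u a b ↔ ¬ (g a ↔ g b))

/-- The room. -/
def Geo.C (Γ : Geo) : Set V := room Γ.W Γ.z Γ.t Γ.R

/-- `A` contains an odd crosscut. -/
def Geo.Odd (Γ : Geo) (A : Set V) : Prop :=
  ∃ a ∈ Γ.W, ∃ b ∈ Γ.W, OC (chi Γ.t Γ.u) tt A a b (Γ.g a ↔ Γ.g b)

/-- A low path from `T` to `O`. -/
def Geo.Bad (Γ : Geo) : Set Cfg :=
  {H | ∃ a ∈ Γ.T, ∃ b ∈ Γ.O, Conn (both (le 0 H)) Γ.Wᶜ a b}

/-- An odd crosscut of size comparable with `w` in the annulus at scale `s`. -/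
structure Geo.Cut (Γ : Geo) (s : ℕ) (σ : Set V) (w : ℕ) (x₀ : V) : Prop where
  odd : Γ.Odd σ
  sub : σ ⊆ Γ.C ∪ Γ.W
  small : σ ⊆ hex x₀ (4 * w + 4)
  ann : ∀ x ∈ σ, hex x (2 * w) ⊆ hex Γ.z (6 * s) \ hex Γ.z s

/-- No odd crosscut of size `w` near `σ`. -/
def Geo.Even (Γ : Geo) (σ : Set V) (w : ℕ) : Prop :=
  ∀ x ∈ σ, ¬ Γ.Odd (hex x w ∩ (Γ.C ∪ Γ.W))

def S_card : Prop := ∀ x n, n ^ 2 ≤ (hexF x n).card ∧ (hexF x n).card ≤ (2 * n + 1) ^ 2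

def S_cobd : Prop := ∀ (A : Set V) (t u : V), t ∈ A → Conn tt A t u →
  ∃ g : V → Prop, ∀ a b, Adj a b → a ∉ A → b ∉ A → (chi t u a b ↔ ¬ (g a ↔ g b))

def S_geo : Prop := ∀ (F W T O : Set V) (z t : V) (r R : ℕ), Room F W T z t r R → r ≤ R →
  Away W O z t R → (∃ a ∈ T, ∃ b ∈ O, Conn tt Wᶜ a b) →
  ∃ Γ : Geo, Γ.W = W ∧ Γ.T = T ∧ Γ.O = O ∧ Γ.z = z ∧ Γ.t = t ∧ Γ.r = r ∧ Γ.R = R

def S_block : Prop := ∀ (Γ : Geo) (A B : Set V), Γ.Odd A → A ⊆ Γ.C ∪ Γ.W → Disjoint A Γ.T →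
  Disjoint B Γ.W → Disjoint B A → ∀ a ∈ Γ.T, ∀ b ∈ Γ.O, ¬ Conn tt B a b

def S_circle : Prop := ∀ (Γ : Geo) (s : ℕ), Γ.r < s → s ≤ Γ.R →
  Γ.Odd ((Γ.C ∪ Γ.W) ∩ {x | nrm (x - Γ.z) = s})

def S_halve : Prop := ∀ (Γ : Geo) (s : ℕ), 1 ≤ s → Γ.r ≤ s → 6 * s ≤ Γ.R →
  ∃ σ w x₀, Γ.Cut s σ w x₀ ∧ (w = 0 ∨ Γ.Even σ w)

def S_types : Prop := ∀ (Γ : Geo) (σ : Set V) (w n : ℕ), Γ.Odd σ → σ ⊆ Γ.C ∪ Γ.W → n + 2 ≤ w →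
  (∀ x ∈ σ, hex x w ⊆ hex Γ.z Γ.R) → Γ.Even σ w →
  ∃ y₁ ∈ σ, ∃ y₂ ∈ σ, Disjoint (hex y₁ n) Γ.W ∧ Disjoint (hex y₂ n) Γ.W ∧
    (Γ.W ∩ hex y₁ (n + 1)).Nonempty ∧ (Γ.W ∩ hex y₂ (n + 1)).Nonempty ∧
    ∀ (A₁ A₂ : Set V) (v₁ v₂ : V), A₁ ⊆ hex y₁ w ∩ (Γ.C ∪ Γ.W) → A₂ ⊆ hex y₂ w ∩ (Γ.C ∪ Γ.W) →
      v₁ ∈ Γ.W → v₂ ∈ Γ.W → y₁ ∈ A₁ → y₂ ∈ A₂ → Conn tt A₁ y₁ v₁ → Conn tt A₂ y₂ v₂ →
      Γ.Odd ({x | x ∈ σ ∧ Disjoint (hex x n) Γ.W} ∪ A₁ ∪ A₂)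

/-- A point of `B` is joined to the wall by a high path inside `A`. -/
def Zev (W A : Set V) (B : Finset V) : Set Cfg :=
  {H | ∃ p ∈ B, ∃ v ∈ obd W, 1 ≤ H p ∧ p ∈ A ∧ Conn (both (ge 1 H)) A p v}

/-- The blocking configuration at a large scale. -/
def S_lgeo : Prop := ∀ (M Λ : ℕ) (Γ : Geo) (s : ℕ) (σ : Set V) (w : ℕ) (x₀ : V) (m t : ℕ), 1 ≤ M →
  1 ≤ Λ → 1 ≤ m → (Λ * (4 * M + 3) + 1) * m ≤ w → t = (4 * M + 2) * m + 1 → Γ.r ≤ s →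
  6 * s ≤ Γ.R → Γ.Cut s σ w x₀ → Γ.Even σ w →
  ∃ (D : Finset V) (y₁ y₂ : V), D.card ≤ (2 * ((4 * w + 4) / (m + 1)) + 3) ^ 2 ∧
    (∀ c ∈ D, hex c (M * (4 * m)) ⊆ Γ.C ∩ (hex Γ.z (6 * s) \ hex Γ.z s)) ∧
    (∀ y, y = y₁ ∨ y = y₂ → hex y m ⊆ Γ.C ∧ (Γ.W ∩ hex y t).Nonempty ∧
      hex y (Λ * t) ⊆ hex Γ.z (6 * s) \ hex Γ.z s) ∧
    ∀ H : Cfg, (∀ c ∈ D, Circ (both (ge 1 H)) c (4 * m) (M * (4 * m))) →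
      H ∈ Zev Γ.W (Γ.C ∩ hex y₁ (Λ * t)) (hexF y₁ m) →
      H ∈ Zev Γ.W (Γ.C ∩ hex y₂ (Λ * t)) (hexF y₂ m) → H ∉ Γ.Bad

/-! ### The class of measures -/

/-- Pinned to `ξ` off `U`, at least `-1` on the inner boundary, at least `0` next to the wall. -/
def lowS (W U : Set V) (ξ : Cfg) : Set Cfg :=
  {H | Lip H ∧ (∀ x, x ∉ U → H x = ξ x) ∧ (∀ x ∈ ibd U, -1 ≤ H x) ∧ ∀ x ∈ U, x ∈ obd W → 0 ≤ H x}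

/-- Admissible data; `Ω` is the region where the room `C` is still free. -/
structure Low (W C Ω U : Set V) (ξ : Cfg) : Prop where
  fin : U.Finite
  cU : Cnn Uᶜ
  WU : Disjoint W U
  CU : C ∩ Ω ⊆ U
  ne : (lowS W U ξ).Nonempty
  b1 : ∀ x ∈ obd U, -1 ≤ ξ x
  b2 : ∀ x ∈ Ω, x ∉ U → -1 ≤ ξ x
  b3 : ∀ x ∈ W, 0 ≤ ξ x

/-- Height `-1` on `P`, free on `B`, in the band `{0, 1}` elsewhere. -/
def nuP (P B : Set V) : Set Cfg :=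
  {H | Lip H ∧ (∀ x ∈ P, H x = -1) ∧ ∀ x, x ∉ P → x ∉ B → H x = 0 ∨ H x = 1}

/-- Local Holley criterion. -/
def S_lh : Prop := ∀ (S T : Set Cfg) (U : Set V), Good S → Good T → AllLip S → AllLip T →
  (∀ H ∈ S, ∀ K ∈ T, pw U (H ⊓ K) H ∈ S ∧ pw U (H ⊔ K) K ∈ T) → SD (fun H (x : U) => H x) S T

def S_low : Prop := ∀ (W C Ω U : Set V) (ξ : Cfg), Low W C Ω U ξ →
  Good (lowS W U ξ) ∧ PA id (lowS W U ξ) ∧ SD (fun H (x : U) => H x) (free U (-1)) (lowS W U ξ)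

def S_ldob : Prop := ∀ F S W C : Set V, F.Finite → Cnn Fᶜ → Disjoint W F → W ⊆ S → C ⊆ F →
  ∃ ξ, Low W C univ F ξ ∧ dob F S = lowS W F ξ

def S_cell : Prop := ∀ (W C Ω Ω' U : Set V) (ξ H : Cfg) (y : V) (N : ℕ), Low W C Ω U ξ →
  H ∈ lowS W U ξ → Ω' ⊆ Ω → Disjoint (Rch (hex y N)ᶜ (eLe (-2)) H) Ω' →
  cell (lowS W U ξ) (hex y N)ᶜ (eLe (-2)) H = lowS W (U \ Rch (hex y N)ᶜ (eLe (-2)) H) H ∧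
    Low W C Ω' (U \ Rch (hex y N)ᶜ (eLe (-2)) H) H

/-- A wall in the band fixes the level of the screen. -/
def S_force : Prop := ∀ (H : Cfg) (A : Set V) (y : V) (r R : ℕ), Lip H → r ≤ R → Cnn A →
  (A ∩ hex y r).Nonempty → ¬ A ⊆ hex y R → (∀ x ∈ A, x ∈ hex y R → H x = 0 ∨ H x = 1) →
  Arm (star (hi 0 H)) y r R → Arm (star (sp 2 H)) y r R

def S_nu : Prop := ∀ (P B : Set V) (x₀ : V), Pᶜ.Finite → Disjoint P B →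
  Good (nuP P B) ∧ (Cnn P → Cnn Bᶜ → x₀ ∈ P → nuP P B = OmS 0 (P ∪ B)ᶜ P (both P) x₀ (-1))

def S_mixp : Prop := ∀ η : ℝ, 0 < η → ∃ K : ℕ, 1 ≤ K ∧ ∀ (P B : Set V) (y : V) (r : ℕ),
  Pᶜ.Finite → Cnn P → Cnn Bᶜ → Disjoint P B → Disjoint P (hex y (K * r)) → 1 ≤ r →
  ¬ hex y r ⊆ B → Pr (nuP P B) {H | Arm (star (hi 0 H)) y r (K * r)} ≤ η

def S_mixw : Prop := ∀ η : ℝ, 0 < η → ∃ K : ℕ, 1 ≤ K ∧ ∀ (U : Set V) (k : ℤ) (y : V) (r : ℕ),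
  U.Finite → Cnn Uᶜ → 1 ≤ r → ¬ hex y r ⊆ U →
  Pr (free U k) {H | Arm (star (hi k H)) y r (K * r)} ≤ η

def S_scr : Prop := ∀ η : ℝ, 0 < η → ∃ K : ℕ, 1 ≤ K ∧ ∀ (W C Ω U : Set V) (ξ : Cfg) (y : V)
  (r : ℕ), Low W C Ω U ξ → 1 ≤ r → ann y r (K * r) ⊆ Ω → (W ∩ hex y r).Nonempty →
  Pr (lowS W U ξ) {H | ¬ Disjoint (Rch (hex y (K * r))ᶜ (eLe (-2)) H) (hex y r)} ≤ η

def S_circ : Prop := ∃ (M : ℕ) (c : ℝ), 1 ≤ M ∧ 0 < c ∧ ∀ (W C Ω U : Set V) (ξ : Cfg) (y : V)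
  (n : ℕ), Low W C Ω U ξ → 1 ≤ n → hex y (M * n) ⊆ U →
  c ≤ Pr (lowS W U ξ) {H | Circ (both (ge 1 H)) y n (M * n)}

def S_mom : Prop := ∃ C : ℝ, 0 < C ∧ ∀ (U : Set V) (k : ℤ) (y : V) (t : ℕ) (B : Finset V),
  U.Finite → Cnn Uᶜ → |k| ≤ 1 → 1 ≤ t → ¬ hex y t ⊆ U → ↑B ⊆ hex y t →
  Ex (flat U k) (fun H => (∑ p ∈ B, (H p : ℝ)) ^ 2) ≤ C * t ^ 4

def S_momp : Prop := ∃ C : ℝ, 0 < C ∧ ∀ (P B₀ : Set V) (y : V) (t : ℕ) (B : Finset V),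
  Pᶜ.Finite → Cnn B₀ᶜ → Disjoint P B₀ → 1 ≤ t → ¬ hex y t ⊆ B₀ → ↑B ⊆ hex y t →
  Ex (nuP P B₀) (fun H => (∑ p ∈ B, (H p : ℝ)) ^ 2) ≤ C * t ^ 4 ∧
    Ex (nuP P B₀) (fun H => (∑ p ∈ B, ((H p : ℝ) - 1 / 2)) ^ 2) ≤ C * t ^ 4

/-- The reflection symmetry inside a band screen. -/
def S_zlo : Prop := ∀ (P B₀ St : Set V) (B : Finset V), Pᶜ.Finite → Disjoint P B₀ → P ⊆ St →
  Ex (nuP P B₀) (fun H => ({K | Disjoint (Rch St (eA 0) K) B} : Set Cfg).indicator 1 H *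
    ∑ p ∈ B, ((H p : ℝ) - 1 / 2)) = 0

/-- The event that a high point of `B` is reached from the complement of `B₀`. -/
def Zup (B₀ : Set V) (B : Finset V) : Set Cfg :=
  {H | ∃ p ∈ B, 1 ≤ H p ∧ p ∈ Rch B₀ᶜ (fun s _ => 1 ≤ s) H}

def S_zhi : Prop := ∀ (P B₀ : Set V) (B : Finset V), Pᶜ.Finite → Disjoint P B₀ →
  Ex (nuP P B₀) (fun H => (Zup B₀ B)ᶜ.indicator 1 H * ∑ p ∈ B, (H p : ℝ)) ≤ 0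

def S_zed0 : Prop := ∀ q : ℕ, ∃ (K : ℕ) (c : ℝ), 1 ≤ K ∧ 0 < c ∧ ∀ (P B₀ : Set V) (y : V) (t : ℕ)
  (B : Finset V), Pᶜ.Finite → Cnn P → Cnn B₀ᶜ → Disjoint P B₀ → Disjoint P (hex y (K * t)) →
  1 ≤ t → ¬ hex y t ⊆ B₀ → ↑B ⊆ hex y t → t ^ 2 ≤ q * B.card → c ≤ Pr (nuP P B₀) (Zup B₀ B)

def S_zcmp : Prop := ∀ (W C Ω U P : Set V) (ξ : Cfg) (y : V) (L : ℕ) (B : Finset V),
  Low W C Ω U ξ → Cnn W → Disjoint C W → Cnn P → (hex y L)ᶜ ⊆ P → Disjoint P U → C \ P ⊆ U →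
  (∀ a ∈ C, ∀ b ∈ hex y L, Adj a b → b ∉ W → b ∈ C) → ¬ W ⊆ hex y L → ↑B ⊆ C \ P →
  Cnn ((C \ P) \ obd W)ᶜ ∧
    Pr (nuP P ((C \ P) \ obd W)) (Zup ((C \ P) \ obd W) B) ≤
      Pr (lowS W U ξ) (Zev W (C ∩ hex y L) B)

/-- Connection to the wall. -/
def S_zed : Prop := ∀ q : ℕ, ∃ (Λ : ℕ) (c : ℝ), 1 ≤ Λ ∧ 0 < c ∧ ∀ (W C Ω U : Set V) (ξ : Cfg)
  (y : V) (t : ℕ) (B : Finset V), Low W C Ω U ξ → Cnn W → Disjoint C W → 1 ≤ t →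
  hex y (Λ * t) ⊆ Ω → (∀ a ∈ C, ∀ b ∈ hex y (Λ * t), Adj a b → b ∉ W → b ∈ C) →
  (W ∩ hex y t).Nonempty → ¬ W ⊆ hex y (Λ * t) → ↑B ⊆ C ∩ hex y t → t ^ 2 ≤ q * B.card →
  c ≤ Pr (lowS W U ξ) (Zev W (C ∩ hex y (Λ * t)) B)

/-- A likely blocking event outside the hexagon of radius `s`. -/
def Geo.Blk (Γ : Geo) (s : ℕ) (S : Set Cfg) (c : ℝ) : Prop :=
  ∃ E : Set Cfg, DepOn (· ∈ E) (hex Γ.z s)ᶜ ∧ (∀ H ∈ E, H ∉ Γ.Bad) ∧ c ≤ Pr S E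

def S_large : Prop := ∃ (E : ℕ) (c : ℝ), 1 ≤ E ∧ 0 < c ∧ ∀ (Γ : Geo) (s : ℕ) (Ω U σ : Set V)
  (ξ : Cfg) (w : ℕ) (x₀ : V), Γ.r ≤ s → 6 * s ≤ Γ.R → Low Γ.W Γ.C Ω U ξ →
  hex Γ.z (6 * s) \ hex Γ.z s ⊆ Ω → Γ.Cut s σ w x₀ → Γ.Even σ w → E ≤ w → Γ.Blk s (lowS Γ.W U ξ) c

def S_small : Prop := ∀ E : ℕ, ∃ (Q : ℕ) (c : ℝ), 6 ≤ Q ∧ 0 < c ∧ ∀ (Γ : Geo) (s : ℕ)
  (Ω U σ : Set V) (ξ : Cfg) (w : ℕ) (x₀ : V), Γ.r + Q ≤ s → Q * s ≤ Γ.R →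
  Low Γ.W Γ.C Ω U ξ → hex Γ.z (Q * s) \ hex Γ.z Γ.r ⊆ Ω → Γ.Cut s σ w x₀ → w < E →
  Γ.Blk s (lowS Γ.W U ξ) c

def S_one : Prop := ∃ (Q : ℕ) (c : ℝ), 1 ≤ Q ∧ 0 < c ∧ ∀ (Γ : Geo) (s : ℕ) (Ω U : Set V)
  (ξ : Cfg), Γ.r + Q ≤ s → Q * s ≤ Γ.R → Low Γ.W Γ.C Ω U ξ →
  hex Γ.z (Q * s) \ hex Γ.z Γ.r ⊆ Ω → Γ.Blk s (lowS Γ.W U ξ) c

def S_iter : Prop := ∀ η : ℝ, 0 < η → ∃ M : ℕ, 1 ≤ M ∧ ∀ (Γ : Geo) (Ω U : Set V) (ξ : Cfg),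
  1 ≤ Γ.r → M * Γ.r ≤ Γ.R → Low Γ.W Γ.C Ω U ξ → hex Γ.z (M * Γ.r) \ hex Γ.z Γ.r ⊆ Ω →
  Pr (lowS Γ.W U ξ) Γ.Bad ≤ η

end Vale.Agent.P153.K2
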