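import Vale.Agent.P153.K2.Stm

/-! P153, module K2. -/

open Set

noncomputable section
namespace Vale.Agent.P153.K2

section

variable {W C Ω U P : Set V} {ξ H K : Cfg} {B : Finset V}

theorem zcmp_cnn {w : V} (cW : Cnn W) (hCW : Disjoint C W) (cP : Cnn P) (hw : w ∈ W) (hw' : w ∈ P)
    (hc : ∀ a ∈ C, ∀ b, Adj a b → b ∉ P → b ∉ W → b ∈ C) : Cnn ((C \ P) \ obd W)ᶜ := by
  have hP : P ⊆ ((C \ P) \ obd W)ᶜ := fun x hx h => h.1.2 hx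
  have hW : W ⊆ ((C \ P) \ obd W)ᶜ := fun x hx h => disjoint_left.1 hCW h.1.1 hx
  have k1 : ∀ x ∈ P ∪ W, Conn tt ((C \ P) \ obd W)ᶜ x w := fun x hx =>
    hx.elim (fun h => (cP x h w hw').monoA hP) fun h => (cW x h w hw).monoA hW
  have k2 : ∀ x ∈ ((C \ P) \ obd W)ᶜ, Conn tt ((C \ P) \ obd W)ᶜ x w := by
    intro x hx
    by_cases h1 : x ∈ P ∪ W
    · exact k1 x h1
    by_cases h2 : x ∈ obd W
    · obtain ⟨_, b, hb, hxb⟩ := h2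
      exact .head hxb trivial hx (hW hb) (k1 b (Or.inr hb))
    have h3 : x ∉ C := fun h => hx ⟨⟨h, fun h' => h1 (Or.inl h')⟩, h2⟩
    have hD : Cᶜ \ (P ∪ W) ⊆ ((C \ P) \ obd W)ᶜ := fun z hz h => hz.1 h.1.1
    obtain ⟨u, v, a1, a2, -, -, a5, -, a7, -⟩ := (conn_univ x w).exit (B := Cᶜ \ (P ∪ W))
      ⟨h3, h1⟩ fun h => h.2 (Or.inr hw)
    have h4 : v ∈ P ∪ W := by
      by_contra h4
      have h5 : v ∈ C := not_not.1 fun h => a7 ⟨h, h4⟩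
      exact a5.1 (hc v h5 u a2.symm (fun h => a5.2 (Or.inl h)) fun h => a5.2 (Or.inr h))
    exact ((a1.monoA fun z hz => hD hz.2).tail a2 trivial (hD a5)
      (h4.elim (@hP v) (@hW v))).trans (k1 v h4)
  exact fun x hx z hz => (k2 x hx).trans ((k2 z hz).symm fun _ _ _ => trivial)

theorem zcmp_up (hCW : Disjoint C W) (hc : ∀ a ∈ C, ∀ b, Adj a b → b ∉ P → b ∉ W → b ∈ C)
    (hB : ↑B ⊆ C \ P) (hH : H ∈ nuP P ((C \ P) \ obd W)) (h : H ∈ Zup ((C \ P) \ obd W) B) :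
    H ∈ Zev W (C \ P) B := by
  obtain ⟨p, hp, h1, y, hy, hy'⟩ := h
  have key : p ∈ C \ P → 1 ≤ H p → ∃ w ∈ obd W, Conn (both (ge 1 H)) (C \ P) p w := by
    refine hy'.ind (P := fun v => v ∈ C \ P → 1 ≤ H v →
      ∃ w ∈ obd W, Conn (both (ge 1 H)) (C \ P) v w)
      (fun a _ => ⟨y, not_not.1 fun b => hy ⟨a, b⟩, .rfl⟩) fun u v _ a1 a2 _ _ ih b1 b2 => ?_
    by_cases hv : v ∈ obd W
    · exact ⟨v, hv, .rfl⟩
    have hP : u ∉ P := fun h => by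
      have := hH.2.1 u h
      omega
    have hW : u ∉ W := fun h => hv ⟨disjoint_left.1 hCW b1.1, u, h, a1.symm⟩
    have hu : u ∈ C \ P := ⟨hc v b1.1 u a1.symm hP hW, hP⟩
    obtain ⟨w, hw, hw'⟩ := ih hu a2
    exact ⟨w, hw, .head a1.symm ⟨b2, a2⟩ b1 hu hw'⟩
  obtain ⟨w, hw, hw'⟩ := key (hB hp) h1
  exact ⟨p, hp, w, hw, h1, hB hp, hw'⟩

theorem zcmp_inc (W A : Set V) (B : Finset V) : IncBy (fun H (x : A) => H x) (Zev W A B) := by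
  rintro H K - - h ⟨p, hp, v, hv, h1, h2, h3⟩
  have e : ∀ x ∈ A, H x ≤ K x := fun x hx => h ⟨x, hx⟩
  exact ⟨p, hp, v, hv, h1.trans (e p h2), h2, h3.mono' fun a b _ k ha hb =>
    ⟨⟨le_trans k.1 (e a ha), le_trans k.2 (e b hb)⟩, ha, hb⟩⟩

/-- The two types of boundary edges. -/
theorem zcmp_edge (hL : Low W C Ω U ξ) (hCW : Disjoint C W) (hPU : Disjoint P U) (hU : C \ P ⊆ U)
    (hc : ∀ a ∈ C, ∀ b, Adj a b → b ∉ P → b ∉ W → b ∈ C)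
    (hH : H ∈ nuP P ((C \ P) \ obd W)) (hK : K ∈ lowS W U ξ) {a b : V} (ha : a ∈ C \ P)
    (hb : b ∉ C \ P) (h : Adj a b) : H b - 1 ≤ K a ∧ H a ≤ K b + 1 := by
  have h1 := abs_le.1 (hH.1 a b h)
  by_cases hP : b ∈ P
  · have hbU : b ∉ U := disjoint_left.1 hPU hP
    have k1 := hH.2.1 b hP
    have k2 := hK.2.2.1 a ⟨hU ha, b, hbU, h⟩
    have k3 := hK.2.1 b hbU
    have k4 := hL.b1 b ⟨hbU, a, hU ha, h.symm⟩
    omega
  · have hW : b ∈ W := not_not.1 fun h' => hb ⟨hc a ha.1 b h hP h', hP⟩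
    have hO : a ∈ obd W := ⟨disjoint_left.1 hCW ha.1, b, hW, h⟩
    have k1 := hH.2.2 a ha.2 fun h' => h'.2 hO
    have k2 := hH.2.2 b hP fun h' => hb h'.1
    have k3 := hK.2.2.2 a (hU ha) hO
    have k4 := hK.2.1 b (disjoint_left.1 hL.WU hW)
    have k5 := hL.b3 b hW
    omega

theorem zcmp_inf (hL : Low W C Ω U ξ) (hCW : Disjoint C W) (hPU : Disjoint P U) (hU : C \ P ⊆ U)
    (hc : ∀ a ∈ C, ∀ b, Adj a b → b ∉ P → b ∉ W → b ∈ C)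
    (hH : H ∈ nuP P ((C \ P) \ obd W)) (hK : K ∈ lowS W U ξ) :
    pw (C \ P) (H ⊓ K) H ∈ nuP P ((C \ P) \ obd W) := by
  refine ⟨(hH.1.inf hK.1).pw hH.1 fun a ha b hb h => ?_, fun x hx => ?_, fun x hx hx' => ?_⟩
  · have h1 := abs_le.1 (hH.1 a b h)
    have h2 := zcmp_edge hL hCW hPU hU hc hH hK ha hb h
    rw [inf_ap, abs_le]
    omega
  · rw [pw_out _ _ fun h => h.2 hx]
    exact hH.2.1 x hx
  · have h1 := hH.2.2 x hx hx'
    by_cases h : x ∈ C \ P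
    · have h2 := hK.2.2.2 x (hU h) (not_not.1 fun h' => hx' ⟨h, h'⟩)
      rw [pw_in _ _ h, inf_ap]
      omega
    · rwa [pw_out _ _ h]

theorem zcmp_sup (hL : Low W C Ω U ξ) (hCW : Disjoint C W) (hPU : Disjoint P U) (hU : C \ P ⊆ U)
    (hc : ∀ a ∈ C, ∀ b, Adj a b → b ∉ P → b ∉ W → b ∈ C)
    (hH : H ∈ nuP P ((C \ P) \ obd W)) (hK : K ∈ lowS W U ξ) :
    pw (C \ P) (H ⊔ K) K ∈ lowS W U ξ := by
  have e : ∀ x, K x ≤ pw (C \ P) (H ⊔ K) K x := fun x => by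
    by_cases h : x ∈ C \ P
    · rw [pw_in _ _ h]; exact le_max_right _ _
    · rw [pw_out _ _ h]
  refine ⟨(hH.1.sup hK.1).pw hK.1 fun a ha b hb h => ?_, fun x hx => ?_,
    fun x hx => (hK.2.2.1 x hx).trans (e x), fun x hx hx' => (hK.2.2.2 x hx hx').trans (e x)⟩
  · have h1 := abs_le.1 (hK.1 a b h)
    have h2 := zcmp_edge hL hCW hPU hU hc hH hK ha hb h
    rw [sup_ap, abs_le]
    omega
  · rw [pw_out _ _ fun h => hx (hU h)]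
    exact hK.2.1 x hx

end

theorem s_zcmp (hh : S_lh) (hl : S_low) (hn : S_nu) : S_zcmp := by
  intro W C Ω U P ξ y L B hL cW hCW cP hP hPU hU hc hW hB
  have hc' : ∀ a ∈ C, ∀ b, Adj a b → b ∉ P → b ∉ W → b ∈ C := fun a ha b h h1 h2 =>
    hc a ha b (not_not.1 fun h' => h1 (hP h')) h h2
  obtain ⟨w, hw, hw'⟩ := not_subset.1 hW
  refine ⟨zcmp_cnn cW hCW cP hw (hP hw') hc', ?_⟩
  have g1 : Good (nuP P ((C \ P) \ obd W)) :=
    (hn P _ w ((hex_finite y L).subset (compl_subset_comm.1 hP))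
      (disjoint_left.2 fun x hx h => h.1.2 hx)).1
  have sd := hh _ _ (C \ P) g1 (hl W C Ω U ξ hL).1 (fun _ h => h.1) (fun _ h => h.1)
    fun H hH K hK => ⟨zcmp_inf hL hCW hPU hU hc' hH hK, zcmp_sup hL hCW hPU hU hc' hH hK⟩
  have hs : C \ P ⊆ C ∩ hex y L := fun x hx => ⟨hx.1, not_not.1 fun h => hx.2 (hP h)⟩
  refine ((Pr_mono fun H hH h => zcmp_up hCW hc' hB hH h).trans
    (sd.inc (zcmp_inc W _ B))).trans (Pr_mono ?_)
  rintro H - ⟨p, hp, v, hv, h1, h2, h3⟩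
  exact ⟨p, hp, v, hv, h1, hs h2, h3.monoA hs⟩

end Vale.Agent.P153.K2
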